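import Vale.Agent.P258.R2.H747.Rows8

set_option linter.all false

/-!
The count modulo seven: the slopes `2` and `-2` are not cosmetic for the `f`-twisted satellites
with the first pattern, `f = 3` or `6` modulo `7`, and all patterns congruent to it modulo `126`.
-/

namespace Vale.Agent.P258.Second.H747A

open Vale.Agent.P258 Vale.Agent.P258.Second

section Transfer

variable {Γ : Type} [Group Γ]

/-- Assignments for the link without the components in `C`, and homomorphisms. -/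
theorem exists_colHom (D : Diagram) (C : Set (Fin D.n)) :
    ∃ Φ : {ρ : Fin D.n → Γ // D.IsCol ρ ∧ ∀ c ∈ C, ρ c = 1} ≃
      (PresentedGroup (sublinkRelators D C) →* Γ),
      ∀ ρ w, Φ ρ (PresentedGroup.mk _ w) = FreeGroup.lift ρ.1 w := by
  have h : ∀ ρ : {ρ : Fin D.n → Γ // D.IsCol ρ ∧ ∀ c ∈ C, ρ c = 1},
      ∃ F : PresentedGroup (sublinkRelators D C) →* Γ,
        ∀ w, F (PresentedGroup.mk _ w) = FreeGroup.lift ρ.1 w := fun ρ =>
    exists_hom_of_sublink D C ρ.1 ρ.2.1 ρ.2.2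
  choose φ hφ using h
  have hb : Function.Bijective φ := by
    constructor
    · intro ρ ρ' h
      apply Subtype.ext
      funext a
      have h1 := hφ ρ (FreeGroup.of a)
      have h2 := hφ ρ' (FreeGroup.of a)
      rw [FreeGroup.lift_apply_of] at h1 h2
      rw [← h1, ← h2, h]
    · intro F
      have hc : D.IsCol (fun a => F (PresentedGroup.mk _ (FreeGroup.of a))) :=
        (col_of_hom D (sublinkRelators D C) (fun _ hx => Or.inl hx) F).1
      refine ⟨⟨fun a => F (PresentedGroup.mk _ (FreeGroup.of a)), hc, ?_⟩, ?_⟩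
      · intro c hc
        have : PresentedGroup.mk (sublinkRelators D C) (FreeGroup.of c) = 1 :=
          PresentedGroup.one_of_mem (Or.inr ⟨c, hc, rfl⟩)
        change F (PresentedGroup.mk (sublinkRelators D C) (FreeGroup.of c)) = 1
        rw [this, map_one]
      · apply hom_ext
        intro w
        rw [hφ, lift_comp_mk]
  exact ⟨Equiv.ofBijective φ hb, hφ⟩

theorem exists_colEquiv {D : Diagram} {C : Set (Fin D.n)} {k e : Fin D.n} {P : Diagram}
    {k' e' : Fin P.n} (hS : SameSystem D C k e P k' e') :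
    ∃ Φ : {ρ : Fin D.n → Γ // D.IsCol ρ ∧ ∀ c ∈ C, ρ c = 1} ≃ {ρ : Fin P.n → Γ // P.IsCol ρ},
      ∀ ρ, (Φ ρ).1 k' = ρ.1 k ∧ P.lonVal (Φ ρ).1 k' = D.lonVal ρ.1 k ∧
        (Φ ρ).1 e' = ρ.1 e ∧ P.lonVal (Φ ρ).1 e' = D.lonVal ρ.1 e := by
  obtain ⟨θ, ⟨t1, t2⟩, t3, t4⟩ := hS
  obtain ⟨A, hA⟩ := exists_colHom (Γ := Γ) D C
  obtain ⟨B, hB⟩ := exists_colHom (Γ := Γ) P ∅
  let Θ : PresentedGroup (sublinkRelators D C) ≃* PresentedGroup (sublinkRelators P ∅) := θ
  let Z : {ρ : Fin P.n → Γ // P.IsCol ρ ∧ ∀ c ∈ (∅ : Set (Fin P.n)), ρ c = 1} ≃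
      {ρ : Fin P.n → Γ // P.IsCol ρ} :=
    Equiv.subtypeEquivRight fun ρ => ⟨fun h => h.1, fun h => ⟨h, fun _ hc => hc.elim⟩⟩
  refine ⟨A.trans ((MulEquiv.monoidHomCongrLeftEquiv Θ).trans (B.symm.trans Z)), ?_⟩
  intro ρ
  set ρ' := B.symm (MulEquiv.monoidHomCongrLeftEquiv Θ (A ρ)) with hρ'
  have hBρ : B ρ' = MulEquiv.monoidHomCongrLeftEquiv Θ (A ρ) := by
    rw [hρ', Equiv.apply_symm_apply]
  have key : ∀ (w : FreeGroup (Fin D.n)) (w' : FreeGroup (Fin P.n)),
      θ (elem D C w) = elem P ∅ w' → FreeGroup.lift ρ'.1 w' = FreeGroup.lift ρ.1 w := by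
    intro w w' hw
    rw [← hB, hBρ, ← hA]
    change A ρ (Θ.symm (PresentedGroup.mk _ w')) = _
    have h1 : PresentedGroup.mk (sublinkRelators P ∅) w' = Θ (PresentedGroup.mk _ w) := hw.symm
    rw [h1, MulEquiv.symm_apply_apply]
  have hval : (A.trans ((MulEquiv.monoidHomCongrLeftEquiv Θ).trans (B.symm.trans Z)) ρ).1 =
      ρ'.1 := rfl
  rw [hval]
  refine ⟨?_, ?_, ?_, ?_⟩
  · have := key _ _ t1
    rwa [FreeGroup.lift_apply_of, FreeGroup.lift_apply_of] at this
  · rw [← Diagram.lift_longitude, key _ _ t2, Diagram.lift_longitude]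
  · have := key _ _ t3
    rwa [FreeGroup.lift_apply_of, FreeGroup.lift_apply_of] at this
  · rw [← Diagram.lift_longitude, key _ _ t4, Diagram.lift_longitude]

/-- The conditions on a pair of colourings. -/
def Pair (P J : Diagram) (k' e' : Fin P.n) (j : Fin J.n) (f p : ℤ)
    (x : (Fin P.n → Γ) × (Fin J.n → Γ)) : Prop :=
  P.IsCol x.1 ∧ J.IsCol x.2 ∧ P.lonVal x.1 e' = x.2 j ∧ x.1 e' = x.2 j ^ f * J.lonVal x.2 j ∧
    x.1 k' ^ p * P.lonVal x.1 k' = 1

/-- The number of homomorphisms of a twisted satellite group is the number of pairs. -/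
theorem card_twisted {N : ℕ} (hN : ∀ g : Γ, g ^ N = 1) (P : Diagram) (k' e' : Fin P.n)
    (D J : Diagram) (C : Set (Fin D.n)) (a b : Fin D.n → ℤ) (k e : Fin D.n) (j : Fin J.n)
    (s f p p₀ : ℤ) (hS : SameSystem D C k e P k' e')
    (ha : ∀ c ∈ C, (N : ℤ) ∣ a c - 1) (hb : ∀ c ∈ C, (N : ℤ) ∣ b c) (hs : (N : ℤ) ∣ s)
    (hp : (N : ℤ) ∣ p - p₀) :
    Nat.card (PresentedGroup (twistedRelators D J C a b k e j s f p) →* Γ) =
      Nat.card {x : (Fin P.n → Γ) × (Fin J.n → Γ) // Pair P J k' e' j f p₀ x} := by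
  have e1 : Nat.card (PresentedGroup (twistedRelators D J C a b k e j s f p) →* Γ) =
      Nat.card {σ : Fin D.n ⊕ Fin J.n → Γ //
        ∀ r ∈ twistedRelators D J C a b k e j s f p, FreeGroup.lift σ r = 1} := by
    refine Nat.card_congr
      { toFun := fun f => ⟨fun a => f (PresentedGroup.of a), ?_⟩,
        invFun := fun σ => PresentedGroup.toGroup (f := σ.1) σ.2,
        left_inv := ?_, right_inv := ?_ }
    · intro r hr
      have h3 : FreeGroup.lift (fun a => f (PresentedGroup.of a)) =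
          f.comp (PresentedGroup.mk _) := by
        ext a
        simp [PresentedGroup.of]
      rw [h3, MonoidHom.comp_apply]
      have : PresentedGroup.mk (twistedRelators D J C a b k e j s _ p) r = 1 :=
        PresentedGroup.one_of_mem hr
      rw [this, map_one]
    · intro f
      ext a
      simp
    · intro σ
      apply Subtype.ext
      funext a
      simp
  rw [e1]
  obtain ⟨Φ, hΦ⟩ := exists_colEquiv (Γ := Γ) hS
  have hC : ∀ σ : Fin D.n ⊕ Fin J.n → Γ,
      (∀ r ∈ twistedRelators D J C a b k e j s f p, FreeGroup.lift σ r = 1) ↔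
      (D.IsCol (σ ∘ Sum.inl) ∧ ∀ c ∈ C, (σ ∘ Sum.inl) c = 1) ∧ J.IsCol (σ ∘ Sum.inr) ∧
        D.lonVal (σ ∘ Sum.inl) e = (σ ∘ Sum.inr) j ∧
        (σ ∘ Sum.inl) e = (σ ∘ Sum.inr) j ^ f * J.lonVal (σ ∘ Sum.inr) j ∧
        (σ ∘ Sum.inl) k ^ p₀ * D.lonVal (σ ∘ Sum.inl) k = 1 := by
    intro σ
    rw [sat_twisted_iff, zpow_of_dvd hN _ hs, mul_one, zpow_congr hN _ hp]
    have hc : ∀ c ∈ C, σ (Sum.inl c) ^ a c * D.lonVal (σ ∘ Sum.inl) c ^ b c =
        (σ ∘ Sum.inl) c := by
      intro c hc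
      rw [zpow_of_dvd hN _ (hb c hc), mul_one, zpow_congr hN _ (n := 1) (ha c hc), zpow_one]
      rfl
    constructor
    · rintro ⟨g1, g2, g3, g4, g5, g6⟩
      exact ⟨⟨g1, fun c hcC => by rw [← hc c hcC]; exact g3 c hcC⟩, g2, g4, g5, g6⟩
    · rintro ⟨⟨g1, g3⟩, g2, g4, g5, g6⟩
      exact ⟨g1, g2, fun c hcC => by rw [hc c hcC]; exact g3 c hcC, g4, g5, g6⟩
  refine Nat.card_eq_of_bijective (fun σ => ⟨((Φ ⟨σ.1 ∘ Sum.inl, ((hC σ.1).1 σ.2).1⟩).1,
    σ.1 ∘ Sum.inr), ?_⟩) ⟨?_, ?_⟩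
  · obtain ⟨g1, g2, g3, g4, g5⟩ := (hC σ.1).1 σ.2
    obtain ⟨u1, u2, u3, u4⟩ := hΦ ⟨σ.1 ∘ Sum.inl, g1⟩
    refine ⟨(Φ _).2, g2, ?_, ?_, ?_⟩
    · exact u4.trans g3
    · exact u3.trans g4
    · change (Φ _).1 k' ^ p₀ * P.lonVal (Φ _).1 k' = 1
      rw [u1, u2]
      exact g5
  · intro σ σ' h
    have h1 := congrArg Subtype.val h
    have h2 := Prod.ext_iff.1 h1
    have h3 : (⟨σ.1 ∘ Sum.inl, ((hC σ.1).1 σ.2).1⟩ :
        {ρ : Fin D.n → Γ // D.IsCol ρ ∧ ∀ c ∈ C, ρ c = 1}) =
        ⟨σ'.1 ∘ Sum.inl, ((hC σ'.1).1 σ'.2).1⟩ := Φ.injective (Subtype.ext h2.1)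
    have h4 : σ.1 ∘ Sum.inl = σ'.1 ∘ Sum.inl := congrArg Subtype.val h3
    have h5 : σ.1 ∘ Sum.inr = σ'.1 ∘ Sum.inr := h2.2
    apply Subtype.ext
    funext x
    rcases x with x | x
    · exact congrFun h4 x
    · exact congrFun h5 x
  · rintro ⟨⟨ρ, τ⟩, g1, g2, g3, g4, g5⟩
    obtain ⟨ρ', hρ'⟩ := Φ.surjective ⟨ρ, g1⟩
    obtain ⟨u1, u2, u3, u4⟩ := hΦ ρ'
    rw [hρ'] at u1 u2 u3 u4
    have hσ := (hC (Sum.elim ρ'.1 τ)).2 ⟨ρ'.2, g2, u4.symm.trans g3, u3.symm.trans g4, by
      change ρ'.1 k ^ p₀ * D.lonVal ρ'.1 k = 1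
      rw [← u1, ← u2]
      exact g5⟩
    refine ⟨⟨Sum.elim ρ'.1 τ, hσ⟩, Subtype.ext (Prod.ext ?_ rfl)⟩
    have h6 : (Φ ⟨(Sum.elim ρ'.1 τ) ∘ Sum.inl, ((hC _).1 hσ).1⟩) = Φ ρ' := rfl
    change (Φ ⟨(Sum.elim ρ'.1 τ) ∘ Sum.inl, ((hC _).1 hσ).1⟩).1 = ρ
    rw [h6, hρ']

end Transfer

/-- A colouring of a knot in which everything commutes with the colour of one arc. -/
theorem const_of_comm (J : Diagram) (hJ : J.IsKnot) (j : Fin J.n) (τ : Fin J.n → G)
    (h : J.IsCol τ) (hc : ∀ b, (τ j)⁻¹ * τ b * τ j = τ b) : ∀ b, τ b = τ j := by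
  have hn : ∀ a, τ a = τ j → τ (J.next a) = τ j := by
    intro a ha
    rw [h a, ha]
    have h1 : Commute (τ (J.above a)) (τ j) := by
      have h2 := hc (J.above a)
      change τ (J.above a) * τ j = τ j * τ (J.above a)
      conv_rhs => rw [← h2]
      group
    have h3 : Commute (τ (J.above a) ^ (-((J.sgn a : ℤˣ) : ℤ))) (τ j) := h1.zpow_left _
    rw [h3.eq, mul_assoc, ← zpow_add]
    simp
  intro b
  obtain ⟨i, hi⟩ := hJ j b
  rw [← hi]
  clear hi
  induction i with
  | zero => rfl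
  | succ i ih => rw [Function.iterate_succ_apply']; exact hn _ ih

/-- The fibre over a colouring of the pattern. -/
def Fib (J : Diagram) (j : Fin J.n) (f : ℤ) (v : Fin 21 → G) (τ : Fin J.n → G) : Prop :=
  J.IsCol τ ∧ pattern.lonVal v patternE = τ j ∧ v 19 = τ j ^ f * J.lonVal τ j

theorem card_fib {b : Fin 3 → Fin 21 → G} {m : ℕ} (hb : Three b m) (J : Diagram)
    (hJ : J.IsKnot) (j : Fin J.n) (f : ℤ) (i : Fin 3) :
    ((f % 7 = m % 7 → Nat.card {τ // Fib J j f (b i) τ} ≡ 1 [MOD 7]) ∧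
      (¬ f % 7 = m % 7 → Nat.card {τ // Fib J j f (b i) τ} ≡ 0 [MOD 7])) := by
  classical
  haveI : Fact (Nat.Prime 7) := ⟨by norm_num⟩
  haveI : Finite {τ // Fib J j f (b i) τ} := Subtype.finite
  letI : Fintype {τ // Fib J j f (b i) τ} := Fintype.ofFinite _
  set g := pattern.lonVal (b i) patternE with hg
  have h7 : g ^ (7 : ℕ) = 1 := hb.seven i
  have hE : b i 19 = g ^ m := hb.E i
  have hmem : ∀ τ, Fib J j f (b i) τ → Fib J j f (b i) (fun a => cjm g (τ a)) := by
    rintro τ ⟨c1, c2, c3⟩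
    refine ⟨Diagram.IsCol.map J c1 (cjm g), ?_, ?_⟩
    · have c2' : g = τ j := c2
      change g = cjm g (τ j)
      rw [cjm_apply, ← c2']
      group
    · have hl : J.lonVal (fun a => cjm g (τ a)) j = cjm g (J.lonVal τ j) :=
        Diagram.lonVal_map J τ (cjm g) j
      rw [hl]
      change b i 19 = cjm g (τ j) ^ f * _
      rw [← map_zpow, ← map_mul, ← c3, hE, cjm_apply]
      group
  let F : Function.End {τ // Fib J j f (b i) τ} := fun τ => ⟨fun a => cjm g (τ.1 a), hmem τ.1 τ.2⟩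
  have hFpow : ∀ n : ℕ, ∀ τ : {τ // Fib J j f (b i) τ}, ∀ a,
      ((F ^ n) τ).1 a = g⁻¹ ^ n * τ.1 a * g ^ n := by
    intro n
    induction n with
    | zero =>
      intro τ a
      simp only [pow_zero, one_mul, mul_one]
      rfl
    | succ n ih =>
      intro τ a
      have h1 : (F ^ (n + 1)) τ = (F ^ n) (F τ) := by rw [pow_succ]; rfl
      rw [h1, ih]
      change g⁻¹ ^ n * cjm g (τ.1 a) * g ^ n = _
      rw [cjm_apply]
      rw [pow_succ, pow_succ']
      simp only [mul_assoc]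
  have hF : F ^ 7 ^ 1 = 1 := by
    funext τ
    apply Subtype.ext
    funext a
    rw [pow_one, hFpow, inv_pow, h7]
    simp only [inv_one, one_mul, mul_one]
    rfl
  have hmod := Equiv.Perm.card_fixedPoints_modEq (p := 7) (n := 1) hF
  rw [Nat.card_eq_fintype_card]
  have hfix : ∀ τ : {τ // Fib J j f (b i) τ}, F τ = τ → (∀ a, τ.1 a = g) ∧ f % 7 = m % 7 := by
    intro τ hτ
    obtain ⟨c1, c2, c3⟩ := τ.2
    have h1 : ∀ a, (τ.1 j)⁻¹ * τ.1 a * τ.1 j = τ.1 a := by
      intro a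
      have h2 : cjm g (τ.1 a) = τ.1 a := congrFun (congrArg Subtype.val hτ) a
      rw [cjm_apply] at h2
      rw [← c2]
      exact h2
    have h3 := const_of_comm J hJ j τ.1 c1 h1
    have h4 : τ.1 = fun _ => τ.1 j := funext h3
    have h5 : J.lonVal τ.1 j = 1 := by
      rw [h4]; exact Diagram.lonVal_const J hJ _ j
    refine ⟨fun a => (h3 a).trans c2.symm, ?_⟩
    rw [h5, mul_one, ← c2, hE] at c3
    exact (pow_eq_iff h7 (hb.ne i) m f).1 c3
  constructor
  · intro hf
    have h0 : Fib J j f (b i) (fun _ => g) := by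
      refine ⟨Diagram.isCol_const J _, rfl, ?_⟩
      rw [Diagram.lonVal_const J hJ, mul_one, hE]
      exact (pow_eq_iff h7 (hb.ne i) m f).2 hf
    refine hmod.trans ?_
    have h1 : Fintype.card (Function.fixedPoints F) = 1 := by
      rw [Fintype.card_eq_one_iff]
      refine ⟨⟨⟨fun _ => g, h0⟩, ?_⟩, ?_⟩
      · change F _ = _
        apply Subtype.ext
        funext a
        change cjm g g = g
        rw [cjm_apply]
        group
      · rintro ⟨τ, hτ⟩
        apply Subtype.ext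
        apply Subtype.ext
        funext a
        exact (hfix τ hτ).1 a
    rw [h1]
  · intro hf
    refine hmod.trans ?_
    have h1 : Fintype.card (Function.fixedPoints F) = 0 := by
      rw [Fintype.card_eq_zero_iff]
      exact ⟨fun τ => hf (hfix τ.1 τ.2).2⟩
    rw [h1]

/-- The number of pairs with `μ ^ 2 ≠ 1`. -/
theorem card_pairs {b : Fin 3 → Fin 21 → G} {m : ℕ} (hb : Three b m) (J : Diagram)
    (hJ : J.IsKnot) (j : Fin J.n) (f s : ℤ)
    (hs : ∀ i, b i 0 ^ s * pattern.lonVal (b i) patternK = 1)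
    (hall : ∀ v : Fin 21 → G, pattern.IsCol v → v 0 * v 0 ≠ 1 →
      (pattern.lonVal v patternE = 1 → v 19 = 1) → v 0 ^ s * pattern.lonVal v patternK = 1 →
      ∃ (i : Fin 3) (g : G), ∀ a, v a = g⁻¹ * b i a * g) :
    ∃ A : ℕ, Nat.card {x : (Fin pattern.n → G) × (Fin J.n → G) //
        Pair pattern J patternK patternE j f s x ∧ x.1 patternK * x.1 patternK ≠ 1} =
      Nat.card G * A ∧
      ((f % 7 = m % 7 → A ≡ 3 [MOD 7]) ∧ (¬ f % 7 = m % 7 → A ≡ 0 [MOD 7])) := by
  classical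
  refine ⟨∑ i : Fin 3, Nat.card {τ // Fib J j f (b i) τ}, ?_, ?_, ?_⟩
  · have h : Nat.card (Σ i : Fin 3, G × {τ // Fib J j f (b i) τ}) =
        Nat.card {x : (Fin pattern.n → G) × (Fin J.n → G) //
          Pair pattern J patternK patternE j f s x ∧ x.1 patternK * x.1 patternK ≠ 1} := by
      have hm : ∀ x : (Σ i : Fin 3, G × {τ // Fib J j f (b i) τ}),
          Pair pattern J patternK patternE j f s
            ((fun a => x.2.1⁻¹ * b x.1 a * x.2.1, fun a => x.2.1⁻¹ * x.2.2.1 a * x.2.1) :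
              (Fin pattern.n → G) × (Fin J.n → G)) ∧
          (x.2.1⁻¹ * b x.1 0 * x.2.1) * (x.2.1⁻¹ * b x.1 0 * x.2.1) ≠ 1 := by
        rintro ⟨i, g, τ, c1, c2, c3⟩
        obtain ⟨d1, d2, -, -, -, -, d7⟩ := conj_facts hb i g (fun a => g⁻¹ * b i a * g)
          (fun a => rfl)
        have e1 : (fun a => g⁻¹ * τ a * g) = fun a => cjm g (τ a) := by
          funext a; rw [cjm_apply]
        have e2 : (fun a => g⁻¹ * b i a * g) = fun a => cjm g (b i a) := by
          funext a; rw [cjm_apply]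
        have hE : pattern.lonVal (fun a => g⁻¹ * b i a * g) patternE =
            cjm g (pattern.lonVal (b i) patternE) := by
          exact (congrArg (fun u : Fin pattern.n → G => pattern.lonVal u patternE) e2).trans
            (Diagram.lonVal_map pattern (b i) (cjm g) patternE)
        have hlJ : J.lonVal (fun a => g⁻¹ * τ a * g) j = cjm g (J.lonVal τ j) := by
          rw [e1]; exact Diagram.lonVal_map J τ (cjm g) j
        refine ⟨⟨d1, ?_, ?_, ?_, ?_⟩, d2⟩
        · change J.IsCol (fun a => g⁻¹ * τ a * g)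
          rw [e1]; exact Diagram.IsCol.map J c1 (cjm g)
        · change pattern.lonVal (fun a => g⁻¹ * b i a * g) patternE = g⁻¹ * τ j * g
          rw [hE, c2, cjm_apply]
        · change g⁻¹ * b i 19 * g = (g⁻¹ * τ j * g) ^ f * J.lonVal (fun a => g⁻¹ * τ a * g) j
          rw [hlJ, c3, ← cjm_apply, ← cjm_apply, map_mul, map_zpow]
        · change (g⁻¹ * b i 0 * g) ^ s * pattern.lonVal (fun a => g⁻¹ * b i a * g) patternK = 1
          refine (congrArg (fun z : G => (g⁻¹ * b i 0 * g) ^ s * z) d7).trans ?_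
          change (g⁻¹ * b i 0 * g) ^ s * (g⁻¹ * pattern.lonVal (b i) patternK * g) = 1
          rw [← cjm_apply, ← cjm_apply, ← map_zpow, ← map_mul, hs i, map_one]
      refine Nat.card_eq_of_bijective (fun x => ⟨_, hm x⟩) ⟨?_, ?_⟩
      · rintro ⟨i, g, τ, hτ⟩ ⟨i', g', τ', hτ'⟩ hij
        have hv := congrArg Subtype.val hij
        have h1 : ∀ a, g⁻¹ * b i a * g = g'⁻¹ * b i' a * g' := fun a =>
          congrFun (Prod.ext_iff.1 hv).1 a
        have h2 : ∀ a, g⁻¹ * τ a * g = g'⁻¹ * τ' a * g' := fun a =>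
          congrFun (Prod.ext_iff.1 hv).2 a
        have e1 : i = i' := by
          apply hb.inj i i' (g * g'⁻¹)
          intro a
          calc b i' a = g' * (g'⁻¹ * b i' a * g') * g'⁻¹ := by group
            _ = g' * (g⁻¹ * b i a * g) * g'⁻¹ := by rw [h1 a]
            _ = (g * g'⁻¹)⁻¹ * b i a * (g * g'⁻¹) := by group
        subst e1
        have e2 : g * g'⁻¹ = 1 := by
          apply hb.free i
          intro a
          calc (g * g'⁻¹)⁻¹ * b i a * (g * g'⁻¹) = g' * (g⁻¹ * b i a * g) * g'⁻¹ := by group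
            _ = g' * (g'⁻¹ * b i a * g') * g'⁻¹ := by rw [h1 a]
            _ = b i a := by group
        have e3 : g = g' := mul_inv_eq_one.1 e2
        subst e3
        have e4 : τ = τ' := by
          funext a
          have h3 := h2 a
          exact mul_left_cancel (mul_right_cancel h3)
        subst e4
        rfl
      · rintro ⟨⟨ρ, τ⟩, ⟨c1, c2, c3, c4, c5⟩, c6⟩
        have hE : ∀ u : Fin 21 → G, u = ρ → pattern.lonVal u patternE = 1 → u 19 = 1 := by
          rintro u rfl h1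
          have h2 : τ j = 1 := by rw [← h1]; exact c3.symm
          have hall : ∀ b, τ b = 1 := fun b => Diagram.IsCol.eq_one J c2 (hJ j b) h2
          have h3 : u 19 = τ j ^ f * J.lonVal τ j := c4
          rw [h3, Diagram.lonVal_of_one J hall, h2]
          simp
        obtain ⟨i, g, hg⟩ := hall ρ c1 c6 (hE ρ rfl) c5
        have hρ : (ρ : Fin 21 → G) = fun a => cjm g (b i a) := by
          funext a; rw [cjm_apply]; exact hg a
        have hinj : Function.Injective (cjm g) := (MulAut.conj g⁻¹).injective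
        have hcj : ∀ x : G, cjm g (cjm g⁻¹ x) = x := by
          intro x
          rw [cjm_apply, cjm_apply]
          group
        have hτ : Fib J j f (b i) (fun a => cjm g⁻¹ (τ a)) := by
          refine ⟨Diagram.IsCol.map J c2 (cjm g⁻¹), ?_, ?_⟩
          · apply hinj
            change _ = cjm g (cjm g⁻¹ (τ j))
            rw [hcj]
            have h1 : pattern.lonVal ρ patternE = cjm g (pattern.lonVal (b i) patternE) := by
              rw [hρ]; exact Diagram.lonVal_map pattern (b i) (cjm g) patternE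
            rw [← h1]
            exact c3
          · apply hinj
            have h2 : J.lonVal (fun a => cjm g⁻¹ (τ a)) j = cjm g⁻¹ (J.lonVal τ j) :=
              Diagram.lonVal_map J τ (cjm g⁻¹) j
            rw [h2]
            change _ = cjm g (cjm g⁻¹ (τ j) ^ f * cjm g⁻¹ (J.lonVal τ j))
            rw [map_mul, map_zpow, hcj, hcj, cjm_apply]
            exact (hg 19).symm.trans c4
        refine ⟨⟨i, g, ⟨_, hτ⟩⟩, Subtype.ext (Prod.ext ?_ ?_)⟩
        · funext a
          exact (hg a).symm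
        · funext a
          change g⁻¹ * cjm g⁻¹ (τ a) * g = τ a
          rw [← cjm_apply, hcj]
    rw [← h]
    haveI : ∀ i : Fin 3, Finite {τ // Fib J j f (b i) τ} := fun i => Subtype.finite
    letI : ∀ i : Fin 3, Fintype {τ // Fib J j f (b i) τ} := fun i => Fintype.ofFinite _
    rw [Nat.card_sigma, Finset.mul_sum]
    refine Finset.sum_congr rfl fun i _ => ?_
    rw [Nat.card_prod]
  · intro hf
    rw [Fin.sum_univ_three]
    have h := fun i => (card_fib hb J hJ j f i).1 hf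
    exact ((h 0).add (h 1)).add (h 2)
  · intro hf
    rw [Fin.sum_univ_three]
    have h := fun i => (card_fib hb J hJ j f i).2 hf
    exact ((h 0).add (h 1)).add (h 2)

/-- The number of pairs is the sum of two numbers. -/
theorem card_split (J : Diagram) (j : Fin J.n) (f s : ℤ) :
    Nat.card {x : (Fin pattern.n → G) × (Fin J.n → G) //
        Pair pattern J patternK patternE j f s x} =
      Nat.card {x : (Fin pattern.n → G) × (Fin J.n → G) //
        Pair pattern J patternK patternE j f s x ∧ x.1 patternK * x.1 patternK = 1} +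
      Nat.card {x : (Fin pattern.n → G) × (Fin J.n → G) //
        Pair pattern J patternK patternE j f s x ∧ x.1 patternK * x.1 patternK ≠ 1} := by
  classical
  rw [← Nat.card_sum]
  refine Nat.card_congr ?_
  refine (Equiv.sumCompl (fun x : {x : (Fin pattern.n → G) × (Fin J.n → G) //
        Pair pattern J patternK patternE j f s x} => x.1.1 patternK * x.1.1 patternK = 1)).symm.trans
    (Equiv.sumCongr (Equiv.subtypeSubtypeEquivSubtypeInter _
      (fun x : (Fin pattern.n → G) × (Fin J.n → G) => x.1 patternK * x.1 patternK = 1))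
      (Equiv.subtypeSubtypeEquivSubtypeInter _
      (fun x : (Fin pattern.n → G) × (Fin J.n → G) => ¬ x.1 patternK * x.1 patternK = 1)))

/-- **The first pattern, `f = 3` or `6` modulo `7`.** -/
theorem class_seven (f : ℤ) (hf : f % 7 = 3 ∨ f % 7 = 6) :
    SeparatesClass 126 pattern patternK patternE f := by
  intro D J hJ C a b k e j s p q hS hC hs hp hq
  constructor
  intro φ
  have hcard : Nat.card (PresentedGroup (twistedRelators D J C a b k e j s f p) →* G) =
      Nat.card (PresentedGroup (twistedRelators D J C a b k e j s f q) →* G) :=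
    Nat.card_congr (MulEquiv.monoidHomCongrLeftEquiv φ)
  have hN : ∀ g : G, g ^ (126 : ℕ) = 1 := G_pow
  have h126 : ((126 : ℕ) : ℤ) = 126 := by norm_num
  rw [card_twisted (N := 126) hN pattern patternK patternE D J C a b k e j s f p 2 hS
      (fun c hc => by exact_mod_cast (hC c hc).1) (fun c hc => by exact_mod_cast (hC c hc).2)
      (by exact_mod_cast hs) (by exact_mod_cast hp),
    card_twisted (N := 126) hN pattern patternK patternE D J C a b k e j s f q (-2) hS
      (fun c hc => by exact_mod_cast (hC c hc).1) (fun c hc => by exact_mod_cast (hC c hc).2)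
      (by exact_mod_cast hs) (by rw [sub_neg_eq_add]; exact_mod_cast hq),
    card_split, card_split] at hcard
  have hsame : Nat.card {x : (Fin pattern.n → G) × (Fin J.n → G) //
        Pair pattern J patternK patternE j f 2 x ∧ x.1 patternK * x.1 patternK = 1} =
      Nat.card {x : (Fin pattern.n → G) × (Fin J.n → G) //
        Pair pattern J patternK patternE j f (-2) x ∧ x.1 patternK * x.1 patternK = 1} := by
    refine Nat.card_congr (Equiv.subtypeEquivRight fun x => ?_)
    have h1 : x.1 patternK * x.1 patternK = 1 → x.1 patternK ^ (2 : ℤ) = x.1 patternK ^ (-2 : ℤ) := by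
      intro h
      rw [zpow_neg, zpow_two, h, inv_one]
    constructor
    · rintro ⟨⟨c1, c2, c3, c4, c5⟩, c6⟩
      exact ⟨⟨c1, c2, c3, c4, by rw [← h1 c6]; exact c5⟩, c6⟩
    · rintro ⟨⟨c1, c2, c3, c4, c5⟩, c6⟩
      exact ⟨⟨c1, c2, c3, c4, by rw [h1 c6]; exact c5⟩, c6⟩
  have hP : ∀ i, bP i 0 ^ (2 : ℤ) * pattern.lonVal (bP i) patternK = 1 := fun i => by
    rw [zpow_two]; exact bP_K i
  have hM : ∀ i, bM i 0 ^ (-2 : ℤ) * pattern.lonVal (bM i) patternK = 1 := fun i => by
    rw [bM_K i, zpow_neg, zpow_two]; group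
  obtain ⟨A, hA, hA1, hA2⟩ := card_pairs threeP J hJ j f 2 hP allP
  obtain ⟨B, hB, hB1, hB2⟩ := card_pairs threeM J hJ j f (-2) hM allM
  rw [hsame, hA, hB] at hcard
  have hc : 0 < Nat.card G := Nat.card_pos
  have hAB : A = B := Nat.eq_of_mul_eq_mul_left hc (Nat.add_left_cancel hcard)
  rcases hf with hf | hf
  · have h1 : A % 7 = 0 % 7 := hA2 (by omega)
    have h2 : B % 7 = 3 % 7 := hB1 (by omega)
    omega
  · have h1 : A % 7 = 3 % 7 := hA1 (by omega)
    have h2 : B % 7 = 0 % 7 := hB2 (by omega)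
    omega

end Vale.Agent.P258.Second.H747A
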