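import Vale.Agent.P258.R2.H747.G7
import Vale.Agent.P258.R2.H747.ClassCount
import Vale.Agent.P258.R2.H394.Slopes

set_option linter.all false

/-!
The class form for the first pattern, `PGL(2, 7)` with the sign of the determinant.
-/

namespace Vale.Agent.P258.R2.H747.G7

open Vale.Agent.P258
open Vale.Agent.P258.Second.H747A (PatRelA patRelA_of_isCol isCol_of_patRelA lamA lonValA_K
  lonValA_E Pair card_twisted)

def pow168N (x : ℕ) : ℕ :=
  force (mulN x x) fun u2 => force (mulN u2 u2) fun u4 => force (mulN u4 u4) fun u8 =>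
    force (mulN u8 u8) fun u16 => force (mulN u16 u16) fun u32 => force (mulN u32 u32) fun u64 =>
      mulN (mulN (mulN u64 u64) u32) u8

theorem chk_pow168 : (allc.all fun x => Nat.beq (pow168N x) 513) = true := by
  decide +kernel

theorem G_pow (g : P7) : g ^ 168 = 1 := by
  have h : g ^ 168 = g ^ 64 * g ^ 64 * g ^ 32 * g ^ 8 := by
    simp only [← pow_add]
  have h2 : g ^ 2 = g * g := pow_two g
  have h4 : g ^ 4 = g ^ 2 * g ^ 2 := by simp only [← pow_add]
  have h8 : g ^ 8 = g ^ 4 * g ^ 4 := by simp only [← pow_add]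
  have h16 : g ^ 16 = g ^ 8 * g ^ 8 := by simp only [← pow_add]
  have h32 : g ^ 32 = g ^ 16 * g ^ 16 := by simp only [← pow_add]
  have h64 : g ^ 64 = g ^ 32 * g ^ 32 := by simp only [← pow_add]
  apply code_inj
  have h1 : code (g ^ 168) = pow168N (code g) := by
    rw [h]
    unfold pow168N
    simp only [force_eq]
    rw [code_mul, code_mul, code_mul, h64, code_mul, h32, code_mul, h16,
      code_mul, h8, code_mul, h4, code_mul, h2, code_mul]
  rw [h1, code_one]
  exact Nat.eq_of_beq_eq_true (List.all_eq_true.1 chk_pow168 _ (mem_allc g))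

/-- A colouring of a knot in which everything commutes with the colour of one arc. -/
theorem const_of_comm (J : Diagram) (hJ : J.IsKnot) (j : Fin J.n) (τ : Fin J.n → P7)
    (h : J.IsCol τ) (hc : ∀ b, (τ j)⁻¹ * τ b * τ j = τ b) : ∀ b, τ b = τ j := by
  have hn : ∀ a, τ a = τ j → τ (J.next a) = τ j := by
    intro a ha
    rw [h a, ha]
    have h1 : Commute (τ (J.above a)) (τ j) := by
      have h2 := hc (J.above a)
      change τ (J.above a) * τ j = τ j * τ (J.above a)
      conv_rhs => rw [← h2]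
      group
    have h3 : Commute (τ (J.above a) ^ (-((J.sgn a : ℤˣ) : ℤ))) (τ j) := h1.zpow_left _
    rw [h3.eq, mul_assoc, ← zpow_add]
    simp
  intro b
  obtain ⟨i, hi⟩ := hJ j b
  rw [← hi]
  clear hi
  induction i with
  | zero => rfl
  | succ i ih => rw [Function.iterate_succ_apply']; exact hn _ ih

/-- The fibre over a colouring of the pattern. -/
def Fib (J : Diagram) (j : Fin J.n) (f : ℤ) (v : Fin 21 → P7) (τ : Fin J.n → P7) : Prop :=
  J.IsCol τ ∧ pattern.lonVal v patternE = τ j ∧ v 19 = τ j ^ f * J.lonVal τ j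

theorem card_fib {b : Fin 21 → P7} {m : ℕ} (hb : One b m) (J : Diagram)
    (hJ : J.IsKnot) (j : Fin J.n) (f : ℤ) :
    ((f % 7 = m % 7 → Nat.card {τ // Fib J j f b τ} ≡ 1 [MOD 7]) ∧
      (¬ f % 7 = m % 7 → Nat.card {τ // Fib J j f b τ} ≡ 0 [MOD 7])) := by
  classical
  haveI : Fact (Nat.Prime 7) := ⟨by norm_num⟩
  haveI : Finite {τ // Fib J j f b τ} := Subtype.finite
  letI : Fintype {τ // Fib J j f b τ} := Fintype.ofFinite _
  set g := pattern.lonVal b patternE with hg
  have h7 : g ^ (7 : ℕ) = 1 := hb.seven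
  have hE : b 19 = g ^ m := hb.E
  have hmem : ∀ τ, Fib J j f b τ → Fib J j f b (fun a => cjm g (τ a)) := by
    rintro τ ⟨c1, c2, c3⟩
    refine ⟨Diagram.IsCol.map J c1 (cjm g), ?_, ?_⟩
    · have c2' : g = τ j := c2
      change g = cjm g (τ j)
      rw [cjm_apply, ← c2']
      group
    · have hl : J.lonVal (fun a => cjm g (τ a)) j = cjm g (J.lonVal τ j) :=
        Diagram.lonVal_map J τ (cjm g) j
      rw [hl]
      change b 19 = cjm g (τ j) ^ f * _
      rw [← map_zpow, ← map_mul, ← c3, hE, cjm_apply]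
      group
  let F : Function.End {τ // Fib J j f b τ} := fun τ => ⟨fun a => cjm g (τ.1 a), hmem τ.1 τ.2⟩
  have hFpow : ∀ n : ℕ, ∀ τ : {τ // Fib J j f b τ}, ∀ a,
      ((F ^ n) τ).1 a = g⁻¹ ^ n * τ.1 a * g ^ n := by
    intro n
    induction n with
    | zero =>
      intro τ a
      simp only [pow_zero, one_mul, mul_one]
      rfl
    | succ n ih =>
      intro τ a
      have h1 : (F ^ (n + 1)) τ = (F ^ n) (F τ) := by rw [pow_succ]; rfl
      rw [h1, ih]
      change g⁻¹ ^ n * cjm g (τ.1 a) * g ^ n = _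
      rw [cjm_apply]
      rw [pow_succ, pow_succ']
      simp only [mul_assoc]
  have hF : F ^ 7 ^ 1 = 1 := by
    funext τ
    apply Subtype.ext
    funext a
    rw [pow_one, hFpow, inv_pow, h7]
    simp only [inv_one, one_mul, mul_one]
    rfl
  have hmod := Equiv.Perm.card_fixedPoints_modEq (p := 7) (n := 1) hF
  rw [Nat.card_eq_fintype_card]
  have hfix : ∀ τ : {τ // Fib J j f b τ}, F τ = τ → (∀ a, τ.1 a = g) ∧ f % 7 = m % 7 := by
    intro τ hτ
    obtain ⟨c1, c2, c3⟩ := τ.2
    have h1 : ∀ a, (τ.1 j)⁻¹ * τ.1 a * τ.1 j = τ.1 a := by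
      intro a
      have h2 : cjm g (τ.1 a) = τ.1 a := congrFun (congrArg Subtype.val hτ) a
      rw [cjm_apply] at h2
      rw [← c2]
      exact h2
    have h3 := const_of_comm J hJ j τ.1 c1 h1
    have h4 : τ.1 = fun _ => τ.1 j := funext h3
    have h5 : J.lonVal τ.1 j = 1 := by
      rw [h4]; exact Diagram.lonVal_const J hJ _ j
    refine ⟨fun a => (h3 a).trans c2.symm, ?_⟩
    rw [h5, mul_one, ← c2, hE] at c3
    exact (pow_eq_iff h7 hb.ne m f).1 c3
  constructor
  · intro hf
    have h0 : Fib J j f b (fun _ => g) := by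
      refine ⟨Diagram.isCol_const J _, rfl, ?_⟩
      rw [Diagram.lonVal_const J hJ, mul_one, hE]
      exact (pow_eq_iff h7 hb.ne m f).2 hf
    refine hmod.trans ?_
    have h1 : Fintype.card (Function.fixedPoints F) = 1 := by
      rw [Fintype.card_eq_one_iff]
      refine ⟨⟨⟨fun _ => g, h0⟩, ?_⟩, ?_⟩
      · change F _ = _
        apply Subtype.ext
        funext a
        change cjm g g = g
        rw [cjm_apply]
        group
      · rintro ⟨τ, hτ⟩
        apply Subtype.ext
        apply Subtype.ext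
        funext a
        exact (hfix τ hτ).1 a
    rw [h1]
  · intro hf
    refine hmod.trans ?_
    have h1 : Fintype.card (Function.fixedPoints F) = 0 := by
      rw [Fintype.card_eq_zero_iff]
      exact ⟨fun τ => hf (hfix τ.1 τ.2).2⟩
    rw [h1]

/-- The number of odd pairs with `μ ^ 4 ≠ 1`. -/
theorem card_pairs {b : Fin 21 → P7} {m : ℕ} (hb : One b m) (J : Diagram)
    (hJ : J.IsKnot) (j : Fin J.n) (f s : ℤ)
    (hs : b 0 ^ s * pattern.lonVal b patternK = 1)
    (hall : ∀ v : Fin 21 → P7, pattern.IsCol v → eps (v 0) ≠ 1 → (v 0 * v 0) * (v 0 * v 0) ≠ 1 →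
      (pattern.lonVal v patternE = 1 → v 19 = 1) → v 0 ^ s * pattern.lonVal v patternK = 1 →
      ∃ g : P7, ∀ a, v a = g⁻¹ * b a * g) :
    Nat.card {x : (Fin pattern.n → P7) × (Fin J.n → P7) //
        (Pair pattern J patternK patternE j f s x ∧ eps (x.1 patternK) ≠ 1) ∧
          ¬ (x.1 patternK * x.1 patternK) * (x.1 patternK * x.1 patternK) = 1} =
      Nat.card P7 * Nat.card {τ // Fib J j f b τ} := by
  classical
  rw [← Nat.card_prod]
  symm
  have hm : ∀ x : P7 × {τ // Fib J j f b τ},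
      (Pair pattern J patternK patternE j f s
        ((fun a => x.1⁻¹ * b a * x.1, fun a => x.1⁻¹ * x.2.1 a * x.1) :
          (Fin pattern.n → P7) × (Fin J.n → P7)) ∧ eps (x.1⁻¹ * b 0 * x.1) ≠ 1) ∧
      ¬ ((x.1⁻¹ * b 0 * x.1) * (x.1⁻¹ * b 0 * x.1)) *
        ((x.1⁻¹ * b 0 * x.1) * (x.1⁻¹ * b 0 * x.1)) = 1 := by
    rintro ⟨g, τ, c1, c2, c3⟩
    obtain ⟨d1, d2, -, -, -, -, d7, d8⟩ := conj_facts hb g (fun a => g⁻¹ * b a * g)
      (fun a => rfl)
    have e1 : (fun a => g⁻¹ * τ a * g) = fun a => cjm g (τ a) := by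
      funext a; rw [cjm_apply]
    have e2 : (fun a => g⁻¹ * b a * g) = fun a => cjm g (b a) := by
      funext a; rw [cjm_apply]
    have hE : pattern.lonVal (fun a => g⁻¹ * b a * g) patternE =
        cjm g (pattern.lonVal b patternE) := by
      exact (congrArg (fun u : Fin pattern.n → P7 => pattern.lonVal u patternE) e2).trans
        (Diagram.lonVal_map pattern b (cjm g) patternE)
    have hlJ : J.lonVal (fun a => g⁻¹ * τ a * g) j = cjm g (J.lonVal τ j) := by
      rw [e1]; exact Diagram.lonVal_map J τ (cjm g) j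
    refine ⟨⟨⟨d1, ?_, ?_, ?_, ?_⟩, d8⟩, d2⟩
    · change J.IsCol (fun a => g⁻¹ * τ a * g)
      rw [e1]; exact Diagram.IsCol.map J c1 (cjm g)
    · change pattern.lonVal (fun a => g⁻¹ * b a * g) patternE = g⁻¹ * τ j * g
      rw [hE, c2, cjm_apply]
    · change g⁻¹ * b 19 * g = (g⁻¹ * τ j * g) ^ f * J.lonVal (fun a => g⁻¹ * τ a * g) j
      rw [hlJ, c3, ← cjm_apply, ← cjm_apply, map_mul, map_zpow]
    · change (g⁻¹ * b 0 * g) ^ s * pattern.lonVal (fun a => g⁻¹ * b a * g) patternK = 1
      refine (congrArg (fun z : P7 => (g⁻¹ * b 0 * g) ^ s * z) d7).trans ?_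
      change (g⁻¹ * b 0 * g) ^ s * (g⁻¹ * pattern.lonVal b patternK * g) = 1
      rw [← cjm_apply, ← cjm_apply, ← map_zpow, ← map_mul, hs, map_one]
  refine Nat.card_eq_of_bijective (fun x => ⟨_, hm x⟩) ⟨?_, ?_⟩
  · rintro ⟨g, τ, hτ⟩ ⟨g', τ', hτ'⟩ hij
    have hv := congrArg Subtype.val hij
    have h1 : ∀ a, g⁻¹ * b a * g = g'⁻¹ * b a * g' := fun a =>
      congrFun (Prod.ext_iff.1 hv).1 a
    have h2 : ∀ a, g⁻¹ * τ a * g = g'⁻¹ * τ' a * g' := fun a =>
      congrFun (Prod.ext_iff.1 hv).2 a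
    have e2 : g * g'⁻¹ = 1 := by
      apply hb.free
      intro a
      calc (g * g'⁻¹)⁻¹ * b a * (g * g'⁻¹) = g' * (g⁻¹ * b a * g) * g'⁻¹ := by group
        _ = g' * (g'⁻¹ * b a * g') * g'⁻¹ := by rw [h1 a]
        _ = b a := by group
    have e3 : g = g' := mul_inv_eq_one.1 e2
    subst e3
    have e4 : τ = τ' := by
      funext a
      have h3 := h2 a
      exact mul_left_cancel (mul_right_cancel h3)
    subst e4
    rfl
  · rintro ⟨⟨ρ, τ⟩, ⟨⟨c1, c2, c3, c4, c5⟩, c0⟩, c6⟩
    have hE : ∀ u : Fin 21 → P7, u = ρ → pattern.lonVal u patternE = 1 → u 19 = 1 := by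
      rintro u rfl h1
      have h2 : τ j = 1 := by rw [← h1]; exact c3.symm
      have hall : ∀ b, τ b = 1 := fun b => Diagram.IsCol.eq_one J c2 (hJ j b) h2
      have h3 : u 19 = τ j ^ f * J.lonVal τ j := c4
      rw [h3, Diagram.lonVal_of_one J hall, h2]
      simp
    obtain ⟨g, hg⟩ := hall ρ c1 c0 c6 (hE ρ rfl) c5
    have hρ : (ρ : Fin 21 → P7) = fun a => cjm g (b a) := by
      funext a; rw [cjm_apply]; exact hg a
    have hinj : Function.Injective (cjm g) := (MulAut.conj g⁻¹).injective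
    have hcj : ∀ x : P7, cjm g (cjm g⁻¹ x) = x := by
      intro x
      rw [cjm_apply, cjm_apply]
      group
    have hτ : Fib J j f b (fun a => cjm g⁻¹ (τ a)) := by
      refine ⟨Diagram.IsCol.map J c2 (cjm g⁻¹), ?_, ?_⟩
      · apply hinj
        change _ = cjm g (cjm g⁻¹ (τ j))
        rw [hcj]
        have h1 : pattern.lonVal ρ patternE = cjm g (pattern.lonVal b patternE) := by
          rw [hρ]; exact Diagram.lonVal_map pattern b (cjm g) patternE
        rw [← h1]
        exact c3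
      · apply hinj
        have h2 : J.lonVal (fun a => cjm g⁻¹ (τ a)) j = cjm g⁻¹ (J.lonVal τ j) :=
          Diagram.lonVal_map J τ (cjm g⁻¹) j
        rw [h2]
        change _ = cjm g (cjm g⁻¹ (τ j) ^ f * cjm g⁻¹ (J.lonVal τ j))
        rw [map_mul, map_zpow, hcj, hcj, cjm_apply]
        exact (hg 19).symm.trans c4
    refine ⟨⟨g, ⟨_, hτ⟩⟩, Subtype.ext (Prod.ext ?_ ?_)⟩
    · funext a
      exact (hg a).symm
    · funext a
      change g⁻¹ * cjm g⁻¹ (τ a) * g = τ a
      rw [← cjm_apply, hcj]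

theorem card_split {α : Type} [Finite α] (S T : α → Prop) :
    Nat.card {x : α // S x} = Nat.card {x : α // S x ∧ T x} + Nat.card {x : α // S x ∧ ¬ T x} := by
  classical
  rw [← Nat.card_sum]
  refine Nat.card_congr ?_
  exact (Equiv.sumCompl (fun x : {x : α // S x} => T x.1)).symm.trans
    (Equiv.sumCongr (Equiv.subtypeSubtypeEquivSubtypeInter _ T)
      (Equiv.subtypeSubtypeEquivSubtypeInter _ (fun x : α => ¬ T x)))

/-- If the meridian is even, then everything is. -/
theorem all_even (J : Diagram) (hJ : J.IsKnot) (j : Fin J.n) (f s : ℤ)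
    (x : (Fin pattern.n → P7) × (Fin J.n → P7))
    (hx : Pair pattern J patternK patternE j f s x) (h0 : eps (x.1 patternK) = 1) :
    (∀ a, x.1 a ∈ eps.ker) ∧ ∀ b, x.2 b ∈ eps.ker := by
  obtain ⟨c1, c2, c3, c4, c5⟩ := hx
  have h1 : pattern.IsCol (fun a => eps (x.1 a)) := Diagram.IsCol.map pattern c1 eps
  have h2 : J.IsCol (fun a => eps (x.2 a)) := Diagram.IsCol.map J c2 eps
  have hj : eps (x.2 j) = 1 := by rw [← c3]; exact hlk x.1 c1
  have hJ2 : ∀ b, eps (x.2 b) = 1 := fun b =>
    (col_comm J (fun a => eps (x.2 a)) h2 (hJ j b)).trans hj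
  have hl : eps (J.lonVal x.2 j) = 1 := by
    have h3 : J.lonVal (fun a => eps (x.2 a)) j = eps (J.lonVal x.2 j) :=
      Diagram.lonVal_map J x.2 eps j
    rw [← h3]
    exact Diagram.lonVal_of_one J hJ2 j
  have he : eps (x.1 patternE) = 1 := by
    rw [c4, map_mul, map_zpow, hj, one_zpow, one_mul, hl]
  refine ⟨fun a => ?_, fun b => hJ2 b⟩
  change eps (x.1 a) = 1
  rcases lt_or_ge a.val 19 with ha | ha
  · exact (col_comm pattern (fun a => eps (x.1 a)) h1 ((comp_K a).2 ha)).trans h0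
  · exact (col_comm pattern (fun a => eps (x.1 a)) h1 ((comp_E a).2 ha)).trans he

/-- The even pairs are the pairs for the kernel. -/
theorem card_even (J : Diagram) (hJ : J.IsKnot) (j : Fin J.n) (f s : ℤ) :
    Nat.card {x : (Fin pattern.n → eps.ker) × (Fin J.n → eps.ker) //
        Pair pattern J patternK patternE j f s x} =
      Nat.card {x : (Fin pattern.n → P7) × (Fin J.n → P7) //
        Pair pattern J patternK patternE j f s x ∧ eps (x.1 patternK) = 1} := by
  have hsub : ∀ x : (Fin pattern.n → eps.ker) × (Fin J.n → eps.ker),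
      Pair pattern J patternK patternE j f s x ↔
      Pair pattern J patternK patternE j f s
        ((fun a => (x.1 a : P7), fun b => (x.2 b : P7)) : (Fin pattern.n → P7) × (Fin J.n → P7)) := by
    intro x
    have l1 : ∀ a, pattern.lonVal (fun a => (x.1 a : P7)) a = (pattern.lonVal x.1 a : eps.ker) :=
      fun a => Diagram.lonVal_map pattern x.1 eps.ker.subtype a
    have l2 : ∀ a, J.lonVal (fun a => (x.2 a : P7)) a = (J.lonVal x.2 a : eps.ker) :=
      fun a => Diagram.lonVal_map J x.2 eps.ker.subtype a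
    constructor
    · rintro ⟨c1, c2, c3, c4, c5⟩
      refine ⟨Diagram.IsCol.map pattern c1 eps.ker.subtype, Diagram.IsCol.map J c2 eps.ker.subtype,
        ?_, ?_, ?_⟩
      · rw [l1, c3]
      · rw [l2]
        change ((x.1 patternE : eps.ker) : P7) = _
        rw [c4]; rfl
      · rw [l1]
        have := congrArg (fun z : eps.ker => (z : P7)) c5
        exact this
    · rintro ⟨c1, c2, c3, c4, c5⟩
      refine ⟨fun a => Subtype.ext (c1 a), fun a => Subtype.ext (c2 a), ?_, ?_, ?_⟩
      · apply Subtype.ext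
        rw [← l1]; exact c3
      · apply Subtype.ext
        refine c4.trans ?_
        rw [l2]; rfl
      · apply Subtype.ext
        refine Eq.trans ?_ c5
        rw [l1]; rfl
  refine Nat.card_eq_of_bijective (fun x => ⟨_, (hsub x.1).1 x.2, (x.1.1 patternK).2⟩) ⟨?_, ?_⟩
  · rintro ⟨⟨ρ, τ⟩, h⟩ ⟨⟨ρ', τ'⟩, h'⟩ hij
    have hv := congrArg Subtype.val hij
    have h1 : ∀ a, (ρ a : P7) = ρ' a := fun a => congrFun (Prod.ext_iff.1 hv).1 a
    have h2 : ∀ a, (τ a : P7) = τ' a := fun a => congrFun (Prod.ext_iff.1 hv).2 a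
    have e1 : ρ = ρ' := funext fun a => Subtype.ext (h1 a)
    have e2 : τ = τ' := funext fun a => Subtype.ext (h2 a)
    subst e1
    subst e2
    rfl
  · rintro ⟨x, hx, h0⟩
    obtain ⟨e1, e2⟩ := all_even J hJ j f s x hx h0
    refine ⟨⟨(fun a => ⟨x.1 a, e1 a⟩, fun b => ⟨x.2 b, e2 b⟩), (hsub _).2 hx⟩, rfl⟩

/-- **The first pattern, `f = 3` or `4` modulo `7`.** -/
theorem class_four (f : ℤ) (hf : f % 7 = 3 ∨ f % 7 = 4) :
    SeparatesClassSlopes 168 pattern patternK patternE f 2 (-2) := by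
  classical
  intro D J hJ C a b k e j s p q hS hC hs hp hq
  constructor
  intro φ
  have hN : ∀ g : P7, g ^ (168 : ℕ) = 1 := G_pow
  have hNk : ∀ g : eps.ker, g ^ (168 : ℕ) = 1 := fun g => Subtype.ext (by
    push_cast
    exact hN g)
  have hcard : Nat.card (PresentedGroup (twistedRelators D J C a b k e j s f p) →* P7) =
      Nat.card (PresentedGroup (twistedRelators D J C a b k e j s f q) →* P7) :=
    Nat.card_congr (MulEquiv.monoidHomCongrLeftEquiv φ)
  have hcardk : Nat.card (PresentedGroup (twistedRelators D J C a b k e j s f p) →* eps.ker) =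
      Nat.card (PresentedGroup (twistedRelators D J C a b k e j s f q) →* eps.ker) :=
    Nat.card_congr (MulEquiv.monoidHomCongrLeftEquiv φ)
  have ha : ∀ c ∈ C, ((168 : ℕ) : ℤ) ∣ a c - 1 := fun c hc => by exact_mod_cast (hC c hc).1
  have hb : ∀ c ∈ C, ((168 : ℕ) : ℤ) ∣ b c := fun c hc => by exact_mod_cast (hC c hc).2
  have hs' : ((168 : ℕ) : ℤ) ∣ s := by exact_mod_cast hs
  have hp' : ((168 : ℕ) : ℤ) ∣ p - 2 := by exact_mod_cast hp
  have hq' : ((168 : ℕ) : ℤ) ∣ q - (-2) := by exact_mod_cast hq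
  rw [card_twisted (N := 168) hN pattern patternK patternE D J C a b k e j s f p 2 hS ha hb hs' hp',
    card_twisted (N := 168) hN pattern patternK patternE D J C a b k e j s f q (-2) hS ha hb hs'
      hq'] at hcard
  rw [card_twisted (N := 168) hNk pattern patternK patternE D J C a b k e j s f p 2 hS ha hb hs' hp',
    card_twisted (N := 168) hNk pattern patternK patternE D J C a b k e j s f q (-2) hS ha hb hs'
      hq', card_even J hJ j f 2, card_even J hJ j f (-2)] at hcardk
  rw [card_split (fun x => Pair pattern J patternK patternE j f 2 x)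
      (fun x => eps (x.1 patternK) = 1),
    card_split (fun x => Pair pattern J patternK patternE j f (-2) x)
      (fun x => eps (x.1 patternK) = 1), hcardk] at hcard
  have hodd := Nat.add_left_cancel hcard
  rw [card_split (fun x : (Fin pattern.n → P7) × (Fin J.n → P7) =>
      Pair pattern J patternK patternE j f 2 x ∧ ¬ eps (x.1 patternK) = 1)
      (fun x => (x.1 patternK * x.1 patternK) * (x.1 patternK * x.1 patternK) = 1),
    card_split (fun x : (Fin pattern.n → P7) × (Fin J.n → P7) =>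
      Pair pattern J patternK patternE j f (-2) x ∧ ¬ eps (x.1 patternK) = 1)
      (fun x => (x.1 patternK * x.1 patternK) * (x.1 patternK * x.1 patternK) = 1)] at hodd
  have hsame : Nat.card {x : (Fin pattern.n → P7) × (Fin J.n → P7) //
        (Pair pattern J patternK patternE j f 2 x ∧ ¬ eps (x.1 patternK) = 1) ∧
          (x.1 patternK * x.1 patternK) * (x.1 patternK * x.1 patternK) = 1} =
      Nat.card {x : (Fin pattern.n → P7) × (Fin J.n → P7) //
        (Pair pattern J patternK patternE j f (-2) x ∧ ¬ eps (x.1 patternK) = 1) ∧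
          (x.1 patternK * x.1 patternK) * (x.1 patternK * x.1 patternK) = 1} := by
    refine Nat.card_congr (Equiv.subtypeEquivRight fun x => ?_)
    have h1 : (x.1 patternK * x.1 patternK) * (x.1 patternK * x.1 patternK) = 1 →
        x.1 patternK ^ (2 : ℤ) = x.1 patternK ^ (-2 : ℤ) := by
      intro h
      rw [zpow_neg, zpow_two]
      exact eq_inv_of_mul_eq_one_left h
    constructor
    · rintro ⟨⟨⟨c1, c2, c3, c4, c5⟩, c0⟩, c6⟩
      exact ⟨⟨⟨c1, c2, c3, c4, by rw [← h1 c6]; exact c5⟩, c0⟩, c6⟩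
    · rintro ⟨⟨⟨c1, c2, c3, c4, c5⟩, c0⟩, c6⟩
      exact ⟨⟨⟨c1, c2, c3, c4, by rw [h1 c6]; exact c5⟩, c0⟩, c6⟩
  have hP : bP 0 ^ (2 : ℤ) * pattern.lonVal bP patternK = 1 := by
    rw [zpow_two]; exact bP_K
  have hM : bM 0 ^ (-2 : ℤ) * pattern.lonVal bM patternK = 1 := by
    rw [bM_K, zpow_neg, zpow_two]; group
  rw [hsame] at hodd
  have hAB := Nat.add_left_cancel hodd
  have hA := card_pairs oneP J hJ j f 2 hP allP
  have hB := card_pairs oneM J hJ j f (-2) hM allM
  have h3 : Nat.card P7 * Nat.card {τ // Fib J j f bP τ} =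
      Nat.card P7 * Nat.card {τ // Fib J j f bM τ} := hA.symm.trans (hAB.trans hB)
  have hc : 0 < Nat.card P7 := Nat.card_pos
  have h4 := Nat.eq_of_mul_eq_mul_left hc h3
  rcases hf with hf | hf
  · have h1 : Nat.card {τ // Fib J j f bP τ} % 7 = 1 % 7 := (card_fib oneP J hJ j f).1 (by omega)
    have h2 : Nat.card {τ // Fib J j f bM τ} % 7 = 0 % 7 := (card_fib oneM J hJ j f).2 (by omega)
    omega
  · have h1 : Nat.card {τ // Fib J j f bP τ} % 7 = 0 % 7 := (card_fib oneP J hJ j f).2 (by omega)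
    have h2 : Nat.card {τ // Fib J j f bM τ} % 7 = 1 % 7 := (card_fib oneM J hJ j f).1 (by omega)
    omega

end Vale.Agent.P258.R2.H747.G7
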