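import Vale.Agent.P258.Bdl.B1

set_option linter.all false

/-!
The colourings of the first pattern by the elements of any group: relations and longitudes.
-/

namespace Vale.Agent.P258.Second.H747A

open Vale.Agent.P258

/-- Conjugation relations for a coloured pattern, read in the two possible directions. -/
structure PatRelA {Γ : Type*} [Group Γ] (v : Fin 21 → Γ) : Prop where
  f0 : v 1 = (v 8)⁻¹ * v 0 * v 8
  f1 : v 1 = (v 17)⁻¹ * v 2 * v 17
  f2 : v 3 = (v 14)⁻¹ * v 2 * v 14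
  f3 : v 3 = (v 1)⁻¹ * v 4 * v 1
  f4 : v 5 = (v 15)⁻¹ * v 4 * v 15
  f5 : v 5 = (v 20)⁻¹ * v 6 * v 20
  f6 : v 6 = (v 15)⁻¹ * v 7 * v 15
  f7 : v 8 = (v 1)⁻¹ * v 7 * v 1
  f8 : v 8 = (v 14)⁻¹ * v 9 * v 14
  f9 : v 10 = (v 17)⁻¹ * v 9 * v 17
  f10 : v 11 = (v 19)⁻¹ * v 10 * v 19
  f11 : v 11 = (v 8)⁻¹ * v 12 * v 8
  f12 : v 12 = (v 18)⁻¹ * v 13 * v 18
  f13 : v 14 = (v 3)⁻¹ * v 13 * v 3
  f14 : v 14 = (v 10)⁻¹ * v 15 * v 10
  f15 : v 16 = (v 11)⁻¹ * v 15 * v 11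
  f16 : v 16 = (v 14)⁻¹ * v 17 * v 14
  f17 : v 17 = (v 3)⁻¹ * v 18 * v 3
  f18 : v 18 = (v 12)⁻¹ * v 0 * v 12
  f19 : v 19 = (v 6)⁻¹ * v 20 * v 6
  f20 : v 19 = (v 10)⁻¹ * v 20 * v 10

/-- The value of the longitude of `K`. -/
def lamA {Γ : Type*} [Group Γ] (v : Fin 21 → Γ) : Γ :=
  ((((((((((((((((((v 8 * (v 17)⁻¹) * v 14) * (v 1)⁻¹) * v 15) * (v 20)⁻¹) * (v 15)⁻¹) * v 1) * (v 14)⁻¹) * v 17) * v 19) * (v 8)⁻¹) * (v 18)⁻¹) * v 3) * (v 10)⁻¹) * v 11) * (v 14)⁻¹) * (v 3)⁻¹) * (v 12)⁻¹) * (v 0 * (v 0 * v 0))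

theorem patRelA_of_isCol {Γ : Type*} [Group Γ] (v : Fin 21 → Γ) (h : pattern.IsCol v) : PatRelA v := by
  have g : ∀ a : Fin 21, v (Vale.Agent.P258.nextV a) = v (Vale.Agent.P258.aboveV a) ^ (-(Vale.Agent.P258.sgnV a : ℤ)) * v a *
      v (Vale.Agent.P258.aboveV a) ^ (Vale.Agent.P258.sgnV a : ℤ) := by
    intro a
    rw [← Vale.Agent.P258.nextV_eq, ← Vale.Agent.P258.aboveV_eq, ← Vale.Agent.P258.sgnV_eq]
    exact h a
  constructor
  · simpa [Vale.Agent.P258.nextV, Vale.Agent.P258.aboveV, Vale.Agent.P258.sgnV] using g 0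
  · have := g 1; simp [Vale.Agent.P258.nextV, Vale.Agent.P258.aboveV, Vale.Agent.P258.sgnV] at this; rw [this]; group
  · simpa [Vale.Agent.P258.nextV, Vale.Agent.P258.aboveV, Vale.Agent.P258.sgnV] using g 2
  · have := g 3; simp [Vale.Agent.P258.nextV, Vale.Agent.P258.aboveV, Vale.Agent.P258.sgnV] at this; rw [this]; group
  · simpa [Vale.Agent.P258.nextV, Vale.Agent.P258.aboveV, Vale.Agent.P258.sgnV] using g 4
  · have := g 5; simp [Vale.Agent.P258.nextV, Vale.Agent.P258.aboveV, Vale.Agent.P258.sgnV] at this; rw [this]; group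
  · have := g 6; simp [Vale.Agent.P258.nextV, Vale.Agent.P258.aboveV, Vale.Agent.P258.sgnV] at this; rw [this]; group
  · simpa [Vale.Agent.P258.nextV, Vale.Agent.P258.aboveV, Vale.Agent.P258.sgnV] using g 7
  · have := g 8; simp [Vale.Agent.P258.nextV, Vale.Agent.P258.aboveV, Vale.Agent.P258.sgnV] at this; rw [this]; group
  · simpa [Vale.Agent.P258.nextV, Vale.Agent.P258.aboveV, Vale.Agent.P258.sgnV] using g 9
  · simpa [Vale.Agent.P258.nextV, Vale.Agent.P258.aboveV, Vale.Agent.P258.sgnV] using g 10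
  · have := g 11; simp [Vale.Agent.P258.nextV, Vale.Agent.P258.aboveV, Vale.Agent.P258.sgnV] at this; rw [this]; group
  · have := g 12; simp [Vale.Agent.P258.nextV, Vale.Agent.P258.aboveV, Vale.Agent.P258.sgnV] at this; rw [this]; group
  · simpa [Vale.Agent.P258.nextV, Vale.Agent.P258.aboveV, Vale.Agent.P258.sgnV] using g 13
  · have := g 14; simp [Vale.Agent.P258.nextV, Vale.Agent.P258.aboveV, Vale.Agent.P258.sgnV] at this; rw [this]; group
  · simpa [Vale.Agent.P258.nextV, Vale.Agent.P258.aboveV, Vale.Agent.P258.sgnV] using g 15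
  · have := g 16; simp [Vale.Agent.P258.nextV, Vale.Agent.P258.aboveV, Vale.Agent.P258.sgnV] at this; rw [this]; group
  · have := g 17; simp [Vale.Agent.P258.nextV, Vale.Agent.P258.aboveV, Vale.Agent.P258.sgnV] at this; rw [this]; group
  · have := g 18; simp [Vale.Agent.P258.nextV, Vale.Agent.P258.aboveV, Vale.Agent.P258.sgnV] at this; rw [this]; group
  · have := g 19; simp [Vale.Agent.P258.nextV, Vale.Agent.P258.aboveV, Vale.Agent.P258.sgnV] at this; rw [this]; group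
  · simpa [Vale.Agent.P258.nextV, Vale.Agent.P258.aboveV, Vale.Agent.P258.sgnV] using g 20

theorem isCol_of_patRelA {Γ : Type*} [Group Γ] (v : Fin 21 → Γ) (h : PatRelA v) :
    pattern.IsCol v := by
  have g : ∀ a : Fin 21, v (Vale.Agent.P258.nextV a) = v (Vale.Agent.P258.aboveV a) ^ (-(Vale.Agent.P258.sgnV a : ℤ)) * v a *
      v (Vale.Agent.P258.aboveV a) ^ (Vale.Agent.P258.sgnV a : ℤ) := by
    intro a
    fin_cases a
    · simpa [Vale.Agent.P258.nextV, Vale.Agent.P258.aboveV, Vale.Agent.P258.sgnV] using h.f0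
    · have := h.f1; simp [Vale.Agent.P258.nextV, Vale.Agent.P258.aboveV, Vale.Agent.P258.sgnV]; rw [this]; group
    · simpa [Vale.Agent.P258.nextV, Vale.Agent.P258.aboveV, Vale.Agent.P258.sgnV] using h.f2
    · have := h.f3; simp [Vale.Agent.P258.nextV, Vale.Agent.P258.aboveV, Vale.Agent.P258.sgnV]; rw [this]; group
    · simpa [Vale.Agent.P258.nextV, Vale.Agent.P258.aboveV, Vale.Agent.P258.sgnV] using h.f4
    · have := h.f5; simp [Vale.Agent.P258.nextV, Vale.Agent.P258.aboveV, Vale.Agent.P258.sgnV]; rw [this]; group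
    · have := h.f6; simp [Vale.Agent.P258.nextV, Vale.Agent.P258.aboveV, Vale.Agent.P258.sgnV]; rw [this]; group
    · simpa [Vale.Agent.P258.nextV, Vale.Agent.P258.aboveV, Vale.Agent.P258.sgnV] using h.f7
    · have := h.f8; simp [Vale.Agent.P258.nextV, Vale.Agent.P258.aboveV, Vale.Agent.P258.sgnV]; rw [this]; group
    · simpa [Vale.Agent.P258.nextV, Vale.Agent.P258.aboveV, Vale.Agent.P258.sgnV] using h.f9
    · simpa [Vale.Agent.P258.nextV, Vale.Agent.P258.aboveV, Vale.Agent.P258.sgnV] using h.f10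
    · have := h.f11; simp [Vale.Agent.P258.nextV, Vale.Agent.P258.aboveV, Vale.Agent.P258.sgnV]; rw [this]; group
    · have := h.f12; simp [Vale.Agent.P258.nextV, Vale.Agent.P258.aboveV, Vale.Agent.P258.sgnV]; rw [this]; group
    · simpa [Vale.Agent.P258.nextV, Vale.Agent.P258.aboveV, Vale.Agent.P258.sgnV] using h.f13
    · have := h.f14; simp [Vale.Agent.P258.nextV, Vale.Agent.P258.aboveV, Vale.Agent.P258.sgnV]; rw [this]; group
    · simpa [Vale.Agent.P258.nextV, Vale.Agent.P258.aboveV, Vale.Agent.P258.sgnV] using h.f15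
    · have := h.f16; simp [Vale.Agent.P258.nextV, Vale.Agent.P258.aboveV, Vale.Agent.P258.sgnV]; rw [this]; group
    · have := h.f17; simp [Vale.Agent.P258.nextV, Vale.Agent.P258.aboveV, Vale.Agent.P258.sgnV]; rw [this]; group
    · have := h.f18; simp [Vale.Agent.P258.nextV, Vale.Agent.P258.aboveV, Vale.Agent.P258.sgnV]; rw [this]; group
    · have := h.f19; simp [Vale.Agent.P258.nextV, Vale.Agent.P258.aboveV, Vale.Agent.P258.sgnV]; rw [this]; group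
    · simpa [Vale.Agent.P258.nextV, Vale.Agent.P258.aboveV, Vale.Agent.P258.sgnV] using h.f20
  intro a
  change Fin 21 at a
  have h1 := g a
  rw [← Vale.Agent.P258.nextV_eq a, ← Vale.Agent.P258.aboveV_eq a, ← Vale.Agent.P258.sgnV_eq a] at h1
  exact h1

theorem arc_termA {Γ : Type*} [Group Γ] (v : Fin 21 → Γ) (b : Fin 21) :
    v (pattern.above b) ^ ((pattern.sgn b : ℤˣ) : ℤ) = v (Vale.Agent.P258.aboveV b) ^ (Vale.Agent.P258.sgnV b : ℤ) := by
  rw [Vale.Agent.P258.aboveV_eq, Vale.Agent.P258.sgnV_eq]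

theorem lonValA_K {Γ : Type*} [Group Γ] (v : Fin 21 → Γ) : pattern.lonVal v patternK = lamA v := by
  have h : (fun b : Fin 21 => v (pattern.above b) ^ ((pattern.sgn b : ℤˣ) : ℤ)) =
      fun b => v (Vale.Agent.P258.aboveV b) ^ (Vale.Agent.P258.sgnV b : ℤ) := funext (arc_termA v)
  have h1 : (List.map (fun b : Fin 21 => v (pattern.above b) ^ ((pattern.sgn b : ℤˣ) : ℤ))
      [0, 1, 2, 3, 4, 5, 6, 7, 8, 9, 10, 11, 12, 13, 14, 15, 16, 17, 18]).prod =
      v 8 ^ (1 : ℤ) * (v 17 ^ (-1 : ℤ) * (v 14 ^ (1 : ℤ) * (v 1 ^ (-1 : ℤ) * (v 15 ^ (1 : ℤ) * (v 20 ^ (-1 : ℤ) * (v 15 ^ (-1 : ℤ) * (v 1 ^ (1 : ℤ) * (v 14 ^ (-1 : ℤ) * (v 17 ^ (1 : ℤ) * (v 19 ^ (1 : ℤ) * (v 8 ^ (-1 : ℤ) * (v 18 ^ (-1 : ℤ) * (v 3 ^ (1 : ℤ) * (v 10 ^ (-1 : ℤ) * (v 11 ^ (1 : ℤ) * (v 14 ^ (-1 : ℤ) * (v 3 ^ (-1 : ℤ) * (v 12 ^ (-1 : ℤ) * (1))))))))))))))))))) := by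
    rw [h]
    rfl
  have h3 := Vale.Agent.P258.lonVal_eq (D := pattern) v patternK _ _ _ Vale.Agent.P258.walk_K Vale.Agent.P258.writhe_K h1
  have h2 : v patternK = v 0 := rfl
  have h5 : v 0 ^ (-(-3 : ℤ)) = v 0 * (v 0 * v 0) := by
    rw [neg_neg, ← pow_three]
    exact zpow_natCast (v 0) 3
  rw [h2, h5] at h3
  rw [h3]
  simp only [lamA, zpow_one, zpow_neg_one, mul_one, mul_assoc]

theorem lonValA_E {Γ : Type*} [Group Γ] (v : Fin 21 → Γ) : pattern.lonVal v patternE = (v 6)⁻¹ * v 10 := by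
  have h : (fun b : Fin 21 => v (pattern.above b) ^ ((pattern.sgn b : ℤˣ) : ℤ)) =
      fun b => v (Vale.Agent.P258.aboveV b) ^ (Vale.Agent.P258.sgnV b : ℤ) := funext (arc_termA v)
  have h1 : (List.map (fun b : Fin 21 => v (pattern.above b) ^ ((pattern.sgn b : ℤˣ) : ℤ))
      [19, 20]).prod = v 6 ^ (-1 : ℤ) * (v 10 ^ (1 : ℤ) * (1)) := by
    rw [h]
    rfl
  have h3 := Vale.Agent.P258.lonVal_eq (D := pattern) v patternE _ _ _ Vale.Agent.P258.walk_E Vale.Agent.P258.writhe_E h1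
  rw [h3]
  simp only [zpow_one, zpow_neg_one, mul_one, neg_zero, zpow_zero]

end Vale.Agent.P258.Second.H747A
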