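import Mathlib.LinearAlgebra.Matrix.SpecialLinearGroup
import Mathlib.Tactic

set_option linter.all false

/-!
The group `SL(2, 7)`, with a code for each element, in which the kernel computes products quickly.
-/

namespace Vale.Agent.P258.R2.H747

open Matrix

/-- The group `SL(2, 7)`. -/
abbrev G := Matrix.SpecialLinearGroup (Fin 2) (ZMod 7)

/-- The number with the octal digits `d, c, b, a`. -/
def cd (a b c d : ℕ) : ℕ :=
  Nat.add (Nat.add a (Nat.mul 8 b)) (Nat.add (Nat.mul 64 c) (Nat.mul 512 d))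

def mulA (a b c d e f g h : ℕ) : ℕ :=
  cd (Nat.mod (Nat.add (Nat.mul a e) (Nat.mul b g)) 7)
    (Nat.mod (Nat.add (Nat.mul a f) (Nat.mul b h)) 7)
    (Nat.mod (Nat.add (Nat.mul c e) (Nat.mul d g)) 7)
    (Nat.mod (Nat.add (Nat.mul c f) (Nat.mul d h)) 7)

def mulN (x y : ℕ) : ℕ :=
  mulA (Nat.land x 7) (Nat.land (Nat.shiftRight x 3) 7) (Nat.land (Nat.shiftRight x 6) 7)
    (Nat.shiftRight x 9) (Nat.land y 7) (Nat.land (Nat.shiftRight y 3) 7)
    (Nat.land (Nat.shiftRight y 6) 7) (Nat.shiftRight y 9)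

def neg7 (a : ℕ) : ℕ := Nat.mod (Nat.sub 7 a) 7

def invN (x : ℕ) : ℕ :=
  cd (Nat.shiftRight x 9) (neg7 (Nat.land (Nat.shiftRight x 3) 7))
    (neg7 (Nat.land (Nat.shiftRight x 6) 7)) (Nat.land x 7)

def cjN (x k : ℕ) : ℕ := mulN (mulN (invN k) x) k

def ciN (x k : ℕ) : ℕ := mulN (mulN k x) (invN k)

def force {α : Type} (n : ℕ) (f : ℕ → α) : α :=
  Nat.rec (motive := fun _ => α) (f 0) (fun m _ => f (Nat.succ m)) n

theorem force_eq {α : Type} (n : ℕ) (f : ℕ → α) : force n f = f n := by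
  cases n <;> rfl

def inv13 (x : ℕ) : ℕ :=
  force (invN x) fun u => force (mulN u u) fun u2 => force (mulN u2 u2) fun u4 =>
    mulN (mulN (mulN u4 u4) u4) u

/-- The codes of the elements of the conjugacy class with number `i` (the classes of the elements
`x` with `x ^ 2 ≠ 1`). -/
def cl (i : ℕ) : List ℕ :=
  ([[392, 208, 152, 352, 296, 112, 3401, 3473, 3353, 3297, 3177, 3249, 2698, 2642, 2778, 2850,
    2986, 2930, 2315, 2195, 2459, 2147, 2411, 2291, 1804, 1684, 1948, 1636, 1900, 1780, 1165,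
    1109, 1245, 1317, 1453, 1397, 846, 918, 798, 742, 622, 694], [904, 720, 664, 864, 808, 624,
    393, 209, 153, 353, 297, 113, 3338, 3218, 3482, 3170, 3434, 3314, 2563, 2627, 2691, 2755,
    2819, 2883, 2947, 2571, 2579, 2587, 2595, 2603, 2611, 2124, 2324, 2396, 2212, 2284, 2484,
    1541, 1605, 1669, 1733, 1797, 1861, 1925, 1549, 1557, 1565, 1573, 1581, 1589, 1294, 1174,
    1438, 1126, 1390, 1270], [1416, 1232, 1376, 705, 833, 897, 521, 529, 545, 394, 210, 354,
    3275, 3411, 3491, 2892, 2964, 2788, 2381, 2453, 2277, 1742, 1878, 1958], [1928, 1744, 1688,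
    1888, 1832, 1648, 1097, 1297, 1369, 1185, 1257, 1457, 586, 786, 858, 674, 746, 946, 395,
    211, 155, 355, 299, 115, 3212, 3156, 3292, 3364, 3500, 3444, 2765, 2901, 2653, 2981, 2733,
    2869, 2190, 2134, 2270, 2342, 2478, 2422], [2440, 2256, 2200, 2400, 2344, 2160, 1673, 1617,
    1753, 1825, 1961, 1905, 1226, 1362, 1114, 1442, 1194, 1330, 651, 595, 731, 803, 939, 883,
    396, 212, 156, 356, 300, 116, 3149, 3349, 3421, 3237, 3309, 3509, 2638, 2838, 2910, 2726,
    2798, 2998], [2952, 2768, 2912, 2249, 2385, 2465, 1866, 1938, 1762, 1355, 1427, 1251, 716,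
    852, 932, 397, 213, 357, 3270, 3398, 3462, 3086, 3094, 3110], [3464, 3280, 3224, 3424, 3368,
    3184, 2825, 2705, 2969, 2657, 2921, 2801, 2050, 2114, 2178, 2242, 2306, 2370, 2434, 2058,
    2066, 2074, 2082, 2090, 2098, 1611, 1811, 1883, 1699, 1771, 1971, 1028, 1092, 1156, 1220,
    1284, 1348, 1412, 1036, 1044, 1052, 1060, 1068, 1076, 781, 661, 925, 613, 877, 757, 398,
    214, 158, 358, 302, 118], [1176, 1320, 1136, 577, 641, 769, 537, 553, 561, 154, 298, 114,
    3163, 3243, 3379, 2844, 2668, 2740, 2333, 2157, 2229, 1630, 1710, 1846], [2712, 2856, 2672,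
    2137, 2217, 2353, 1818, 1642, 1714, 1307, 1131, 1203, 604, 684, 820, 157, 301, 117, 3142,
    3206, 3334, 3102, 3118, 3126]] : List (List ℕ)).getD i []

/-- The codes of all elements. -/
def allc : List ℕ :=
  [392, 904, 1416, 1928, 2440, 2952, 3464, 208, 720, 1232, 1744, 2256, 2768, 3280, 152, 664,
    1176, 1688, 2200, 2712, 3224, 352, 864, 1376, 1888, 2400, 2912, 3424, 296, 808, 1320, 1832,
    2344, 2856, 3368, 112, 624, 1136, 1648, 2160, 2672, 3184, 513, 577, 641, 705, 769, 833, 897,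
    521, 1097, 1673, 2249, 2825, 3401, 393, 529, 1617, 2705, 209, 1297, 2385, 3473, 537, 2137,
    153, 1753, 3353, 1369, 2969, 545, 2657, 1185, 3297, 1825, 353, 2465, 553, 3177, 2217, 1257,
    297, 2921, 1961, 561, 113, 3249, 2801, 2353, 1905, 1457, 2050, 2114, 2178, 2242, 2306, 2370,
    2434, 2058, 586, 2698, 1226, 3338, 1866, 394, 2066, 2642, 3218, 210, 786, 1362, 1938, 2074,
    1114, 154, 2778, 1818, 858, 3482, 2082, 3170, 674, 1762, 2850, 354, 1442, 2090, 1642, 1194,
    746, 298, 3434, 2986, 2098, 114, 1714, 3314, 1330, 2930, 946, 2563, 2627, 2691, 2755, 2819,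
    2883, 2947, 2571, 1611, 651, 3275, 2315, 1355, 395, 2579, 595, 2195, 211, 1811, 3411, 1427,
    2587, 3163, 155, 731, 1307, 1883, 2459, 2595, 2147, 1699, 1251, 803, 355, 3491, 2603, 1131,
    3243, 1771, 299, 2411, 939, 2611, 115, 1203, 2291, 3379, 883, 1971, 1028, 1092, 1156, 1220,
    1284, 1348, 1412, 1036, 2124, 3212, 716, 1804, 2892, 396, 1044, 3156, 1684, 212, 2324, 852,
    2964, 1052, 604, 156, 3292, 2844, 2396, 1948, 1060, 1636, 2212, 2788, 3364, 356, 932, 1068,
    2668, 684, 2284, 300, 1900, 3500, 1076, 116, 2740, 1780, 820, 3444, 2484, 1541, 1605, 1669,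
    1733, 1797, 1861, 1925, 1549, 3149, 1165, 2765, 781, 2381, 397, 1557, 1109, 661, 213, 3349,
    2901, 2453, 1565, 2653, 157, 1245, 2333, 3421, 925, 1573, 613, 3237, 2277, 1317, 357, 2981,
    1581, 2157, 2733, 3309, 301, 877, 1453, 1589, 117, 2229, 757, 2869, 1397, 3509, 3078, 3142,
    3206, 3270, 3334, 3398, 3462, 3086, 2638, 2190, 1742, 1294, 846, 398, 3094, 2134, 1174, 214,
    2838, 1878, 918, 3102, 1630, 158, 2270, 798, 2910, 1438, 3110, 1126, 2726, 742, 2342, 358,
    1958, 3118, 622, 1710, 2798, 302, 1390, 2478, 3126, 118, 694, 1270, 1846, 2422, 2998]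

/-- The representative of a class. -/
def rep (i : ℕ) : ℕ := (cl i).headD 0

theorem cd_digits : ∀ a b c d : Fin 7,
    Nat.land (cd a.val b.val c.val d.val) 7 = a.val ∧
    Nat.land (Nat.shiftRight (cd a.val b.val c.val d.val) 3) 7 = b.val ∧
    Nat.land (Nat.shiftRight (cd a.val b.val c.val d.val) 6) 7 = c.val ∧
    Nat.shiftRight (cd a.val b.val c.val d.val) 9 = d.val ∧
    invN (cd a.val b.val c.val d.val) = cd d.val (neg7 b.val) (neg7 c.val) a.val := by
  decide +kernel

theorem cd_dig (a b c d : ZMod 7) :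
    Nat.land (cd a.val b.val c.val d.val) 7 = a.val ∧
    Nat.land (Nat.shiftRight (cd a.val b.val c.val d.val) 3) 7 = b.val ∧
    Nat.land (Nat.shiftRight (cd a.val b.val c.val d.val) 6) 7 = c.val ∧
    Nat.shiftRight (cd a.val b.val c.val d.val) 9 = d.val ∧
    invN (cd a.val b.val c.val d.val) = cd d.val (neg7 b.val) (neg7 c.val) a.val :=
  cd_digits a b c d

theorem mulN_cd (a b c d e f g h : ZMod 7) :
    mulN (cd a.val b.val c.val d.val) (cd e.val f.val g.val h.val) =
      mulA a.val b.val c.val d.val e.val f.val g.val h.val := by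
  obtain ⟨h1, h2, h3, h4, _⟩ := cd_dig a b c d
  obtain ⟨k1, k2, k3, k4, _⟩ := cd_dig e f g h
  unfold mulN
  rw [h1, h2, h3, h4, k1, k2, k3, k4]

/-- The code of an element. -/
def code (A : G) : ℕ := cd (A.1 0 0).val (A.1 0 1).val (A.1 1 0).val (A.1 1 1).val

theorem code_mul (A B : G) : code (A * B) = mulN (code A) (code B) := by
  have h : ∀ x y z w : ZMod 7, (x * y + z * w).val =
      Nat.mod (Nat.add (Nat.mul x.val y.val) (Nat.mul z.val w.val)) 7 := by
    intro x y z w
    rw [ZMod.val_add, ZMod.val_mul, ZMod.val_mul, ← Nat.add_mod]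
    rfl
  unfold code
  rw [mulN_cd]
  rw [Matrix.SpecialLinearGroup.coe_mul]
  simp only [Matrix.mul_apply, Fin.sum_univ_two]
  unfold mulA
  rw [h, h, h, h]

theorem code_inv (A : G) : code A⁻¹ = invN (code A) := by
  have h : ∀ x : ZMod 7, (-x).val = neg7 x.val := by
    intro x
    rw [ZMod.neg_val']
    rfl
  unfold code
  rw [(cd_dig _ _ _ _).2.2.2.2]
  rw [Matrix.SpecialLinearGroup.coe_inv, Matrix.adjugate_fin_two]
  rw [← h, ← h]
  rfl

theorem code_one : code 1 = 513 := by decide +kernel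

theorem code_inj {A B : G} (h : code A = code B) : A = B := by
  unfold code at h
  obtain ⟨h1, h2, h3, h4, _⟩ := cd_dig (A.1 0 0) (A.1 0 1) (A.1 1 0) (A.1 1 1)
  obtain ⟨k1, k2, k3, k4, _⟩ := cd_dig (B.1 0 0) (B.1 0 1) (B.1 1 0) (B.1 1 1)
  rw [h] at h1 h2 h3 h4
  apply Subtype.ext
  ext i j
  fin_cases i <;> fin_cases j
  · exact ZMod.val_injective 7 (h1.symm.trans k1)
  · exact ZMod.val_injective 7 (h2.symm.trans k2)
  · exact ZMod.val_injective 7 (h3.symm.trans k3)
  · exact ZMod.val_injective 7 (h4.symm.trans k4)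

theorem code_cj (x k : G) : code (k⁻¹ * x * k) = cjN (code x) (code k) := by
  rw [code_mul, code_mul, code_inv]; rfl

theorem code_ci (x k : G) : code (k * x * k⁻¹) = ciN (code x) (code k) := by
  rw [code_mul, code_mul, code_inv]; rfl

def z7 (n : ℕ) : ZMod 7 := (Fin.ofNat 7 n : Fin 7)

/-- The element with a given code. -/
def toG (x : ℕ) : G :=
  if h : z7 (Nat.land x 7) * z7 (Nat.shiftRight x 9) -
      z7 (Nat.land (Nat.shiftRight x 3) 7) * z7 (Nat.land (Nat.shiftRight x 6) 7) = 1 then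
    ⟨!![z7 (Nat.land x 7), z7 (Nat.land (Nat.shiftRight x 3) 7);
        z7 (Nat.land (Nat.shiftRight x 6) 7), z7 (Nat.shiftRight x 9)], by
      rw [Matrix.det_fin_two_of]
      exact h⟩
  else 1

theorem toG_chk : (allc.all fun w => Nat.beq (code (toG w)) w) = true := by
  decide +kernel

theorem code_toG {w : ℕ} (hw : w ∈ allc) : code (toG w) = w :=
  Nat.eq_of_beq_eq_true (List.all_eq_true.1 toG_chk w hw)

theorem allc_chk : ∀ a b c d : ZMod 7, a * d - b * c = 1 →
    (allc.any fun w => Nat.beq (cd a.val b.val c.val d.val) w) = true := by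
  decide +kernel

theorem mem_allc (A : G) : code A ∈ allc := by
  have hdet : A.1 0 0 * A.1 1 1 - A.1 0 1 * A.1 1 0 = 1 := by
    rw [← Matrix.det_fin_two]; exact A.2
  obtain ⟨w, hw, h⟩ := List.any_eq_true.1 (allc_chk _ _ _ _ hdet)
  have : code A = w := Nat.eq_of_beq_eq_true h
  rw [this]; exact hw

theorem cls_chk : (allc.all fun x => Nat.beq (mulN x x) 513 ||
    (List.range 9).any fun i => (cl i).any fun y => Nat.beq x y) = true := by
  decide +kernel

theorem rep_chk : ((List.range 9).all fun i => (cl i).all fun c =>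
    allc.any fun w => Nat.beq (ciN c w) (rep i)) = true := by
  decide +kernel

theorem con_chk : ((List.range 9).all fun i => allc.all fun w =>
    (cl i).any fun y => Nat.beq (cjN (rep i) w) y) = true := by
  decide +kernel

/-- Each element `A` with `A ^ 2 ≠ 1` is conjugate to one of the representatives. -/
theorem exists_rep {A : G} (h : A * A ≠ 1) :
    ∃ i ∈ List.range 9, ∃ W : G, code (W * A * W⁻¹) = rep i := by
  have h1 := List.all_eq_true.1 cls_chk _ (mem_allc A)
  rw [Bool.or_eq_true] at h1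
  rcases h1 with h1 | h1
  · exact absurd (code_inj (by rw [code_mul, code_one]; exact Nat.eq_of_beq_eq_true h1)) h
  · obtain ⟨i, hi, h2⟩ := List.any_eq_true.1 h1
    obtain ⟨y, hy, h3⟩ := List.any_eq_true.1 h2
    have h4 : code A = y := Nat.eq_of_beq_eq_true h3
    have h5 := List.all_eq_true.1 (List.all_eq_true.1 rep_chk i hi) y hy
    obtain ⟨w, hw, h6⟩ := List.any_eq_true.1 h5
    refine ⟨i, hi, toG w, ?_⟩
    rw [code_ci, code_toG hw, h4]
    exact Nat.eq_of_beq_eq_true h6

theorem mem_cl {i : ℕ} (hi : i ∈ List.range 9) {A : G} (hA : code A = rep i) (k : G) :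
    code (k⁻¹ * A * k) ∈ cl i := by
  have h1 := List.all_eq_true.1 (List.all_eq_true.1 con_chk i hi) _ (mem_allc k)
  obtain ⟨y, hy, h2⟩ := List.any_eq_true.1 h1
  rw [code_cj, hA, Nat.eq_of_beq_eq_true h2]
  exact hy

def pow168N (x : ℕ) : ℕ :=
  force (mulN x x) fun u2 => force (mulN u2 u2) fun u4 => force (mulN u4 u4) fun u8 =>
    force (mulN u8 u8) fun u16 => force (mulN u16 u16) fun u32 => force (mulN u32 u32) fun u64 =>
      mulN (mulN (mulN u64 u64) u32) u8

theorem chk_pow168 : (allc.all fun x => Nat.beq (pow168N x) 513) = true := by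
  decide +kernel

theorem G_pow (g : G) : g ^ 168 = 1 := by
  have h : g ^ 168 = g ^ 64 * g ^ 64 * g ^ 32 * g ^ 8 := by
    simp only [← pow_add]
  have h2 : g ^ 2 = g * g := pow_two g
  have h4 : g ^ 4 = g ^ 2 * g ^ 2 := by simp only [← pow_add]
  have h8 : g ^ 8 = g ^ 4 * g ^ 4 := by simp only [← pow_add]
  have h16 : g ^ 16 = g ^ 8 * g ^ 8 := by simp only [← pow_add]
  have h32 : g ^ 32 = g ^ 16 * g ^ 16 := by simp only [← pow_add]
  have h64 : g ^ 64 = g ^ 32 * g ^ 32 := by simp only [← pow_add]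
  apply code_inj
  have h1 : code (g ^ 168) = pow168N (code g) := by
    rw [h]
    unfold pow168N
    simp only [force_eq]
    rw [code_mul, code_mul, code_mul, h64, code_mul, h32, code_mul, h16,
      code_mul, h8, code_mul, h4, code_mul, h2, code_mul]
  rw [h1, code_one]
  exact Nat.eq_of_beq_eq_true (List.all_eq_true.1 chk_pow168 _ (mem_allc g))

end Vale.Agent.P258.R2.H747
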