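import Vale.Agent.P258.R2.H747.E8S
import Vale.Agent.P258.R2.H747.GenA
import Vale.Agent.P258.H331.Main

set_option linter.all false

/-!
The colourings of the first pattern by `SL(2, 8)` with the slopes `2` and `-2`: three classes for
each sign.
-/

namespace Vale.Agent.P258.Second.H747A

open Vale.Agent.P258 Vale.Agent.P258.Second

theorem eqL_eq : ∀ {l m : List ℕ}, eqL l m = true → l = m
  | [], [], _ => rfl
  | a :: l, b :: m, h => by
    unfold eqL at h
    rw [Bool.and_eq_true] at h
    rw [Nat.eq_of_beq_eq_true h.1, eqL_eq h.2]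
  | [], _ :: _, h => by simp [eqL] at h
  | _ :: _, [], h => by simp [eqL] at h

theorem inL_mem {L : List (List ℕ)} {l : List ℕ} (h : inL L l = true) : l ∈ L := by
  obtain ⟨m, hm, h1⟩ := List.any_eq_true.1 h
  rw [← eqL_eq h1]
  exact hm

/-- The codes of a colouring. -/
def codes (v : Fin 21 → G) : List ℕ :=
  [code (v 0), code (v 1), code (v 2), code (v 3), code (v 4), code (v 5), code (v 6), code (v 7), code (v 8), code (v 9), code (v 10), code (v 11), code (v 12), code (v 13), code (v 14), code (v 15), code (v 16), code (v 17), code (v 18), code (v 19), code (v 20)]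

theorem soundA (v : Fin 21 → G) (h : PatRelA v) (hE : (v 6)⁻¹ * v 10 = 1 → v 19 = 1) (t : ℕ)
    (h3 : code (v 3) ∈ cl t) (h12 : code (v 12) ∈ cl t) (h8 : tr (v 8) = t)
    (hc8 : ∃ c ∈ cen t, code (v 8) = mulN (mulN (invN (wN (code (v 0)))) c) (wN (code (v 1))))
    (hc19 : ∃ c ∈ cen t,
      code (v 19) = mulN (mulN (invN (wN (code (v 10)))) c) (wN (code (v 11))))
    (hd : s0 t (cl t) (cen t) (code (v 0)) = true) :
    (v 0 * v 0 * lamA v = 1 → codes v ∈ lP t) ∧ (v 0 * v 0 = lamA v → codes v ∈ lM t) := by
  obtain ⟨c8, hc8, ec8⟩ := hc8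
  obtain ⟨c19, hc19, ec19⟩ := hc19
  have htr : Nat.xor (Nat.land (code (v 8)) 7) (Nat.shiftRight (code (v 8)) 9) = t := by
    obtain ⟨e1, _, _, e4, _⟩ := cd_dig ((v 8).1 0 0) ((v 8).1 0 1) ((v 8).1 1 0) ((v 8).1 1 1)
    have e1' : Nat.land (code (v 8)) 7 = ((v 8).1 0 0).val := e1
    have e4' : Nat.shiftRight (code (v 8)) 9 = ((v 8).1 1 1).val := e4
    rw [e1', e4']
    exact h8
  unfold s0 at hd
  replace hd := all_step hd h3
  unfold s1 at hd
  replace hd := all_step hd h12
  unfold s2 at hd
  rw [force_eq, ← fwd h.f18] at hd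
  unfold s3 at hd
  rw [force_eq, ← fwd h.f17] at hd
  unfold s4 at hd
  rw [force_eq, ← bwd h.f12] at hd
  unfold s5 at hd
  rw [force_eq, ← fwd h.f13] at hd
  unfold s6 at hd
  rw [force_eq, ← bwd h.f2] at hd
  unfold s7 at hd
  rw [force_eq, ← fwd h.f1] at hd
  unfold s8 at hd
  replace hd := all_step hd hc8
  rw [force_eq, ← ec8] at hd
  unfold s9 at hd
  replace hd := test_step hd htr
  unfold s10 at hd
  rw [force_eq, ← bwd h.f8] at hd
  unfold s11 at hd
  rw [force_eq, ← fwd h.f9] at hd
  unfold s12 at hd
  rw [force_eq, ← bwd h.f14] at hd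
  unfold s13 at hd
  rw [force_eq, ← fwd h.f11] at hd
  unfold s14 at hd
  rw [force_eq, ← fwd h.f16] at hd
  unfold s15 at hd
  replace hd := test_step hd (fwd h.f15)
  unfold s16 at hd
  rw [force_eq, ← bwd h.f3] at hd
  unfold s17 at hd
  rw [force_eq, ← bwd h.f7] at hd
  unfold s18 at hd
  rw [force_eq, ← fwd h.f6] at hd
  unfold s19 at hd
  rw [force_eq, ← fwd h.f4] at hd
  unfold s20 at hd
  replace hd := all_step hd hc19
  rw [force_eq, ← ec19] at hd
  unfold s21 at hd
  rw [force_eq, ← bwd h.f20] at hd
  unfold s22 at hd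
  replace hd := test_step hd (fwd h.f19)
  unfold s23 at hd
  replace hd := test_step hd (fwd h.f5)
  unfold s24 at hd
  rw [force_eq] at hd
  rw [Bool.or_eq_true] at hd
  rcases hd with hd | hd
  · rw [Bool.and_eq_true] at hd
    have h1 : (v 6)⁻¹ * v 10 = 1 := code_inj (by
      rw [code_mul, code_inv, code_one]; exact Nat.eq_of_beq_eq_true hd.1)
    have h2 := hd.2
    rw [hE h1, code_one] at h2
    exact absurd h2 (by decide)
  · have hl : code (lamA v) = 
        (mulN (mulN (mulN (mulN (mulN (mulN (mulN (mulN (mulN (mulN (mulN (mulN (mulN (mulN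
        (mulN (mulN (mulN (mulN (mulN (code (v 8)) (invN (code (v 17)))) (code (v 14))) (invN
        (code (v 1)))) (code (v 15))) (invN (code (v 20)))) (invN (code (v 15)))) (code (v 1)))
        (invN (code (v 14)))) (code (v 17))) (code (v 19))) (invN (code (v 8)))) (invN (code (v
        18)))) (code (v 3))) (invN (code (v 10)))) (code (v 11))) (invN (code (v 14)))) (invN
        (code (v 3)))) (invN (code (v 12)))) (mulN (code (v 0)) (mulN (code (v 0)) (code (v
        0))))) := by
      unfold lamA
      simp only [code_mul, code_inv]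
    rw [← hl, ← code_mul, ← code_mul, Bool.and_eq_true] at hd
    constructor
    · intro h1
      have h2 := hd.1
      rw [Bool.or_eq_true] at h2
      rcases h2 with h2 | h2
      · rw [h1, code_one] at h2
        exact absurd h2 (by decide)
      · exact inL_mem h2
    · intro h1
      have h2 := hd.2
      rw [Bool.or_eq_true] at h2
      rcases h2 with h2 | h2
      · rw [h1, Nat.beq_refl] at h2
        exact absurd h2 (by decide)
      · exact inL_mem h2

theorem tr_next' (D : Diagram) (ρ : Fin D.n → G) (h : D.IsCol ρ) (a : Fin D.n) :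
    tr (ρ (D.next a)) = tr (ρ a) := by
  rw [h a]
  have := tr_conj (ρ a) (ρ (D.above a) ^ ((D.sgn a : ℤˣ) : ℤ))
  rw [zpow_neg]
  exact this

theorem tr_same' (D : Diagram) (ρ : Fin D.n → G) (h : D.IsCol ρ) {a b : Fin D.n}
    (hab : D.SameComponent a b) : tr (ρ b) = tr (ρ a) := by
  obtain ⟨i, rfl⟩ := hab
  induction i with
  | zero => rfl
  | succ i ih => rw [Function.iterate_succ_apply', tr_next' D ρ h, ih]

/-- A colouring with `x_0` a companion matrix: it is in one of the lists. -/
theorem find (v : Fin 21 → G) (hv : pattern.IsCol v)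
    (hE : pattern.lonVal v patternE = 1 → v 19 = 1) (t : F8) (ht : t.val ≠ 0)
    (h0 : v 0 = comp t) :
    (v 0 * v 0 * pattern.lonVal v patternK = 1 → codes v ∈ lP t.val) ∧
      (v 0 * v 0 = pattern.lonVal v patternK → codes v ∈ lM t.val) := by
  have hP : PatRelA v := patRelA_of_isCol v hv
  have htr0 : tr (v 0) = t.val := by
    rw [h0, tr_eq, comp]
    simp [Matrix.trace_fin_two]
  have htr : ∀ b : Fin 21, b.val < 19 → tr (v b) = t.val := fun b hb => by
    rw [← htr0]
    exact tr_same' pattern v hv ((Vale.Agent.P258.comp_K b).2 hb)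
  have hmem : ∀ b : Fin 21, b.val < 19 → code (v b) ∈ cl t.val := fun b hb => by
    have := mem_cl (A := v b) (by rw [htr b hb]; exact ht)
    rwa [htr b hb] at this
  have hc8 : ∃ c ∈ cen t.val,
      code (v 8) = mulN (mulN (invN (wN (code (v 0)))) c) (wN (code (v 1))) := by
    have := transporter (g := v 0) (h := v 1) (y := v 8) (by rw [htr0]; exact ht) hP.f0
    rwa [htr0] at this
  have hc19 : ∃ c ∈ cen t.val,
      code (v 19) = mulN (mulN (invN (wN (code (v 10)))) c) (wN (code (v 11))) := by
    have h10 := htr 10 (by decide)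
    have := transporter (g := v 10) (h := v 11) (y := v 19) (by rw [h10]; exact ht) hP.f10
    rwa [h10] at this
  rw [lonValA_K]
  rw [lonValA_E] at hE
  refine soundA v hP hE t.val (hmem 3 (by decide)) (hmem 12 (by decide)) (htr 8 (by decide))
    hc8 hc19 ?_
  rw [h0, code_comp]
  exact chk t.val ht t.lt

/-- The colouring with given codes. -/
def ofCodes (l : List ℕ) (a : Fin 21) : G := toG (l.getD a.val 0)

/-- Three colourings of slope `2`. -/
def bP (i : Fin 3) : Fin 21 → G := ofCodes (cP i.val)

/-- Three colourings of slope `-2`. -/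
def bM (i : Fin 3) : Fin 21 → G := ofCodes (cM i.val)

theorem code_bP : ∀ i : Fin 3, ∀ a : Fin 21, code (bP i a) = (cP i.val).getD a.val 0 := by
  decide +kernel

theorem code_bM : ∀ i : Fin 3, ∀ a : Fin 21, code (bM i a) = (cM i.val).getD a.val 0 := by
  decide +kernel

theorem cen_G : ((List.range 8).all fun t => (cen t).all fun c => Nat.beq (code (toG c)) c) =
    true := by
  decide +kernel

theorem len_cP : ∀ i : Fin 3, (cP i.val).length = 21 := by decide
theorem len_cM : ∀ i : Fin 3, (cM i.val).length = 21 := by decide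

theorem codes_getD (v : Fin 21 → G) (a : Fin 21) : (codes v).getD a.val 0 = code (v a) := by
  fin_cases a <;> rfl

/-- A colouring is determined by its codes, up to conjugation. -/
theorem conj_of (v : Fin 21 → G) (L : ℕ → List (List ℕ)) (C : ℕ → List ℕ) (b : Fin 3 → Fin 21 → G)
    (hb : ∀ i : Fin 3, ∀ a : Fin 21, code (b i a) = (C i.val).getD a.val 0)
    (hlen : ∀ i : Fin 3, (C i.val).length = 21)
    (hchk : ((List.range 8).all fun t => (L t).all fun w => (List.range 3).any fun i =>
      (cen t).any fun c => eqL w ((C i).map fun x => cjN x c)) = true)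
    (t : ℕ) (ht : t < 8) (hv : codes v ∈ L t) :
    ∃ (i : Fin 3) (g : G), ∀ a, v a = g⁻¹ * b i a * g := by
  have h1 := List.all_eq_true.1 (List.all_eq_true.1 hchk t (List.mem_range.2 ht)) _ hv
  obtain ⟨i, hi, h2⟩ := List.any_eq_true.1 h1
  obtain ⟨c, hc, h3⟩ := List.any_eq_true.1 h2
  have h4 := eqL_eq h3
  have hcc : code (toG c) = c := Nat.eq_of_beq_eq_true
    (List.all_eq_true.1 (List.all_eq_true.1 cen_G t (List.mem_range.2 ht)) c hc)
  refine ⟨⟨i, List.mem_range.1 hi⟩, toG c, fun a => code_inj ?_⟩
  rw [code_cj, hcc, hb, ← codes_getD, h4]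
  have hl : a.val < (C i).length := by
    rw [hlen ⟨i, List.mem_range.1 hi⟩]; exact a.isLt
  simp only [List.getD_eq_getElem?_getD, List.getElem?_map, List.getElem?_eq_getElem hl,
    Option.map_some, Option.getD_some]

theorem main_of (v : Fin 21 → G) (hv : pattern.IsCol v) (hsq : v 0 * v 0 ≠ 1)
    (hE : pattern.lonVal v patternE = 1 → v 19 = 1) :
    (v 0 * v 0 * pattern.lonVal v patternK = 1 →
      ∃ (i : Fin 3) (g : G), ∀ a, v a = g⁻¹ * bP i a * g) ∧
    (pattern.lonVal v patternK = v 0 * v 0 →
      ∃ (i : Fin 3) (g : G), ∀ a, v a = g⁻¹ * bM i a * g) := by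
  have ht0 : tr (v 0) ≠ 0 := fun h0 => hsq (sq_of_tr h0)
  obtain ⟨W, hW, eW⟩ := exists_w ht0
  let φ : G →* G := (MulAut.conj W).toMonoidHom
  have hφ : ∀ g, φ g = W * g * W⁻¹ := fun g => by simp [φ]
  have hφinj : Function.Injective φ := (MulAut.conj W).injective
  let u : Fin 21 → G := fun a => φ (v a)
  have hu : pattern.IsCol u := Diagram.IsCol.map pattern hv φ
  have hEu : pattern.lonVal u patternE = 1 → u 19 = 1 := by
    intro h2
    have h3 : pattern.lonVal u patternE = φ (pattern.lonVal v patternE) :=
      Diagram.lonVal_map pattern v φ patternE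
    rw [h3] at h2
    have h4 : pattern.lonVal v patternE = 1 := hφinj (by rw [h2, map_one])
    change φ (v 19) = 1
    rw [hE h4, map_one]
  have hK : pattern.lonVal u patternK = φ (pattern.lonVal v patternK) :=
    Diagram.lonVal_map pattern v φ patternK
  have hu0 : u 0 = comp ⟨tr (v 0), tr_lt _⟩ := by
    change φ (v 0) = _
    rw [hφ, eW]; group
  obtain ⟨h1, h2⟩ := find u hu hEu ⟨tr (v 0), tr_lt _⟩ ht0 hu0
  have back : ∀ (b : Fin 3 → Fin 21 → G),
      (∃ (i : Fin 3) (g : G), ∀ a, u a = g⁻¹ * b i a * g) →
      ∃ (i : Fin 3) (g : G), ∀ a, v a = g⁻¹ * b i a * g := by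
    rintro b ⟨i, g, hg⟩
    refine ⟨i, g * W, fun a => ?_⟩
    have h3 : W * v a * W⁻¹ = g⁻¹ * b i a * g := by rw [← hφ]; exact hg a
    calc v a = W⁻¹ * (W * v a * W⁻¹) * W := by group
      _ = W⁻¹ * (g⁻¹ * b i a * g) * W := by rw [h3]
      _ = (g * W)⁻¹ * b i a * (g * W) := by group
  constructor
  · intro hl
    refine back _ (conj_of u lP cP bP code_bP len_cP conjP _ (tr_lt (v 0)) (h1 ?_))
    rw [hK]
    change φ (v 0) * φ (v 0) * _ = 1
    rw [← map_mul, ← map_mul, hl, map_one]
  · intro hl
    refine back _ (conj_of u lM cM bM code_bM len_cM conjM _ (tr_lt (v 0)) (h2 ?_))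
    rw [hK, hl]
    change φ (v 0) * φ (v 0) = _
    rw [map_mul]

theorem bP_rel : ∀ i : Fin 3, PatRelA (bP i) := by
  intro i
  constructor
  · exact code_inj (by rw [code_cj]; revert i; decide +kernel)
  · exact code_inj (by rw [code_cj]; revert i; decide +kernel)
  · exact code_inj (by rw [code_cj]; revert i; decide +kernel)
  · exact code_inj (by rw [code_cj]; revert i; decide +kernel)
  · exact code_inj (by rw [code_cj]; revert i; decide +kernel)
  · exact code_inj (by rw [code_cj]; revert i; decide +kernel)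
  · exact code_inj (by rw [code_cj]; revert i; decide +kernel)
  · exact code_inj (by rw [code_cj]; revert i; decide +kernel)
  · exact code_inj (by rw [code_cj]; revert i; decide +kernel)
  · exact code_inj (by rw [code_cj]; revert i; decide +kernel)
  · exact code_inj (by rw [code_cj]; revert i; decide +kernel)
  · exact code_inj (by rw [code_cj]; revert i; decide +kernel)
  · exact code_inj (by rw [code_cj]; revert i; decide +kernel)
  · exact code_inj (by rw [code_cj]; revert i; decide +kernel)
  · exact code_inj (by rw [code_cj]; revert i; decide +kernel)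
  · exact code_inj (by rw [code_cj]; revert i; decide +kernel)
  · exact code_inj (by rw [code_cj]; revert i; decide +kernel)
  · exact code_inj (by rw [code_cj]; revert i; decide +kernel)
  · exact code_inj (by rw [code_cj]; revert i; decide +kernel)
  · exact code_inj (by rw [code_cj]; revert i; decide +kernel)
  · exact code_inj (by rw [code_cj]; revert i; decide +kernel)

theorem bP_isCol (i : Fin 3) : pattern.IsCol (bP i) := isCol_of_patRelA _ (bP_rel i)

theorem bP_sq (i : Fin 3) : bP i 0 * bP i 0 ≠ 1 := by
  intro h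
  have := congrArg code h
  rw [code_mul, code_one] at this
  revert this i
  decide +kernel

theorem bP_K (i : Fin 3) : bP i 0 * bP i 0 * pattern.lonVal (bP i) patternK = 1 := by
  rw [lonValA_K]
  apply code_inj
  unfold lamA
  simp only [code_mul, code_inv, code_one]
  revert i
  decide +kernel

theorem bP_E (i : Fin 3) : bP i 19 = pattern.lonVal (bP i) patternE ^ (6 : ℕ) := by
  rw [lonValA_E]
  apply code_inj
  simp only [pow_succ, pow_zero, one_mul, code_mul, code_inv, code_one]
  revert i
  decide +kernel

theorem bP_seven (i : Fin 3) : pattern.lonVal (bP i) patternE ^ (7 : ℕ) = 1 := by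
  rw [lonValA_E]
  apply code_inj
  simp only [pow_succ, pow_zero, one_mul, code_mul, code_inv, code_one]
  revert i
  decide +kernel

theorem bP_ne (i : Fin 3) : pattern.lonVal (bP i) patternE ≠ 1 := by
  rw [lonValA_E]
  intro h
  have := congrArg code h
  rw [code_mul, code_inv, code_one] at this
  revert this i
  decide +kernel

theorem bP_tr : ∀ i : Fin 3, tr (bP i 0) = 2 * i.val + 3 := by
  decide +kernel

theorem bP_zero : ∀ i : Fin 3, code (bP i 0) = cd 0 1 1 (2 * i.val + 3) := by
  decide +kernel

theorem bP_freeN : ∀ i : Fin 3, ((cen (2 * i.val + 3)).all fun c =>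
    !(Nat.beq (mulN (code (bP i 3)) c) (mulN c (code (bP i 3)))) || Nat.beq c 513) = true := by
  decide +kernel

/-- Only the identity commutes with the whole colouring. -/
theorem bP_free (i : Fin 3) (g : G) (h : ∀ a, g⁻¹ * bP i a * g = bP i a) : g = 1 := by
  have h0 : bP i 0 * g = g * bP i 0 := by
    conv_rhs => rw [← h 0]
    group
  have h3 : bP i 3 * g = g * bP i 3 := by
    conv_rhs => rw [← h 3]
    group
  have hlt : 2 * i.val + 3 < 8 := by have := i.isLt; omega
  have e0 : bP i 0 = comp ⟨2 * i.val + 3, hlt⟩ := code_inj (by rw [code_comp]; exact bP_zero i)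
  rw [e0] at h0
  have h1 := mem_cen (t := ⟨2 * i.val + 3, hlt⟩) (by simp) h0
  have h2 := List.all_eq_true.1 (bP_freeN i) _ h1
  rw [← code_mul, ← code_mul, h3, Nat.beq_refl] at h2
  exact code_inj (by rw [code_one]; exact Nat.eq_of_beq_eq_true (by simpa using h2))

/-- Different colourings of the list are not conjugate. -/
theorem bP_inj (i j : Fin 3) (g : G) (h : ∀ a, bP j a = g⁻¹ * bP i a * g) : i = j := by
  have h1 := bP_tr j
  rw [h 0, tr_conj, bP_tr i] at h1
  exact Fin.ext (by omega)

theorem bM_rel : ∀ i : Fin 3, PatRelA (bM i) := by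
  intro i
  constructor
  · exact code_inj (by rw [code_cj]; revert i; decide +kernel)
  · exact code_inj (by rw [code_cj]; revert i; decide +kernel)
  · exact code_inj (by rw [code_cj]; revert i; decide +kernel)
  · exact code_inj (by rw [code_cj]; revert i; decide +kernel)
  · exact code_inj (by rw [code_cj]; revert i; decide +kernel)
  · exact code_inj (by rw [code_cj]; revert i; decide +kernel)
  · exact code_inj (by rw [code_cj]; revert i; decide +kernel)
  · exact code_inj (by rw [code_cj]; revert i; decide +kernel)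
  · exact code_inj (by rw [code_cj]; revert i; decide +kernel)
  · exact code_inj (by rw [code_cj]; revert i; decide +kernel)
  · exact code_inj (by rw [code_cj]; revert i; decide +kernel)
  · exact code_inj (by rw [code_cj]; revert i; decide +kernel)
  · exact code_inj (by rw [code_cj]; revert i; decide +kernel)
  · exact code_inj (by rw [code_cj]; revert i; decide +kernel)
  · exact code_inj (by rw [code_cj]; revert i; decide +kernel)
  · exact code_inj (by rw [code_cj]; revert i; decide +kernel)
  · exact code_inj (by rw [code_cj]; revert i; decide +kernel)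
  · exact code_inj (by rw [code_cj]; revert i; decide +kernel)
  · exact code_inj (by rw [code_cj]; revert i; decide +kernel)
  · exact code_inj (by rw [code_cj]; revert i; decide +kernel)
  · exact code_inj (by rw [code_cj]; revert i; decide +kernel)

theorem bM_isCol (i : Fin 3) : pattern.IsCol (bM i) := isCol_of_patRelA _ (bM_rel i)

theorem bM_sq (i : Fin 3) : bM i 0 * bM i 0 ≠ 1 := by
  intro h
  have := congrArg code h
  rw [code_mul, code_one] at this
  revert this i
  decide +kernel

theorem bM_K (i : Fin 3) : pattern.lonVal (bM i) patternK = bM i 0 * bM i 0 := by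
  rw [lonValA_K]
  apply code_inj
  unfold lamA
  simp only [code_mul, code_inv, code_one]
  revert i
  decide +kernel

theorem bM_E (i : Fin 3) : bM i 19 = pattern.lonVal (bM i) patternE ^ (3 : ℕ) := by
  rw [lonValA_E]
  apply code_inj
  simp only [pow_succ, pow_zero, one_mul, code_mul, code_inv, code_one]
  revert i
  decide +kernel

theorem bM_seven (i : Fin 3) : pattern.lonVal (bM i) patternE ^ (7 : ℕ) = 1 := by
  rw [lonValA_E]
  apply code_inj
  simp only [pow_succ, pow_zero, one_mul, code_mul, code_inv, code_one]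
  revert i
  decide +kernel

theorem bM_ne (i : Fin 3) : pattern.lonVal (bM i) patternE ≠ 1 := by
  rw [lonValA_E]
  intro h
  have := congrArg code h
  rw [code_mul, code_inv, code_one] at this
  revert this i
  decide +kernel

theorem bM_tr : ∀ i : Fin 3, tr (bM i 0) = 2 * i.val + 3 := by
  decide +kernel

theorem bM_zero : ∀ i : Fin 3, code (bM i 0) = cd 0 1 1 (2 * i.val + 3) := by
  decide +kernel

theorem bM_freeN : ∀ i : Fin 3, ((cen (2 * i.val + 3)).all fun c =>
    !(Nat.beq (mulN (code (bM i 3)) c) (mulN c (code (bM i 3)))) || Nat.beq c 513) = true := by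
  decide +kernel

/-- Only the identity commutes with the whole colouring. -/
theorem bM_free (i : Fin 3) (g : G) (h : ∀ a, g⁻¹ * bM i a * g = bM i a) : g = 1 := by
  have h0 : bM i 0 * g = g * bM i 0 := by
    conv_rhs => rw [← h 0]
    group
  have h3 : bM i 3 * g = g * bM i 3 := by
    conv_rhs => rw [← h 3]
    group
  have hlt : 2 * i.val + 3 < 8 := by have := i.isLt; omega
  have e0 : bM i 0 = comp ⟨2 * i.val + 3, hlt⟩ := code_inj (by rw [code_comp]; exact bM_zero i)
  rw [e0] at h0
  have h1 := mem_cen (t := ⟨2 * i.val + 3, hlt⟩) (by simp) h0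
  have h2 := List.all_eq_true.1 (bM_freeN i) _ h1
  rw [← code_mul, ← code_mul, h3, Nat.beq_refl] at h2
  exact code_inj (by rw [code_one]; exact Nat.eq_of_beq_eq_true (by simpa using h2))

/-- Different colourings of the list are not conjugate. -/
theorem bM_inj (i j : Fin 3) (g : G) (h : ∀ a, bM j a = g⁻¹ * bM i a * g) : i = j := by
  have h1 := bM_tr j
  rw [h 0, tr_conj, bM_tr i] at h1
  exact Fin.ext (by omega)

end Vale.Agent.P258.Second.H747A
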