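import Vale.Agent.P258.R2.H747.G7S
import Vale.Agent.P258.R2.H747.GenA
import Vale.Agent.P258.R2.H35.Graded

set_option linter.all false

/-!
The first pattern, `PGL(2, 7)` with the sign of the determinant, slopes `2` and `-2`.
-/

namespace Vale.Agent.P258.R2.H747.G7

open Vale.Agent.P258
open Vale.Agent.P258.Second.H747A (PatRelA patRelA_of_isCol isCol_of_patRelA lamA lonValA_K
  lonValA_E)

theorem eqL_eq : ∀ {l m : List ℕ}, eqL l m = true → l = m
  | [], [], _ => rfl
  | a :: l, b :: m, h => by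
    unfold eqL at h
    rw [Bool.and_eq_true] at h
    rw [Nat.eq_of_beq_eq_true h.1, eqL_eq h.2]
  | [], _ :: _, h => by simp [eqL] at h
  | _ :: _, [], h => by simp [eqL] at h

theorem inL_mem {L : List (List ℕ)} {l : List ℕ} (h : inL L l = true) : l ∈ L := by
  obtain ⟨m, hm, h1⟩ := List.any_eq_true.1 h
  rw [← eqL_eq h1]
  exact hm

theorem fwd {a b k : P7} (h : b = k⁻¹ * a * k) : code b = cjN (code a) (code k) := by
  rw [h, code_cj]

theorem bwd {a b k : P7} (h : b = k⁻¹ * a * k) : code a = ciN (code b) (code k) := by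
  have : a = k * b * k⁻¹ := by rw [h]; group
  rw [this, code_ci]

theorem all_step {l : List ℕ} {x : ℕ} {p : ℕ → Bool} (h : l.all p = true) (hx : x ∈ l) :
    p x = true := List.all_eq_true.1 h x hx

/-- The codes of a colouring. -/
def codes (v : Fin 21 → P7) : List ℕ :=
  [code (v 0), code (v 1), code (v 2), code (v 3), code (v 4), code (v 5), code (v 6), code (v 7), code (v 8), code (v 9), code (v 10), code (v 11), code (v 12), code (v 13), code (v 14), code (v 15), code (v 16), code (v 17), code (v 18), code (v 19), code (v 20)]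

theorem soundA (v : Fin 21 → P7) (h : PatRelA v) (hE : (v 6)⁻¹ * v 10 = 1 → v 19 = 1) (t : ℕ)
    (h3 : code (v 3) ∈ cl t) (h12 : code (v 12) ∈ cl t)
    (h8 : Nat.add (code (v 1)) (Nat.mul 4096 (code (v 8))) ∈ tb t)
    (hd : s0 t (cl t) (tb t) (code (v 0)) = true) :
    (v 0 * v 0 * lamA v = 1 → codes v ∈ lP t) ∧ (v 0 * v 0 = lamA v → codes v ∈ lM t) := by
  have hlt := code_lt (v 1)
  have e1 : Nat.mod (Nat.add (code (v 1)) (Nat.mul 4096 (code (v 8)))) 4096 = code (v 1) := by
    change (code (v 1) + 4096 * code (v 8)) % 4096 = code (v 1)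
    omega
  have e8 : Nat.div (Nat.add (code (v 1)) (Nat.mul 4096 (code (v 8)))) 4096 = code (v 8) := by
    change (code (v 1) + 4096 * code (v 8)) / 4096 = code (v 8)
    omega
  unfold s0 at hd
  replace hd := all_step hd h3
  unfold s1 at hd
  replace hd := all_step hd h12
  unfold s2 at hd
  rw [force_eq, ← fwd h.f18] at hd
  unfold s3 at hd
  rw [force_eq, ← fwd h.f17] at hd
  unfold s4 at hd
  rw [force_eq, ← bwd h.f12] at hd
  unfold s5 at hd
  rw [force_eq, ← fwd h.f13] at hd
  unfold s6 at hd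
  rw [force_eq, ← bwd h.f2] at hd
  unfold s7 at hd
  rw [force_eq, ← fwd h.f1] at hd
  unfold s8 at hd
  replace hd := all_step hd h8
  simp only [e1, e8, force_eq, Nat.beq_refl, Bool.not_true, Bool.false_or] at hd
  unfold s9 at hd
  rw [force_eq, ← bwd h.f8] at hd
  unfold s10 at hd
  rw [force_eq, ← fwd h.f9] at hd
  unfold s11 at hd
  rw [force_eq, ← bwd h.f14] at hd
  unfold s12 at hd
  rw [force_eq, ← fwd h.f11] at hd
  unfold s13 at hd
  rw [force_eq, ← fwd h.f16] at hd
  unfold s14 at hd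
  replace hd := test_step hd (fwd h.f15)
  unfold s15 at hd
  rw [force_eq, ← bwd h.f3] at hd
  unfold s16 at hd
  rw [force_eq, ← bwd h.f7] at hd
  unfold s17 at hd
  rw [force_eq, ← fwd h.f6] at hd
  unfold s18 at hd
  rw [force_eq, ← fwd h.f4] at hd
  unfold s19 at hd
  replace hd := all_step hd (mem_allc (v 19))
  unfold s20 at hd
  replace hd := test_step hd (fwd h.f10)
  unfold s21 at hd
  rw [force_eq, ← bwd h.f20] at hd
  unfold s22 at hd
  replace hd := test_step hd (fwd h.f19)
  unfold s23 at hd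
  replace hd := test_step hd (fwd h.f5)
  unfold s24 at hd
  rw [force_eq] at hd
  rw [Bool.or_eq_true] at hd
  rcases hd with hd | hd
  · rw [Bool.and_eq_true] at hd
    have h1 : (v 6)⁻¹ * v 10 = 1 := code_inj (by
      rw [code_mul, code_inv, code_one]; exact Nat.eq_of_beq_eq_true hd.1)
    have h2 := hd.2
    rw [hE h1, code_one] at h2
    exact absurd h2 (by decide)
  · have hl : code (lamA v) = 
        (mulN (mulN (mulN (mulN (mulN (mulN (mulN (mulN (mulN (mulN (mulN (mulN (mulN (mulN
        (mulN (mulN (mulN (mulN (mulN (code (v 8)) (invN (code (v 17)))) (code (v 14))) (invN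
        (code (v 1)))) (code (v 15))) (invN (code (v 20)))) (invN (code (v 15)))) (code (v 1)))
        (invN (code (v 14)))) (code (v 17))) (code (v 19))) (invN (code (v 8)))) (invN (code (v
        18)))) (code (v 3))) (invN (code (v 10)))) (code (v 11))) (invN (code (v 14)))) (invN
        (code (v 3)))) (invN (code (v 12)))) (mulN (code (v 0)) (mulN (code (v 0)) (code (v
        0))))) := by
      unfold lamA
      simp only [code_mul, code_inv]
    rw [← hl, ← code_mul, ← code_mul, Bool.and_eq_true] at hd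
    constructor
    · intro h1
      have h2 := hd.1
      rw [Bool.or_eq_true] at h2
      rcases h2 with h2 | h2
      · rw [h1, code_one] at h2
        exact absurd h2 (by decide)
      · exact inL_mem h2
    · intro h1
      have h2 := hd.2
      rw [Bool.or_eq_true] at h2
      rcases h2 with h2 | h2
      · rw [h1, Nat.beq_refl] at h2
        exact absurd h2 (by decide)
      · exact inL_mem h2

theorem conj_same (D : Diagram) (ρ : Fin D.n → P7) (h : D.IsCol ρ) {a b : Fin D.n}
    (hab : D.SameComponent a b) : ∃ k : P7, ρ b = k⁻¹ * ρ a * k := by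
  obtain ⟨i, rfl⟩ := hab
  induction i with
  | zero => exact ⟨1, by simp⟩
  | succ i ih =>
    obtain ⟨k, hk⟩ := ih
    refine ⟨k * ρ (D.above (D.next^[i] a)) ^ ((D.sgn (D.next^[i] a) : ℤˣ) : ℤ), ?_⟩
    rw [Function.iterate_succ_apply', h (D.next^[i] a), hk, zpow_neg]
    group

/-- A colouring with `x_0` a representative: it is in one of the lists. -/
theorem find (v : Fin 21 → P7) (hv : pattern.IsCol v)
    (hE : pattern.lonVal v patternE = 1 → v 19 = 1) (t : ℕ) (ht : t ∈ List.range 3)
    (h0 : code (v 0) = rep t) :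
    (v 0 * v 0 * pattern.lonVal v patternK = 1 → codes v ∈ lP t) ∧
      (v 0 * v 0 = pattern.lonVal v patternK → codes v ∈ lM t) := by
  have hP : PatRelA v := patRelA_of_isCol v hv
  have hmem : ∀ b : Fin 21, b.val < 19 → code (v b) ∈ cl t := fun b hb => by
    obtain ⟨k, hk⟩ := conj_same pattern v hv ((comp_K b).2 hb)
    have hk' : v b = k⁻¹ * v 0 * k := hk
    rw [hk']
    exact mem_cl ht h0 k
  rw [lonValA_K]
  rw [lonValA_E] at hE
  refine soundA v hP hE t (hmem 3 (by decide)) (hmem 12 (by decide)) ?_ ?_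
  · have := mem_tb ht h0 (hmem 8 (by decide))
    rwa [← hP.f0] at this
  · rw [h0]; exact chk t ht

/-- The colouring with given codes. -/
def ofCodes (l : List ℕ) (a : Fin 21) : P7 := toG (l.getD a.val 0)

/-- A colouring of slope `2`. -/
def bP : Fin 21 → P7 := ofCodes cP

/-- A colouring of slope `-2`. -/
def bM : Fin 21 → P7 := ofCodes cM

theorem code_bP : ∀ a : Fin 21, code (bP a) = cP.getD a.val 0 := by
  decide +kernel

theorem code_bM : ∀ a : Fin 21, code (bM a) = cM.getD a.val 0 := by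
  decide +kernel

theorem codes_getD (v : Fin 21 → P7) (a : Fin 21) : (codes v).getD a.val 0 = code (v a) := by
  fin_cases a <;> rfl

/-- A colouring is determined by its codes, up to conjugation. -/
theorem conj_of (v : Fin 21 → P7) (L : ℕ → List (List ℕ)) (C : List ℕ) (b : Fin 21 → P7)
    (hb : ∀ a : Fin 21, code (b a) = C.getD a.val 0) (hlen : C.length = 21)
    (hchk : ((List.range 3).all fun t => (L t).all fun w =>
      allc.any fun c => Nat.beq (w.headD 0) (cjN (C.headD 0) c) &&
        eqL w (C.map fun x => cjN x c)) = true)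
    (t : ℕ) (ht : t ∈ List.range 3) (hv : codes v ∈ L t) :
    ∃ g : P7, ∀ a, v a = g⁻¹ * b a * g := by
  have h1 := List.all_eq_true.1 (List.all_eq_true.1 hchk t ht) _ hv
  obtain ⟨c, hc, h3⟩ := List.any_eq_true.1 h1
  rw [Bool.and_eq_true] at h3
  have h4 := eqL_eq h3.2
  refine ⟨toG c, fun a => code_inj ?_⟩
  rw [code_cj, code_toG hc, hb, ← codes_getD, h4]
  have hl : a.val < C.length := by rw [hlen]; exact a.isLt
  simp only [List.getD_eq_getElem?_getD, List.getElem?_map, List.getElem?_eq_getElem hl,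
    Option.map_some, Option.getD_some]

theorem main_of (v : Fin 21 → P7) (hv : pattern.IsCol v) (he : eps (v 0) ≠ 1)
    (h4 : (v 0 * v 0) * (v 0 * v 0) ≠ 1)
    (hE : pattern.lonVal v patternE = 1 → v 19 = 1) :
    (v 0 * v 0 * pattern.lonVal v patternK = 1 → ∃ g : P7, ∀ a, v a = g⁻¹ * bP a * g) ∧
    (pattern.lonVal v patternK = v 0 * v 0 → ∃ g : P7, ∀ a, v a = g⁻¹ * bM a * g) := by
  obtain ⟨t, ht, W, hW⟩ := exists_rep he h4
  let φ : P7 →* P7 := (MulAut.conj W).toMonoidHom
  have hφ : ∀ g, φ g = W * g * W⁻¹ := fun g => by simp [φ]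
  have hφinj : Function.Injective φ := (MulAut.conj W).injective
  let u : Fin 21 → P7 := fun a => φ (v a)
  have hu : pattern.IsCol u := Diagram.IsCol.map pattern hv φ
  have hEu : pattern.lonVal u patternE = 1 → u 19 = 1 := by
    intro h2
    have h3 : pattern.lonVal u patternE = φ (pattern.lonVal v patternE) :=
      Diagram.lonVal_map pattern v φ patternE
    rw [h3] at h2
    have h4 : pattern.lonVal v patternE = 1 := hφinj (by rw [h2, map_one])
    change φ (v 19) = 1
    rw [hE h4, map_one]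
  have hK : pattern.lonVal u patternK = φ (pattern.lonVal v patternK) :=
    Diagram.lonVal_map pattern v φ patternK
  have hu0 : code (u 0) = rep t := by
    change code (φ (v 0)) = _
    rw [hφ]; exact hW
  obtain ⟨h1, h2⟩ := find u hu hEu t ht hu0
  have back : ∀ (b : Fin 21 → P7), (∃ g : P7, ∀ a, u a = g⁻¹ * b a * g) →
      ∃ g : P7, ∀ a, v a = g⁻¹ * b a * g := by
    rintro b ⟨g, hg⟩
    refine ⟨g * W, fun a => ?_⟩
    have h3 : W * v a * W⁻¹ = g⁻¹ * b a * g := by rw [← hφ]; exact hg a
    calc v a = W⁻¹ * (W * v a * W⁻¹) * W := by group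
      _ = W⁻¹ * (g⁻¹ * b a * g) * W := by rw [h3]
      _ = (g * W)⁻¹ * b a * (g * W) := by group
  constructor
  · intro hl
    refine back _ (conj_of u lP cP bP code_bP (by decide) conjP _ ht (h1 ?_))
    rw [hK]
    change φ (v 0) * φ (v 0) * _ = 1
    rw [← map_mul, ← map_mul, hl, map_one]
  · intro hl
    refine back _ (conj_of u lM cM bM code_bM (by decide) conjM _ ht (h2 ?_))
    rw [hK, hl]
    change φ (v 0) * φ (v 0) = _
    rw [map_mul]

/-- The data of a colouring. -/
structure One (b : Fin 21 → P7) (m : ℕ) : Prop where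
  col : pattern.IsCol b
  sgn : sqN (code (b 0)) = false
  four : (b 0 * b 0) * (b 0 * b 0) ≠ 1
  E : b 19 = pattern.lonVal b patternE ^ m
  seven : pattern.lonVal b patternE ^ (7 : ℕ) = 1
  ne : pattern.lonVal b patternE ≠ 1
  free : ∀ g, (∀ a, g⁻¹ * b a * g = b a) → g = 1

theorem bP_rel : PatRelA bP := by
  constructor
  · exact code_inj (by rw [code_cj]; decide +kernel)
  · exact code_inj (by rw [code_cj]; decide +kernel)
  · exact code_inj (by rw [code_cj]; decide +kernel)
  · exact code_inj (by rw [code_cj]; decide +kernel)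
  · exact code_inj (by rw [code_cj]; decide +kernel)
  · exact code_inj (by rw [code_cj]; decide +kernel)
  · exact code_inj (by rw [code_cj]; decide +kernel)
  · exact code_inj (by rw [code_cj]; decide +kernel)
  · exact code_inj (by rw [code_cj]; decide +kernel)
  · exact code_inj (by rw [code_cj]; decide +kernel)
  · exact code_inj (by rw [code_cj]; decide +kernel)
  · exact code_inj (by rw [code_cj]; decide +kernel)
  · exact code_inj (by rw [code_cj]; decide +kernel)
  · exact code_inj (by rw [code_cj]; decide +kernel)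
  · exact code_inj (by rw [code_cj]; decide +kernel)
  · exact code_inj (by rw [code_cj]; decide +kernel)
  · exact code_inj (by rw [code_cj]; decide +kernel)
  · exact code_inj (by rw [code_cj]; decide +kernel)
  · exact code_inj (by rw [code_cj]; decide +kernel)
  · exact code_inj (by rw [code_cj]; decide +kernel)
  · exact code_inj (by rw [code_cj]; decide +kernel)

theorem bP_free (g : P7) (h : ∀ a, g⁻¹ * bP a * g = bP a) : g = 1 := by
  have hc : (allc.all fun c => !(Nat.beq (cjN (code (bP 0)) c) (code (bP 0)) &&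
      Nat.beq (cjN (code (bP 3)) c) (code (bP 3))) || Nat.beq c 513) = true := by
    decide +kernel
  have h1 := List.all_eq_true.1 hc _ (mem_allc g)
  rw [← code_cj, ← code_cj, h 0, h 3, Nat.beq_refl, Nat.beq_refl] at h1
  exact code_inj (by rw [code_one]; exact Nat.eq_of_beq_eq_true (by simpa using h1))

theorem oneP : One bP 3 where
  col := isCol_of_patRelA _ bP_rel
  sgn := by decide +kernel
  four := by
    intro h
    have := congrArg code h
    rw [code_mul, code_mul, code_one] at this
    revert this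
    decide +kernel
  E := by
    rw [lonValA_E]
    apply code_inj
    simp only [pow_succ, pow_zero, one_mul, code_mul, code_inv, code_one]
    decide +kernel
  seven := by
    rw [lonValA_E]
    apply code_inj
    simp only [pow_succ, pow_zero, one_mul, code_mul, code_inv, code_one]
    decide +kernel
  ne := by
    rw [lonValA_E]
    intro h
    have := congrArg code h
    rw [code_mul, code_inv, code_one] at this
    revert this
    decide +kernel
  free := bP_free

theorem bM_rel : PatRelA bM := by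
  constructor
  · exact code_inj (by rw [code_cj]; decide +kernel)
  · exact code_inj (by rw [code_cj]; decide +kernel)
  · exact code_inj (by rw [code_cj]; decide +kernel)
  · exact code_inj (by rw [code_cj]; decide +kernel)
  · exact code_inj (by rw [code_cj]; decide +kernel)
  · exact code_inj (by rw [code_cj]; decide +kernel)
  · exact code_inj (by rw [code_cj]; decide +kernel)
  · exact code_inj (by rw [code_cj]; decide +kernel)
  · exact code_inj (by rw [code_cj]; decide +kernel)
  · exact code_inj (by rw [code_cj]; decide +kernel)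
  · exact code_inj (by rw [code_cj]; decide +kernel)
  · exact code_inj (by rw [code_cj]; decide +kernel)
  · exact code_inj (by rw [code_cj]; decide +kernel)
  · exact code_inj (by rw [code_cj]; decide +kernel)
  · exact code_inj (by rw [code_cj]; decide +kernel)
  · exact code_inj (by rw [code_cj]; decide +kernel)
  · exact code_inj (by rw [code_cj]; decide +kernel)
  · exact code_inj (by rw [code_cj]; decide +kernel)
  · exact code_inj (by rw [code_cj]; decide +kernel)
  · exact code_inj (by rw [code_cj]; decide +kernel)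
  · exact code_inj (by rw [code_cj]; decide +kernel)

theorem bM_free (g : P7) (h : ∀ a, g⁻¹ * bM a * g = bM a) : g = 1 := by
  have hc : (allc.all fun c => !(Nat.beq (cjN (code (bM 0)) c) (code (bM 0)) &&
      Nat.beq (cjN (code (bM 3)) c) (code (bM 3))) || Nat.beq c 513) = true := by
    decide +kernel
  have h1 := List.all_eq_true.1 hc _ (mem_allc g)
  rw [← code_cj, ← code_cj, h 0, h 3, Nat.beq_refl, Nat.beq_refl] at h1
  exact code_inj (by rw [code_one]; exact Nat.eq_of_beq_eq_true (by simpa using h1))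

theorem oneM : One bM 4 where
  col := isCol_of_patRelA _ bM_rel
  sgn := by decide +kernel
  four := by
    intro h
    have := congrArg code h
    rw [code_mul, code_mul, code_one] at this
    revert this
    decide +kernel
  E := by
    rw [lonValA_E]
    apply code_inj
    simp only [pow_succ, pow_zero, one_mul, code_mul, code_inv, code_one]
    decide +kernel
  seven := by
    rw [lonValA_E]
    apply code_inj
    simp only [pow_succ, pow_zero, one_mul, code_mul, code_inv, code_one]
    decide +kernel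
  ne := by
    rw [lonValA_E]
    intro h
    have := congrArg code h
    rw [code_mul, code_inv, code_one] at this
    revert this
    decide +kernel
  free := bM_free

theorem bP_K : bP 0 * bP 0 * pattern.lonVal bP patternK = 1 := by
  rw [lonValA_K]
  apply code_inj
  unfold lamA
  simp only [code_mul, code_inv, code_one]
  decide +kernel

theorem bM_K : pattern.lonVal bM patternK = bM 0 * bM 0 := by
  rw [lonValA_K]
  apply code_inj
  unfold lamA
  simp only [code_mul, code_inv, code_one]
  decide +kernel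

theorem sq_of_eps : ∀ a b c d : ZMod 7, (a * d - b * c) ^ 3 = 1 → a * d - b * c ≠ 0 →
    sqN (cd a.val b.val c.val d.val) = true := by
  decide +kernel

theorem eps_ne {g : P7} (h : sqN (code g) = false) : eps g ≠ 1 := by
  intro h1
  have h2 : (mat g.val).det ^ 3 = 1 := congrArg Units.val h1
  have hg := g.ok
  obtain ⟨a, b, c, d, h3⟩ := okd hg
  have h4 : code g = cd a.val b.val c.val d.val := h3
  rw [h3] at hg
  obtain ⟨-, ⟨d1, d2, d3, d4⟩, -, h5⟩ := fact4 a b c d hg
  have e : mat (cd a.val b.val c.val d.val) = !![a, b; c, d] := by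
    unfold mat
    rw [d1, d2, d3, d4, z7_val, z7_val, z7_val, z7_val]
  rw [h3, e, Matrix.det_fin_two_of] at h2
  rw [h4, sq_of_eps a b c d h2 h5] at h
  exact absurd h (by decide)

/-- Conjugation. -/
def cjm (g : P7) : P7 →* P7 := (MulAut.conj g⁻¹).toMonoidHom

theorem cjm_apply (g x : P7) : cjm g x = g⁻¹ * x * g := by
  simp [cjm]

theorem eps_conj (g x : P7) : eps (g⁻¹ * x * g) = eps x := by
  rw [map_mul, map_mul, map_inv, mul_comm (eps g)⁻¹, mul_assoc, inv_mul_cancel, mul_one]

theorem conj_facts {b : Fin 21 → P7} {m : ℕ} (hb : One b m) (g : P7)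
    (v : Fin 21 → P7) (hv : ∀ a, v a = g⁻¹ * b a * g) :
    pattern.IsCol v ∧ (v 0 * v 0) * (v 0 * v 0) ≠ 1 ∧ v 19 = pattern.lonVal v patternE ^ m ∧
      pattern.lonVal v patternE ^ (7 : ℕ) = 1 ∧ pattern.lonVal v patternE ≠ 1 ∧
      (∀ h : P7, (∀ a, h * v a * h⁻¹ = v a) → h = 1) ∧
      pattern.lonVal v patternK = g⁻¹ * pattern.lonVal b patternK * g ∧ eps (v 0) ≠ 1 := by
  have e : v = fun a => cjm g (b a) := by
    funext a
    rw [cjm_apply]
    exact hv a
  have hinj : Function.Injective (cjm g) := (MulAut.conj g⁻¹).injective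
  have hE : pattern.lonVal v patternE = cjm g (pattern.lonVal b patternE) := by
    rw [e]; exact Diagram.lonVal_map pattern b (cjm g) patternE
  have hK : pattern.lonVal v patternK = cjm g (pattern.lonVal b patternK) := by
    rw [e]; exact Diagram.lonVal_map pattern b (cjm g) patternK
  refine ⟨?_, ?_, ?_, ?_, ?_, ?_, ?_, ?_⟩
  · rw [e]; exact Diagram.IsCol.map pattern hb.col (cjm g)
  · intro h
    apply hb.four
    apply hinj
    rw [map_mul, map_mul, map_one, cjm_apply, ← hv 0]
    exact h
  · rw [hE, ← map_pow, ← hb.E, cjm_apply]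
    exact hv 19
  · rw [hE, ← map_pow, hb.seven, map_one]
  · rw [hE]
    intro h
    exact hb.ne (hinj (by rw [h, map_one]))
  · intro h hh
    have h1 : (g * h⁻¹ * g⁻¹) = 1 := by
      apply hb.free
      intro a
      have h2 := hh a
      rw [hv a] at h2
      calc (g * h⁻¹ * g⁻¹)⁻¹ * b a * (g * h⁻¹ * g⁻¹)
          = g * (h * (g⁻¹ * b a * g) * h⁻¹) * g⁻¹ := by group
        _ = b a := by rw [h2]; group
    have h3 : h = g⁻¹ * (g * h⁻¹ * g⁻¹)⁻¹ * g := by group
    rw [h3, h1]
    group
  · rw [hK, cjm_apply]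
  · rw [hv 0, eps_conj]
    exact eps_ne hb.sgn

theorem four_of {x : P7} (h : x ^ ((2 : ℤ) - (-2)) ≠ 1) : (x * x) * (x * x) ≠ 1 := by
  have e : (2 : ℤ) - (-2) = 2 + 2 := by norm_num
  rw [e, zpow_add, zpow_two] at h
  exact h

theorem of_four {x : P7} (h : (x * x) * (x * x) ≠ 1) : x ^ ((2 : ℤ) - (-2)) ≠ 1 := by
  have e : (2 : ℤ) - (-2) = 2 + 2 := by norm_num
  rw [e, zpow_add, zpow_two]
  exact h

theorem allP (v : Fin 21 → P7) (h1 : pattern.IsCol v) (h0 : eps (v 0) ≠ 1)
    (h2 : (v 0 * v 0) * (v 0 * v 0) ≠ 1)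
    (h3 : pattern.lonVal v patternE = 1 → v 19 = 1)
    (h4 : v 0 ^ (2 : ℤ) * pattern.lonVal v patternK = 1) :
    ∃ g : P7, ∀ a, v a = g⁻¹ * bP a * g :=
  (main_of v h1 h0 h2 h3).1 (by rw [← zpow_two]; exact h4)

theorem allM (v : Fin 21 → P7) (h1 : pattern.IsCol v) (h0 : eps (v 0) ≠ 1)
    (h2 : (v 0 * v 0) * (v 0 * v 0) ≠ 1)
    (h3 : pattern.lonVal v patternE = 1 → v 19 = 1)
    (h4 : v 0 ^ (-2 : ℤ) * pattern.lonVal v patternK = 1) :
    ∃ g : P7, ∀ a, v a = g⁻¹ * bM a * g :=
  (main_of v h1 h0 h2 h3).2 (by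
    have h5 : pattern.lonVal v patternK = (v 0 ^ (-2 : ℤ))⁻¹ :=
      (inv_eq_of_mul_eq_one_right h4).symm
    rw [h5, ← zpow_neg, neg_neg, zpow_two])

theorem hT' (v : Fin 21 → P7) (hv : pattern.IsCol v) (h0 : eps (v 0) ≠ 1)
    (hs : v 0 ^ (2 : ℤ) * pattern.lonVal v patternK = 1 ∨
      v 0 ^ (-2 : ℤ) * pattern.lonVal v patternK = 1)
    (hne : v 0 ^ ((2 : ℤ) - (-2)) ≠ 1) (hE : pattern.lonVal v patternE = 1 → v 19 = 1) :
    (∀ g : P7, (∀ a, g * v a * g⁻¹ = v a) → g = 1) ∧
      pattern.lonVal v patternE ^ (7 : ℕ) = 1 := by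
  rcases hs with hs | hs
  · obtain ⟨g, hg⟩ := allP v hv h0 (four_of hne) hE hs
    obtain ⟨-, -, -, h4, -, h6, -, -⟩ := conj_facts oneP g v hg
    exact ⟨h6, h4⟩
  · obtain ⟨g, hg⟩ := allM v hv h0 (four_of hne) hE hs
    obtain ⟨-, -, -, h4, -, h6, -, -⟩ := conj_facts oneM g v hg
    exact ⟨h6, h4⟩

theorem card_one {b : Fin 21 → P7} {m : ℕ} (hb : One b m) (S : (Fin 21 → P7) → Prop)
    (h1 : ∀ g, S (fun a => g⁻¹ * b a * g))
    (h2 : ∀ v, S v → ∃ g : P7, ∀ a, v a = g⁻¹ * b a * g) :
    Nat.card {v : Fin 21 → P7 // S v} = Nat.card P7 := by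
  symm
  refine Nat.card_eq_of_bijective (fun x : P7 =>
    (⟨fun a => x⁻¹ * b a * x, h1 x⟩ : {v : Fin 21 → P7 // S v})) ⟨?_, ?_⟩
  · rintro g h hij
    have e : ∀ a, g⁻¹ * b a * g = h⁻¹ * b a * h := fun a =>
      congrFun (congrArg Subtype.val hij) a
    have e2 : g * h⁻¹ = 1 := by
      apply hb.free
      intro a
      calc (g * h⁻¹)⁻¹ * b a * (g * h⁻¹) = h * (g⁻¹ * b a * g) * h⁻¹ := by group
        _ = h * (h⁻¹ * b a * h) * h⁻¹ := by rw [e a]
        _ = b a := by group
    exact mul_inv_eq_one.1 e2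
  · rintro ⟨v, hv⟩
    obtain ⟨g, hg⟩ := h2 v hv
    exact ⟨g, Subtype.ext (funext fun a => (hg a).symm)⟩

theorem pow_eq_iff {x : P7} (h7 : x ^ (7 : ℕ) = 1) (hne : x ≠ 1) (m : ℕ) (f : ℤ) :
    x ^ m = x ^ f ↔ f % 7 = m % 7 := by
  have ho : orderOf x = 7 := by
    haveI : Fact (Nat.Prime 7) := ⟨by norm_num⟩
    exact orderOf_eq_prime h7 hne
  rw [← zpow_natCast, zpow_eq_zpow_iff_modEq, ho]
  constructor
  · intro h
    have h' : (m : ℤ) % 7 = f % 7 := h
    omega
  · intro h
    change (m : ℤ) % 7 = f % 7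
    omega

theorem card_yes {b : Fin 21 → P7} {m : ℕ} (hb : One b m) (f : ℤ) (s : ℤ)
    (hf : f % 7 = m % 7)
    (hs : b 0 ^ s * pattern.lonVal b patternK = 1)
    (hall : ∀ v : Fin 21 → P7, pattern.IsCol v → eps (v 0) ≠ 1 → (v 0 * v 0) * (v 0 * v 0) ≠ 1 →
      (pattern.lonVal v patternE = 1 → v 19 = 1) → v 0 ^ s * pattern.lonVal v patternK = 1 →
      ∃ g : P7, ∀ a, v a = g⁻¹ * b a * g) :
    Nat.card {v : Fin pattern.n → P7 // pattern.IsCol v ∧ eps (v patternK) ≠ 1 ∧
      v patternK ^ s * pattern.lonVal v patternK = 1 ∧ v patternK ^ ((2 : ℤ) - (-2)) ≠ 1 ∧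
      v patternE = pattern.lonVal v patternE ^ f} = Nat.card P7 := by
  refine card_one hb (fun v => pattern.IsCol v ∧ eps (v patternK) ≠ 1 ∧
      v patternK ^ s * pattern.lonVal v patternK = 1 ∧ v patternK ^ ((2 : ℤ) - (-2)) ≠ 1 ∧
      v patternE = pattern.lonVal v patternE ^ f) ?_ ?_
  · intro g
    obtain ⟨c1, c2, c3, c4, c5, -, c7, c8⟩ := conj_facts hb g (fun a => g⁻¹ * b a * g)
      (fun a => rfl)
    refine ⟨c1, c8, ?_, of_four c2, ?_⟩
    · rw [c7]
      change (g⁻¹ * b 0 * g) ^ s * _ = 1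
      have h1 : (g⁻¹ * b 0 * g) ^ s = g⁻¹ * b 0 ^ s * g := by
        have h2 := map_zpow (cjm g) (b 0) s
        rw [cjm_apply, cjm_apply] at h2
        exact h2.symm
      rw [h1]
      calc g⁻¹ * b 0 ^ s * g * (g⁻¹ * pattern.lonVal b patternK * g)
          = g⁻¹ * (b 0 ^ s * pattern.lonVal b patternK) * g := by group
        _ = 1 := by rw [hs]; group
    · exact c3.trans ((pow_eq_iff c4 c5 m f).2 hf)
  · rintro v ⟨c1, c0, c2, c3, c4⟩
    exact hall v c1 c0 (four_of c3) (fun h => by
      have h4 : v 19 = pattern.lonVal v patternE ^ f := c4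
      rw [h4, h, one_zpow]) c2

theorem card_no {b : Fin 21 → P7} {m : ℕ} (hb : One b m) (f : ℤ) (s : ℤ)
    (hf : ¬ f % 7 = m % 7)
    (hall : ∀ v : Fin 21 → P7, pattern.IsCol v → eps (v 0) ≠ 1 → (v 0 * v 0) * (v 0 * v 0) ≠ 1 →
      (pattern.lonVal v patternE = 1 → v 19 = 1) → v 0 ^ s * pattern.lonVal v patternK = 1 →
      ∃ g : P7, ∀ a, v a = g⁻¹ * b a * g) :
    Nat.card {v : Fin pattern.n → P7 // pattern.IsCol v ∧ eps (v patternK) ≠ 1 ∧
      v patternK ^ s * pattern.lonVal v patternK = 1 ∧ v patternK ^ ((2 : ℤ) - (-2)) ≠ 1 ∧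
      v patternE = pattern.lonVal v patternE ^ f} = 0 := by
  haveI : IsEmpty {v : Fin pattern.n → P7 // pattern.IsCol v ∧ eps (v patternK) ≠ 1 ∧
      v patternK ^ s * pattern.lonVal v patternK = 1 ∧ v patternK ^ ((2 : ℤ) - (-2)) ≠ 1 ∧
      v patternE = pattern.lonVal v patternE ^ f} := by
    constructor
    rintro ⟨v, c1, c0, c2, c3, c4⟩
    have h4 : ∀ u : Fin 21 → P7, u patternE = pattern.lonVal u patternE ^ f →
        u 19 = pattern.lonVal u patternE ^ f := fun u hu => hu
    have h4 := h4 v c4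
    obtain ⟨g, hg⟩ := hall v c1 c0 (four_of c3) (fun h => by rw [h4, h, one_zpow]) c2
    obtain ⟨-, -, d3, d4, d5, -, -, -⟩ := conj_facts hb g v hg
    exact hf ((pow_eq_iff d4 d5 m f).1 (d3.symm.trans h4))
  exact Nat.card_of_isEmpty

theorem hR (f : ℤ) (hf : f % 7 = 3 ∨ f % 7 = 4) :
    ¬ (((7 * Nat.card P7 : ℕ) : ℤ) ∣
      (Nat.card {v : Fin pattern.n → P7 // pattern.IsCol v ∧ eps (v patternK) ≠ 1 ∧
        v patternK ^ (2 : ℤ) * pattern.lonVal v patternK = 1 ∧
        v patternK ^ ((2 : ℤ) - (-2)) ≠ 1 ∧ v patternE = pattern.lonVal v patternE ^ f} : ℤ) -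
      (Nat.card {v : Fin pattern.n → P7 // pattern.IsCol v ∧ eps (v patternK) ≠ 1 ∧
        v patternK ^ (-2 : ℤ) * pattern.lonVal v patternK = 1 ∧
        v patternK ^ ((2 : ℤ) - (-2)) ≠ 1 ∧ v patternE = pattern.lonVal v patternE ^ f} : ℤ)) := by
  have hP : bP 0 ^ (2 : ℤ) * pattern.lonVal bP patternK = 1 := by
    rw [zpow_two]; exact bP_K
  have hM : bM 0 ^ (-2 : ℤ) * pattern.lonVal bM patternK = 1 := by
    rw [bM_K, zpow_neg, zpow_two]; group
  have hc : 0 < Nat.card P7 := Nat.card_pos
  rcases hf with hf | hf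
  · rw [card_yes oneP f 2 (by omega) hP allP, card_no oneM f (-2) (by omega) allM]
    rintro ⟨q, hq⟩
    push_cast at hq
    have h1 : (Nat.card P7 : ℤ) * (7 * q - 1) = 0 := by linarith
    rcases mul_eq_zero.1 h1 with h2 | h2
    · omega
    · omega
  · rw [card_no oneP f 2 (by omega) allP, card_yes oneM f (-2) (by omega) hM allM]
    rintro ⟨q, hq⟩
    push_cast at hq
    have h1 : (Nat.card P7 : ℤ) * (7 * q + 1) = 0 := by linarith
    rcases mul_eq_zero.1 h1 with h2 | h2
    · omega
    · omega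

theorem col_comm {A : Type} [CommGroup A] (D : Diagram) (χ : Fin D.n → A) (h : D.IsCol χ)
    {a b : Fin D.n} (hab : D.SameComponent a b) : χ b = χ a := by
  obtain ⟨i, rfl⟩ := hab
  induction i with
  | zero => rfl
  | succ i ih =>
    rw [Function.iterate_succ_apply', h (D.next^[i] a), ih, zpow_neg,
      mul_comm _ (χ a), mul_assoc, inv_mul_cancel, mul_one]

theorem hlk (v : Fin 21 → P7) (h : pattern.IsCol v) : eps (pattern.lonVal v patternE) = 1 := by
  have h1 : pattern.IsCol (fun a => eps (v a)) := Diagram.IsCol.map pattern h eps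
  have h6 : eps (v 6) = eps (v patternK) :=
    col_comm pattern (fun a => eps (v a)) h1 ((comp_K 6).2 (by decide))
  have h10 : eps (v 10) = eps (v patternK) :=
    col_comm pattern (fun a => eps (v a)) h1 ((comp_K 10).2 (by decide))
  rw [lonValA_E, map_mul, map_inv, h6, h10, inv_mul_cancel]

/-- **The first pattern, `f = 3` or `4` modulo `7`, every companion.** -/
theorem sat_four (J : Diagram) (hJ : J.IsKnot) (j : Fin J.n) (f : ℤ)
    (hf : f % 7 = 3 ∨ f % 7 = 4) :
    IsEmpty (PresentedGroup (satelliteRelators pattern J patternK patternE j f 2) ≃*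
      PresentedGroup (satelliteRelators pattern J patternK patternE j f (-2))) := by
  haveI : Fact (Nat.Prime 7) := ⟨by norm_num⟩
  refine H35.graded_main (G := P7) eps pattern J patternK patternE j f 2 (-2) 7 hJ ?_ ?_ ?_
    (hR f hf)
  · intro a
    rcases lt_or_ge a.val 19 with ha | ha
    · exact Or.inl ((comp_K a).2 ha)
    · exact Or.inr ((comp_E a).2 ha)
  · intro v hv _
    exact hlk v hv
  · intro v hv h0 hs hne hcen _
    refine hT' v hv h0 hs hne (fun h1 => ?_)
    have h2 : v patternE = pattern.lonVal v patternE ^ f :=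
      hcen (by rw [h1]; exact Subgroup.one_mem _)
    rw [h1, one_zpow] at h2
    exact h2

end Vale.Agent.P258.R2.H747.G7
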