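import Mathlib.LinearAlgebra.Matrix.SpecialLinearGroup
import Mathlib.LinearAlgebra.Matrix.Adjugate
import Mathlib.Algebra.Group.MinimalAxioms
import Mathlib.Tactic

set_option linter.all false

/-!
The group `PGL(2, 7)` as the set of normalized matrices, with a code for each element.
-/

namespace Vale.Agent.P258.R2.H747.G7

open Matrix

/-- The number with the octal digits `d, c, b, a`. -/
def cd (a b c d : ℕ) : ℕ :=
  Nat.add (Nat.add a (Nat.mul 8 b)) (Nat.add (Nat.mul 64 c) (Nat.mul 512 d))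

def force {α : Type} (n : ℕ) (f : ℕ → α) : α :=
  Nat.rec (motive := fun _ => α) (f 0) (fun m _ => f (Nat.succ m)) n

theorem force_eq {α : Type} (n : ℕ) (f : ℕ → α) : force n f = f n := by
  cases n <;> rfl

/-- Inverses in the field with seven elements. -/
def iv (a : ℕ) : ℕ := Nat.land (Nat.shiftRight 1682184 (Nat.mul 3 a)) 7

def scd (s a b c d : ℕ) : ℕ :=
  cd (Nat.mod (Nat.mul s a) 7) (Nat.mod (Nat.mul s b) 7) (Nat.mod (Nat.mul s c) 7)
    (Nat.mod (Nat.mul s d) 7)

/-- The code of the normalized matrix. -/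
def norm (a b c d : ℕ) : ℕ :=
  cond (Nat.beq a 0) (force (iv b) fun s => scd s a b c d) (force (iv a) fun s => scd s a b c d)

def mulA (a b c d e f g h : ℕ) : ℕ :=
  force (Nat.mod (Nat.add (Nat.mul a e) (Nat.mul b g)) 7) fun p =>
  force (Nat.mod (Nat.add (Nat.mul a f) (Nat.mul b h)) 7) fun q =>
  force (Nat.mod (Nat.add (Nat.mul c e) (Nat.mul d g)) 7) fun r =>
  force (Nat.mod (Nat.add (Nat.mul c f) (Nat.mul d h)) 7) fun s => norm p q r s

def mulN (x y : ℕ) : ℕ :=
  mulA (Nat.land x 7) (Nat.land (Nat.shiftRight x 3) 7) (Nat.land (Nat.shiftRight x 6) 7)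
    (Nat.shiftRight x 9) (Nat.land y 7) (Nat.land (Nat.shiftRight y 3) 7)
    (Nat.land (Nat.shiftRight y 6) 7) (Nat.shiftRight y 9)

def neg7 (a : ℕ) : ℕ := Nat.mod (Nat.sub 7 a) 7

def invN (x : ℕ) : ℕ :=
  force (Nat.shiftRight x 9) fun p =>
  force (neg7 (Nat.land (Nat.shiftRight x 3) 7)) fun q =>
  force (neg7 (Nat.land (Nat.shiftRight x 6) 7)) fun r =>
  force (Nat.land x 7) fun s => norm p q r s

def cjN (x k : ℕ) : ℕ := mulN (mulN (invN k) x) k

def ciN (x k : ℕ) : ℕ := mulN (mulN k x) (invN k)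

/-- Codes of normalized invertible matrices. -/
def ok (x : ℕ) : Bool :=
  (Nat.beq (Nat.land x 7) 1 || (Nat.beq (Nat.land x 7) 0 && Nat.beq (Nat.land (Nat.shiftRight x 3) 7) 1)) &&
  Nat.blt (Nat.land (Nat.shiftRight x 3) 7) 7 && Nat.blt (Nat.land (Nat.shiftRight x 6) 7) 7 &&
  Nat.blt (Nat.shiftRight x 9) 7 &&
  Nat.beq (cd (Nat.land x 7) (Nat.land (Nat.shiftRight x 3) 7) (Nat.land (Nat.shiftRight x 6) 7)
    (Nat.shiftRight x 9)) x &&
  !(Nat.beq (Nat.mod (Nat.mul (Nat.land x 7) (Nat.shiftRight x 9)) 7)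
    (Nat.mod (Nat.mul (Nat.land (Nat.shiftRight x 3) 7) (Nat.land (Nat.shiftRight x 6) 7)) 7))

def z7 (n : ℕ) : ZMod 7 := (Fin.ofNat 7 n : Fin 7)

/-- The matrix with a given code. -/
def mat (x : ℕ) : Matrix (Fin 2) (Fin 2) (ZMod 7) :=
  !![z7 (Nat.land x 7), z7 (Nat.land (Nat.shiftRight x 3) 7);
    z7 (Nat.land (Nat.shiftRight x 6) 7), z7 (Nat.shiftRight x 9)]

/-- The code of the normalized multiple of a matrix. -/
def cm (A : Matrix (Fin 2) (Fin 2) (ZMod 7)) : ℕ :=
  norm (A 0 0).val (A 0 1).val (A 1 0).val (A 1 1).val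

/-- The codes of all elements. -/
def allc : List ℕ :=
  [72, 73, 81, 89, 97, 105, 113, 136, 137, 145, 153, 161, 169, 177, 200, 201, 209, 217, 225,
    233, 241, 264, 265, 273, 281, 289, 297, 305, 328, 329, 337, 345, 353, 361, 369, 392, 393,
    401, 409, 417, 425, 433, 513, 521, 529, 537, 545, 553, 561, 577, 584, 593, 601, 609, 617,
    625, 641, 648, 649, 657, 665, 681, 689, 705, 712, 713, 721, 729, 737, 753, 769, 776, 777,
    793, 801, 809, 817, 833, 840, 841, 849, 865, 873, 881, 897, 904, 905, 913, 921, 929, 937,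
    1025, 1033, 1041, 1049, 1057, 1065, 1073, 1089, 1096, 1097, 1113, 1121, 1129, 1137, 1153,
    1160, 1169, 1177, 1185, 1193, 1201, 1217, 1224, 1225, 1233, 1249, 1257, 1265, 1281, 1288,
    1289, 1297, 1305, 1321, 1329, 1345, 1352, 1353, 1361, 1369, 1377, 1385, 1409, 1416, 1417,
    1425, 1433, 1441, 1457, 1537, 1545, 1553, 1561, 1569, 1577, 1585, 1601, 1608, 1609, 1617,
    1633, 1641, 1649, 1665, 1672, 1673, 1681, 1689, 1697, 1713, 1729, 1736, 1745, 1753, 1761,
    1769, 1777, 1793, 1800, 1801, 1809, 1817, 1825, 1833, 1857, 1864, 1865, 1881, 1889, 1897,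
    1905, 1921, 1928, 1929, 1937, 1945, 1961, 1969, 2049, 2057, 2065, 2073, 2081, 2089, 2097,
    2113, 2120, 2121, 2129, 2137, 2153, 2161, 2177, 2184, 2185, 2201, 2209, 2217, 2225, 2241,
    2248, 2249, 2257, 2265, 2273, 2281, 2305, 2312, 2321, 2329, 2337, 2345, 2353, 2369, 2376,
    2377, 2385, 2393, 2401, 2417, 2433, 2440, 2441, 2449, 2465, 2473, 2481, 2561, 2569, 2577,
    2585, 2593, 2601, 2609, 2625, 2632, 2633, 2641, 2649, 2657, 2673, 2689, 2696, 2697, 2705,
    2713, 2721, 2729, 2753, 2760, 2761, 2769, 2777, 2793, 2801, 2817, 2824, 2825, 2833, 2849,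
    2857, 2865, 2881, 2888, 2897, 2905, 2913, 2921, 2929, 2945, 2952, 2953, 2969, 2977, 2985,
    2993, 3073, 3081, 3089, 3097, 3105, 3113, 3121, 3137, 3144, 3145, 3153, 3161, 3169, 3177,
    3201, 3208, 3209, 3217, 3233, 3241, 3249, 3265, 3272, 3273, 3289, 3297, 3305, 3313, 3329,
    3336, 3337, 3345, 3353, 3361, 3377, 3393, 3400, 3401, 3409, 3417, 3433, 3441, 3457, 3464,
    3473, 3481, 3489, 3497, 3505]

theorem fact1 : ∀ a b c d : ZMod 7, a * d - b * c ≠ 0 →
    ok (norm a.val b.val c.val d.val) = true ∧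
    z7 (if a = 0 then iv b.val else iv a.val) ≠ 0 ∧
    z7 (Nat.land (norm a.val b.val c.val d.val) 7) = z7 (if a = 0 then iv b.val else iv a.val) * a ∧
    z7 (Nat.land (Nat.shiftRight (norm a.val b.val c.val d.val) 3) 7) =
      z7 (if a = 0 then iv b.val else iv a.val) * b ∧
    z7 (Nat.land (Nat.shiftRight (norm a.val b.val c.val d.val) 6) 7) =
      z7 (if a = 0 then iv b.val else iv a.val) * c ∧
    z7 (Nat.shiftRight (norm a.val b.val c.val d.val) 9) =
      z7 (if a = 0 then iv b.val else iv a.val) * d := by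
  decide +kernel

theorem fact3 : ∀ s a b c d : ZMod 7, s ≠ 0 →
    norm (s * a).val (s * b).val (s * c).val (s * d).val = norm a.val b.val c.val d.val := by
  decide +kernel

theorem fact4 : ∀ a b c d : ZMod 7, ok (cd a.val b.val c.val d.val) = true →
    norm a.val b.val c.val d.val = cd a.val b.val c.val d.val ∧
    (Nat.land (cd a.val b.val c.val d.val) 7 = a.val ∧
      Nat.land (Nat.shiftRight (cd a.val b.val c.val d.val) 3) 7 = b.val ∧
      Nat.land (Nat.shiftRight (cd a.val b.val c.val d.val) 6) 7 = c.val ∧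
      Nat.shiftRight (cd a.val b.val c.val d.val) 9 = d.val) ∧
    (allc.any fun w => Nat.beq (cd a.val b.val c.val d.val) w) = true ∧
    a * d - b * c ≠ 0 := by
  decide +kernel

theorem okd {x : ℕ} (h : ok x = true) : ∃ a b c d : ZMod 7, x = cd a.val b.val c.val d.val := by
  unfold ok at h
  simp only [Bool.and_eq_true, Bool.or_eq_true] at h
  obtain ⟨⟨⟨⟨⟨h1, h2⟩, h3⟩, h4⟩, h5⟩, h6⟩ := h
  have h1' : Nat.land x 7 < 7 := by
    rcases h1 with h1 | h1
    · rw [Nat.eq_of_beq_eq_true h1]; norm_num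
    · rw [Nat.eq_of_beq_eq_true h1.1]; norm_num
  have hb : ∀ n : ℕ, Nat.blt n 7 = true → n < 7 := fun n hn => Nat.le_of_ble_eq_true hn
  exact ⟨(⟨_, h1'⟩ : Fin 7), (⟨_, hb _ h2⟩ : Fin 7), (⟨_, hb _ h3⟩ : Fin 7),
    (⟨_, hb _ h4⟩ : Fin 7), (Nat.eq_of_beq_eq_true h5).symm⟩

theorem z7_val : ∀ a : ZMod 7, z7 a.val = a := by
  decide +kernel

/-- Everything about a normalized code. -/
theorem ok_facts {x : ℕ} (h : ok x = true) :
    cm (mat x) = x ∧ (mat x).det ≠ 0 ∧ x ∈ allc ∧
      ((mat x) 0 0).val = Nat.land x 7 ∧ ((mat x) 0 1).val = Nat.land (Nat.shiftRight x 3) 7 ∧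
      ((mat x) 1 0).val = Nat.land (Nat.shiftRight x 6) 7 ∧ ((mat x) 1 1).val = Nat.shiftRight x 9 := by
  obtain ⟨a, b, c, d, rfl⟩ := okd h
  obtain ⟨h1, ⟨d1, d2, d3, d4⟩, h3, h4⟩ := fact4 a b c d h
  have e : mat (cd a.val b.val c.val d.val) = !![a, b;
      c, d] := by
    unfold mat
    rw [d1, d2, d3, d4, z7_val, z7_val, z7_val, z7_val]
  refine ⟨?_, ?_, ?_, ?_, ?_, ?_, ?_⟩
  · rw [e]; exact h1
  · rw [e, Matrix.det_fin_two_of]; exact h4
  · obtain ⟨w, hw, h5⟩ := List.any_eq_true.1 h3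
    rw [Nat.eq_of_beq_eq_true h5]; exact hw
  · rw [e, d1]; rfl
  · rw [e, d2]; rfl
  · rw [e, d3]; rfl
  · rw [e, d4]; rfl

theorem cm_ok {A : Matrix (Fin 2) (Fin 2) (ZMod 7)} (h : A.det ≠ 0) :
    ok (cm A) = true ∧ ∃ s : ZMod 7, s ≠ 0 ∧ mat (cm A) = s • A := by
  rw [Matrix.det_fin_two] at h
  obtain ⟨h1, h2, h3, h4, h5, h6⟩ := fact1 _ _ _ _ h
  refine ⟨h1, _, h2, ?_⟩
  unfold mat cm
  rw [h3, h4, h5, h6]
  ext i j
  fin_cases i <;> fin_cases j <;> rfl

theorem cm_smul (A : Matrix (Fin 2) (Fin 2) (ZMod 7)) {s : ZMod 7} (hs : s ≠ 0) :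
    cm (s • A) = cm A := fact3 s _ _ _ _ hs

/-- The group `PGL(2, 7)`. -/
structure P7 where
  val : ℕ
  ok : ok val = true

namespace P7

theorem ext' {a b : P7} (h : a.val = b.val) : a = b := by
  cases a; cases b; simp_all

instance : DecidableEq P7 := fun a b => decidable_of_iff (a.val = b.val) ⟨ext', fun h => by rw [h]⟩

theorem det_ne (a : P7) : (mat a.val).det ≠ 0 := (ok_facts a.ok).2.1

instance : Fact (Nat.Prime 7) := ⟨by norm_num⟩

theorem mul_ne (a b : P7) : (mat a.val * mat b.val).det ≠ 0 := by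
  rw [Matrix.det_mul]; exact mul_ne_zero a.det_ne b.det_ne

theorem adj_ne (a : P7) : (mat a.val).adjugate.det ≠ 0 := by
  rw [Matrix.det_adjugate]; exact pow_ne_zero _ a.det_ne

instance : Mul P7 := ⟨fun a b => ⟨cm (mat a.val * mat b.val), (cm_ok (mul_ne a b)).1⟩⟩
instance : Inv P7 := ⟨fun a => ⟨cm (mat a.val).adjugate, (cm_ok (adj_ne a)).1⟩⟩
instance : One P7 := ⟨⟨513, by decide⟩⟩

theorem mul_def (a b : P7) : (a * b).val = cm (mat a.val * mat b.val) := rfl
theorem inv_def (a : P7) : (a⁻¹).val = cm (mat a.val).adjugate := rfl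
theorem one_def : (1 : P7).val = 513 := rfl

theorem mat_one : mat 513 = 1 := by
  decide +kernel

instance : Group P7 := Group.ofLeftAxioms
  (by
    intro a b c
    apply ext'
    rw [mul_def, mul_def, mul_def, mul_def]
    obtain ⟨s, hs, h1⟩ := (cm_ok (mul_ne a b)).2
    obtain ⟨t, ht, h2⟩ := (cm_ok (mul_ne b c)).2
    rw [h1, h2, Matrix.smul_mul, Matrix.mul_smul, cm_smul _ hs, cm_smul _ ht, Matrix.mul_assoc])
  (by
    intro a
    apply ext'
    rw [mul_def, one_def, mat_one, Matrix.one_mul]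
    exact (ok_facts a.ok).1)
  (by
    intro a
    apply ext'
    rw [mul_def, inv_def, one_def]
    obtain ⟨s, hs, h1⟩ := (cm_ok (adj_ne a)).2
    rw [h1, Matrix.smul_mul, cm_smul _ hs, Matrix.adjugate_mul, cm_smul _ a.det_ne, ← mat_one]
    exact (ok_facts (x := 513) (by decide)).1)

end P7

/-- The code of an element. -/
def code (g : P7) : ℕ := g.val

theorem code_mul (A B : P7) : code (A * B) = mulN (code A) (code B) := by
  obtain ⟨-, -, -, a1, a2, a3, a4⟩ := ok_facts A.ok
  obtain ⟨-, -, -, b1, b2, b3, b4⟩ := ok_facts B.ok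
  have h : ∀ x y z w : ZMod 7, (x * y + z * w).val =
      Nat.mod (Nat.add (Nat.mul x.val y.val) (Nat.mul z.val w.val)) 7 := by
    intro x y z w
    rw [ZMod.val_add, ZMod.val_mul, ZMod.val_mul, ← Nat.add_mod]
    rfl
  unfold code
  rw [P7.mul_def]
  unfold cm mulN mulA
  simp only [force_eq]
  simp only [Matrix.mul_apply, Fin.sum_univ_two]
  rw [h, h, h, h, a1, a2, a3, a4, b1, b2, b3, b4]

theorem code_inv (A : P7) : code A⁻¹ = invN (code A) := by
  obtain ⟨-, -, -, a1, a2, a3, a4⟩ := ok_facts A.ok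
  have h : ∀ x : ZMod 7, (-x).val = neg7 x.val := by
    intro x
    rw [ZMod.neg_val']
    rfl
  unfold code
  rw [P7.inv_def, Matrix.adjugate_fin_two]
  unfold cm invN
  simp only [force_eq]
  rw [← a1, ← a2, ← a3, ← a4, ← h, ← h]
  rfl

theorem code_one : code 1 = 513 := rfl

theorem code_inj {A B : P7} (h : code A = code B) : A = B := P7.ext' h

theorem code_cj (x k : P7) : code (k⁻¹ * x * k) = cjN (code x) (code k) := by
  rw [code_mul, code_mul, code_inv]; rfl

theorem code_ci (x k : P7) : code (k * x * k⁻¹) = ciN (code x) (code k) := by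
  rw [code_mul, code_mul, code_inv]; rfl

theorem mem_allc (A : P7) : code A ∈ allc := (ok_facts A.ok).2.2.1

/-- The element with a given code. -/
def toG (x : ℕ) : P7 := if h : ok x = true then ⟨x, h⟩ else 1

theorem toG_chk : (allc.all fun w => ok w) = true := by
  decide +kernel

theorem code_toG {w : ℕ} (hw : w ∈ allc) : code (toG w) = w := by
  have h := List.all_eq_true.1 toG_chk w hw
  unfold toG
  rw [dif_pos h]
  rfl

instance : Finite P7 := by
  have h : Function.Injective (fun g : P7 => (⟨code g, by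
      have h1 := g.ok
      obtain ⟨a, b, c, d, h2⟩ := okd h1
      have : code g = cd a.val b.val c.val d.val := h2
      rw [this]
      have := ZMod.val_lt a; have := ZMod.val_lt b; have := ZMod.val_lt c; have := ZMod.val_lt d
      change a.val + 8 * b.val + (64 * c.val + 512 * d.val) < 4096
      omega⟩ : Fin 4096)) := by
    intro a b hab
    exact code_inj (congrArg Fin.val hab)
  exact Finite.of_injective _ h

theorem pow6 : ∀ s : ZMod 7, s ≠ 0 → s ^ 6 = 1 := by decide

/-- The class of the determinant modulo squares. -/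
def eps : P7 →* (ZMod 7)ˣ where
  toFun g := Units.mk0 ((mat g.val).det ^ 3) (pow_ne_zero _ g.det_ne)
  map_one' := by
    apply Units.ext
    change (mat 513).det ^ 3 = 1
    rw [P7.mat_one, Matrix.det_one, one_pow]
  map_mul' a b := by
    apply Units.ext
    change (mat (cm (mat a.val * mat b.val))).det ^ 3 = (mat a.val).det ^ 3 * (mat b.val).det ^ 3
    obtain ⟨s, hs, h1⟩ := (cm_ok (P7.mul_ne a b)).2
    rw [h1, Matrix.det_smul, Matrix.det_mul, Fintype.card_fin, mul_pow, ← pow_mul, mul_pow,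
      pow6 s hs, one_mul]

/-- The codes of the elements of the conjugacy class with number `i`. -/
def cl (i : ℕ) : List ℕ :=
  ([[73, 161, 233, 273, 345, 433, 584, 617, 689, 737, 793, 841, 913, 1121, 1169, 1265, 1288,
    1289, 1385, 1433, 1641, 1672, 1713, 1761, 1817, 1865, 1937, 2121, 2184, 2209, 2281, 2321,
    2393, 2481, 2673, 2713, 2769, 2824, 2857, 2913, 2953, 3144], [81, 137, 217, 289, 369, 425,
    593, 648, 649, 729, 801, 881, 937, 1096, 1137, 1177, 1233, 1321, 1377, 1417, 1537, 1545,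
    1553, 1561, 1569, 1577, 1585, 1601, 1665, 1729, 1793, 1800, 1857, 1921, 2153, 2225, 2273,
    2312, 2329, 2377, 2449, 2561, 2569, 2577, 2585, 2593, 2601, 2609, 2625, 2632, 2689, 2753,
    2817, 2881, 2945, 3208], [97, 145, 241, 265, 361, 409, 601, 681, 713, 776, 817, 849, 929,
    1113, 1160, 1193, 1225, 1329, 1361, 1441, 1608, 1633, 1681, 1777, 1801, 1897, 1945, 2120,
    2161, 2201, 2257, 2345, 2401, 2441, 2641, 2696, 2697, 2777, 2849, 2929, 2985, 3336]] : List
    (List ℕ)).getD i []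

/-- For `k` in the class with number `i` and the representative `g`, the numbers with the parts
`k⁻¹ g k` and `k`. -/
def tb (i : ℕ) : List ℕ :=
  ([[299081, 660193, 955753, 1120145, 1415513, 1776241, 2395017, 2530145, 2825001, 3019336,
    3250249, 3445529, 3740385, 4593800, 4789513, 5184353, 5277033, 5282417, 5675144, 5870737,
    6724017, 6849305, 7018209, 7215337, 7442865, 7640753, 7934185, 8688904, 8947945, 9049233,
    9345929, 9509673, 9803016, 10163297, 10951001, 11114385, 11344305, 11568817, 11702617,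
    11933465, 12095921, 12877897], [331857, 561801, 890009, 1185313, 1513649, 1743401, 2431809,
    2655585, 2660577, 2988209, 3282473, 3610497, 3840537, 4491489, 4658248, 4822088, 5051097,
    5412353, 5643009, 5806625, 6295921, 6330649, 6362225, 6397064, 6428545, 6460121, 6494849,
    6560145, 6821217, 7085192, 7345689, 7372881, 7607209, 7870985, 8819336, 9114248, 9311089,
    9472897, 9541121, 9738881, 10033673, 10490073, 10523801, 10557249, 10590977, 10623081,
    10656328, 10687401, 10754377, 10781473, 11015377, 11278920, 11540009, 11801457, 12065313,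
    13141633], [397409, 594769, 988465, 1087241, 1481001, 1678041, 2464625, 2790489, 2920809,
    3180753, 3347873, 3477745, 3806344, 4559624, 4754345, 4886769, 5019761, 5444360, 5576433,
    5904593, 6588049, 6691209, 6887537, 7280489, 7379673, 7771441, 7968161, 8684881, 8853576,
    9015657, 9247017, 9607240, 9836393, 10000737, 10819937, 11042913, 11049113, 11376369,
    11672489, 11998297, 12227921, 13665073]] : List (List ℕ)).getD i []

/-- The representative of a class. -/
def rep (i : ℕ) : ℕ := (cl i).headD 0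

/-- Whether the determinant is a square. -/
def sqN (x : ℕ) : Bool :=
  force (Nat.mod (Nat.add (Nat.mul (Nat.land x 7) (Nat.shiftRight x 9))
    (Nat.mul 6 (Nat.mul (Nat.land (Nat.shiftRight x 3) 7) (Nat.land (Nat.shiftRight x 6) 7)))) 7)
    fun n => Nat.beq n 1 || Nat.beq n 2 || Nat.beq n 4

theorem sq_chk : ∀ a b c d : ZMod 7,
    (a * d - b * c) ^ 3 = 1 ∨
      sqN (cd a.val b.val c.val d.val) = false := by
  decide +kernel

theorem eps_of_sq {g : P7} (h : sqN (code g) = true) : eps g = 1 := by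
  apply Units.ext
  change (mat g.val).det ^ 3 = 1
  have hg := g.ok
  obtain ⟨a, b, c, d, h2⟩ := okd hg
  have h3 : code g = cd a.val b.val c.val d.val := h2
  rw [h2] at hg
  obtain ⟨h1, ⟨d1, d2, d3, d4⟩, -, -⟩ := fact4 a b c d hg
  have e : mat (cd a.val b.val c.val d.val) = !![a, b;
      c, d] := by
    unfold mat
    rw [d1, d2, d3, d4, z7_val, z7_val, z7_val, z7_val]
  rw [h2, e, Matrix.det_fin_two_of]
  rcases sq_chk a b c d with h4 | h4
  · exact h4
  · rw [h3, h4] at h
    exact absurd h (by decide)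

theorem cls_chk : (allc.all fun x => sqN x ||
    (force (mulN x x) fun y => Nat.beq (mulN y y) 513) ||
    (List.range 3).any fun i => (cl i).any fun y => Nat.beq x y) = true := by
  decide +kernel

theorem rep_chk : ((List.range 3).all fun i => (cl i).all fun c =>
    allc.any fun w => Nat.beq (ciN c w) (rep i)) = true := by
  decide +kernel

theorem con_chk : ((List.range 3).all fun i => allc.all fun w =>
    (cl i).any fun y => Nat.beq (cjN (rep i) w) y) = true := by
  decide +kernel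

theorem tb_chk : ((List.range 3).all fun i => (cl i).all fun k =>
    force (Nat.add (cjN (rep i) k) (Nat.mul 4096 k)) fun m =>
      (tb i).any fun e => Nat.beq m e) = true := by
  decide +kernel

/-- Each odd element with `x ^ 4 ≠ 1` is conjugate to one of the representatives. -/
theorem exists_rep {A : P7} (h1 : eps A ≠ 1) (h2 : (A * A) * (A * A) ≠ 1) :
    ∃ i ∈ List.range 3, ∃ W : P7, code (W * A * W⁻¹) = rep i := by
  have h3 := List.all_eq_true.1 cls_chk _ (mem_allc A)
  rw [Bool.or_eq_true, Bool.or_eq_true] at h3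
  rcases h3 with (h3 | h3) | h3
  · exact absurd (eps_of_sq h3) h1
  · rw [force_eq] at h3
    exact absurd (code_inj (by
      rw [code_mul, code_mul, code_one]; exact Nat.eq_of_beq_eq_true h3)) h2
  · obtain ⟨i, hi, h4⟩ := List.any_eq_true.1 h3
    obtain ⟨y, hy, h5⟩ := List.any_eq_true.1 h4
    have h6 : code A = y := Nat.eq_of_beq_eq_true h5
    have h7 := List.all_eq_true.1 (List.all_eq_true.1 rep_chk i hi) y hy
    obtain ⟨w, hw, h8⟩ := List.any_eq_true.1 h7
    refine ⟨i, hi, toG w, ?_⟩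
    rw [code_ci, code_toG hw, h6]
    exact Nat.eq_of_beq_eq_true h8

theorem mem_cl {i : ℕ} (hi : i ∈ List.range 3) {A : P7} (hA : code A = rep i) (k : P7) :
    code (k⁻¹ * A * k) ∈ cl i := by
  have h1 := List.all_eq_true.1 (List.all_eq_true.1 con_chk i hi) _ (mem_allc k)
  obtain ⟨y, hy, h2⟩ := List.any_eq_true.1 h1
  rw [code_cj, hA, Nat.eq_of_beq_eq_true h2]
  exact hy

theorem mem_tb {i : ℕ} (hi : i ∈ List.range 3) {A k : P7} (hA : code A = rep i)
    (hk : code k ∈ cl i) :
    Nat.add (code (k⁻¹ * A * k)) (Nat.mul 4096 (code k)) ∈ tb i := by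
  have h1 := List.all_eq_true.1 (List.all_eq_true.1 tb_chk i hi) _ hk
  rw [force_eq] at h1
  obtain ⟨y, hy, h2⟩ := List.any_eq_true.1 h1
  rw [code_cj, hA, Nat.eq_of_beq_eq_true h2]
  exact hy

theorem code_lt (g : P7) : code g < 4096 := by
  have h1 := g.ok
  obtain ⟨a, b, c, d, h2⟩ := okd h1
  have : code g = cd a.val b.val c.val d.val := h2
  rw [this]
  have := ZMod.val_lt a; have := ZMod.val_lt b; have := ZMod.val_lt c; have := ZMod.val_lt d
  change a.val + 8 * b.val + (64 * c.val + 512 * d.val) < 4096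
  omega

end Vale.Agent.P258.R2.H747.G7
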