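import Vale.Agent.P258.H331.Main

set_option linter.all false

/-!
The colourings of the second pattern by the elements of any group: relations and longitudes.
-/

namespace Vale.Agent.P258.R2.H747

open Vale.Agent.P258

/-- The conjugation relations of a coloured second pattern. -/
structure PatRel {Γ : Type*} [Group Γ] (v : Fin 33 → Γ) : Prop where
  f0 : v 0 = (v 26)⁻¹ * v 1 * v 26
  f1 : v 1 = (v 25)⁻¹ * v 2 * v 25
  f2 : v 2 = (v 31)⁻¹ * v 3 * v 31
  f3 : v 4 = (v 11)⁻¹ * v 3 * v 11
  f4 : v 5 = (v 10)⁻¹ * v 4 * v 10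
  f5 : v 6 = (v 9)⁻¹ * v 5 * v 9
  f6 : v 7 = (v 8)⁻¹ * v 6 * v 8
  f7 : v 7 = (v 29)⁻¹ * v 8 * v 29
  f8 : v 9 = (v 6)⁻¹ * v 8 * v 6
  f9 : v 10 = (v 5)⁻¹ * v 9 * v 5
  f10 : v 11 = (v 4)⁻¹ * v 10 * v 4
  f11 : v 12 = (v 3)⁻¹ * v 11 * v 3
  f12 : v 13 = (v 22)⁻¹ * v 12 * v 22
  f13 : v 14 = (v 21)⁻¹ * v 13 * v 21
  f14 : v 15 = (v 20)⁻¹ * v 14 * v 20
  f15 : v 16 = (v 19)⁻¹ * v 15 * v 19
  f16 : v 17 = (v 18)⁻¹ * v 16 * v 18
  f17 : v 18 = (v 0)⁻¹ * v 17 * v 0
  f18 : v 19 = (v 16)⁻¹ * v 18 * v 16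
  f19 : v 20 = (v 15)⁻¹ * v 19 * v 15
  f20 : v 21 = (v 14)⁻¹ * v 20 * v 14
  f21 : v 22 = (v 13)⁻¹ * v 21 * v 13
  f22 : v 23 = (v 12)⁻¹ * v 22 * v 12
  f23 : v 24 = (v 31)⁻¹ * v 23 * v 31
  f24 : v 24 = (v 2)⁻¹ * v 25 * v 2
  f25 : v 25 = (v 1)⁻¹ * v 26 * v 1
  f26 : v 26 = (v 0)⁻¹ * v 27 * v 0
  f27 : v 28 = (v 7)⁻¹ * v 27 * v 7
  f28 : v 28 = (v 8)⁻¹ * v 29 * v 8
  f29 : v 29 = (v 7)⁻¹ * v 30 * v 7
  f30 : v 0 = (v 17)⁻¹ * v 30 * v 17
  f31 : v 32 = (v 24)⁻¹ * v 31 * v 24
  f32 : v 32 = (v 2)⁻¹ * v 31 * v 2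

/-- The value of the longitude of `K`. -/
def lamB {Γ : Type*} [Group Γ] (v : Fin 33 → Γ) : Γ := (((((((((((((((((((((((((((((((v 26)⁻¹ * (v 25)⁻¹) * (v 31)⁻¹) *
    v 11) * v 10) * v 9) * v 8) * (v 29)⁻¹) * v 6) * v 5) * v 4) * v 3) * v 22) * v 21) * v 20) *
    v 19) * v 18) * v 0) * v 16) * v 15) * v 14) * v 13) * v 12) * v 31) * (v 2)⁻¹) * (v 1)⁻¹) *
    (v 0)⁻¹) * v 7) * (v 8)⁻¹) * (v 7)⁻¹) * v 17) * v 0 ^ (-(13 : ℤ))

theorem patRel_of_isCol {Γ : Type*} [Group Γ] (v : Fin 33 → Γ) (h : patternB.IsCol v) : PatRel v := by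
  have g : ∀ a : Fin 33, v (Second.nextV a) = v (Second.aboveV a) ^ (-(Second.sgnV a : ℤ)) * v a *
      v (Second.aboveV a) ^ (Second.sgnV a : ℤ) := by
    intro a
    rw [← Second.nextV_eq, ← Second.aboveV_eq, ← Second.sgnV_eq]
    exact h a
  constructor
  · have := g 0; simp [Second.nextV, Second.aboveV, Second.sgnV] at this; rw [this]; group
  · have := g 1; simp [Second.nextV, Second.aboveV, Second.sgnV] at this; rw [this]; group
  · have := g 2; simp [Second.nextV, Second.aboveV, Second.sgnV] at this; rw [this]; group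
  · have := g 3; simp [Second.nextV, Second.aboveV, Second.sgnV] at this; exact this
  · have := g 4; simp [Second.nextV, Second.aboveV, Second.sgnV] at this; exact this
  · have := g 5; simp [Second.nextV, Second.aboveV, Second.sgnV] at this; exact this
  · have := g 6; simp [Second.nextV, Second.aboveV, Second.sgnV] at this; exact this
  · have := g 7; simp [Second.nextV, Second.aboveV, Second.sgnV] at this; rw [this]; group
  · have := g 8; simp [Second.nextV, Second.aboveV, Second.sgnV] at this; exact this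
  · have := g 9; simp [Second.nextV, Second.aboveV, Second.sgnV] at this; exact this
  · have := g 10; simp [Second.nextV, Second.aboveV, Second.sgnV] at this; exact this
  · have := g 11; simp [Second.nextV, Second.aboveV, Second.sgnV] at this; exact this
  · have := g 12; simp [Second.nextV, Second.aboveV, Second.sgnV] at this; exact this
  · have := g 13; simp [Second.nextV, Second.aboveV, Second.sgnV] at this; exact this
  · have := g 14; simp [Second.nextV, Second.aboveV, Second.sgnV] at this; exact this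
  · have := g 15; simp [Second.nextV, Second.aboveV, Second.sgnV] at this; exact this
  · have := g 16; simp [Second.nextV, Second.aboveV, Second.sgnV] at this; exact this
  · have := g 17; simp [Second.nextV, Second.aboveV, Second.sgnV] at this; exact this
  · have := g 18; simp [Second.nextV, Second.aboveV, Second.sgnV] at this; exact this
  · have := g 19; simp [Second.nextV, Second.aboveV, Second.sgnV] at this; exact this
  · have := g 20; simp [Second.nextV, Second.aboveV, Second.sgnV] at this; exact this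
  · have := g 21; simp [Second.nextV, Second.aboveV, Second.sgnV] at this; exact this
  · have := g 22; simp [Second.nextV, Second.aboveV, Second.sgnV] at this; exact this
  · have := g 23; simp [Second.nextV, Second.aboveV, Second.sgnV] at this; exact this
  · have := g 24; simp [Second.nextV, Second.aboveV, Second.sgnV] at this; rw [this]; group
  · have := g 25; simp [Second.nextV, Second.aboveV, Second.sgnV] at this; rw [this]; group
  · have := g 26; simp [Second.nextV, Second.aboveV, Second.sgnV] at this; rw [this]; group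
  · have := g 27; simp [Second.nextV, Second.aboveV, Second.sgnV] at this; exact this
  · have := g 28; simp [Second.nextV, Second.aboveV, Second.sgnV] at this; rw [this]; group
  · have := g 29; simp [Second.nextV, Second.aboveV, Second.sgnV] at this; rw [this]; group
  · have := g 30; simp [Second.nextV, Second.aboveV, Second.sgnV] at this; exact this
  · have := g 31; simp [Second.nextV, Second.aboveV, Second.sgnV] at this; exact this
  · have := g 32; simp [Second.nextV, Second.aboveV, Second.sgnV] at this; rw [this]; group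

theorem isCol_of_patRel {Γ : Type*} [Group Γ] (v : Fin 33 → Γ) (h : PatRel v) : patternB.IsCol v := by
  have g : ∀ a : Fin 33, v (Second.nextV a) = v (Second.aboveV a) ^ (-(Second.sgnV a : ℤ)) * v a *
      v (Second.aboveV a) ^ (Second.sgnV a : ℤ) := by
    intro a
    fin_cases a
    · have := h.f0; simp [Second.nextV, Second.aboveV, Second.sgnV]; rw [this]; group
    · have := h.f1; simp [Second.nextV, Second.aboveV, Second.sgnV]; rw [this]; group
    · have := h.f2; simp [Second.nextV, Second.aboveV, Second.sgnV]; rw [this]; group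
    · simpa [Second.nextV, Second.aboveV, Second.sgnV] using h.f3
    · simpa [Second.nextV, Second.aboveV, Second.sgnV] using h.f4
    · simpa [Second.nextV, Second.aboveV, Second.sgnV] using h.f5
    · simpa [Second.nextV, Second.aboveV, Second.sgnV] using h.f6
    · have := h.f7; simp [Second.nextV, Second.aboveV, Second.sgnV]; rw [this]; group
    · simpa [Second.nextV, Second.aboveV, Second.sgnV] using h.f8
    · simpa [Second.nextV, Second.aboveV, Second.sgnV] using h.f9
    · simpa [Second.nextV, Second.aboveV, Second.sgnV] using h.f10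
    · simpa [Second.nextV, Second.aboveV, Second.sgnV] using h.f11
    · simpa [Second.nextV, Second.aboveV, Second.sgnV] using h.f12
    · simpa [Second.nextV, Second.aboveV, Second.sgnV] using h.f13
    · simpa [Second.nextV, Second.aboveV, Second.sgnV] using h.f14
    · simpa [Second.nextV, Second.aboveV, Second.sgnV] using h.f15
    · simpa [Second.nextV, Second.aboveV, Second.sgnV] using h.f16
    · simpa [Second.nextV, Second.aboveV, Second.sgnV] using h.f17
    · simpa [Second.nextV, Second.aboveV, Second.sgnV] using h.f18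
    · simpa [Second.nextV, Second.aboveV, Second.sgnV] using h.f19
    · simpa [Second.nextV, Second.aboveV, Second.sgnV] using h.f20
    · simpa [Second.nextV, Second.aboveV, Second.sgnV] using h.f21
    · simpa [Second.nextV, Second.aboveV, Second.sgnV] using h.f22
    · simpa [Second.nextV, Second.aboveV, Second.sgnV] using h.f23
    · have := h.f24; simp [Second.nextV, Second.aboveV, Second.sgnV]; rw [this]; group
    · have := h.f25; simp [Second.nextV, Second.aboveV, Second.sgnV]; rw [this]; group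
    · have := h.f26; simp [Second.nextV, Second.aboveV, Second.sgnV]; rw [this]; group
    · simpa [Second.nextV, Second.aboveV, Second.sgnV] using h.f27
    · have := h.f28; simp [Second.nextV, Second.aboveV, Second.sgnV]; rw [this]; group
    · have := h.f29; simp [Second.nextV, Second.aboveV, Second.sgnV]; rw [this]; group
    · simpa [Second.nextV, Second.aboveV, Second.sgnV] using h.f30
    · simpa [Second.nextV, Second.aboveV, Second.sgnV] using h.f31
    · have := h.f32; simp [Second.nextV, Second.aboveV, Second.sgnV]; rw [this]; group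
  intro a
  change Fin 33 at a
  have h1 := g a
  rw [← Second.nextV_eq a, ← Second.aboveV_eq a, ← Second.sgnV_eq a] at h1
  exact h1

theorem arc_term {Γ : Type*} [Group Γ] (v : Fin 33 → Γ) (b : Fin 33) :
    v (patternB.above b) ^ ((patternB.sgn b : ℤˣ) : ℤ) = v (Second.aboveV b) ^ (Second.sgnV b : ℤ) := by
  rw [Second.aboveV_eq, Second.sgnV_eq]

theorem lonVal_K {Γ : Type*} [Group Γ] (v : Fin 33 → Γ) : patternB.lonVal v patternBK = lamB v := by
  have h : (fun b : Fin 33 => v (patternB.above b) ^ ((patternB.sgn b : ℤˣ) : ℤ)) =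
      fun b => v (Second.aboveV b) ^ (Second.sgnV b : ℤ) := funext (arc_term v)
  have h1 : (List.map (fun b : Fin 33 => v (patternB.above b) ^ ((patternB.sgn b : ℤˣ) : ℤ))
      [0, 1, 2, 3, 4, 5, 6, 7, 8, 9, 10, 11, 12, 13, 14, 15, 16, 17, 18, 19, 20, 21, 22, 23, 24,
        25, 26, 27, 28, 29, 30]).prod =
      v 26 ^ (-1 : ℤ) * (v 25 ^ (-1 : ℤ) * (v 31 ^ (-1 : ℤ) * (v 11 ^ (1 : ℤ) * (v 10 ^ (1 : ℤ) *
        (v 9 ^ (1 : ℤ) * (v 8 ^ (1 : ℤ) * (v 29 ^ (-1 : ℤ) * (v 6 ^ (1 : ℤ) * (v 5 ^ (1 : ℤ) * (v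
        4 ^ (1 : ℤ) * (v 3 ^ (1 : ℤ) * (v 22 ^ (1 : ℤ) * (v 21 ^ (1 : ℤ) * (v 20 ^ (1 : ℤ) * (v 19
        ^ (1 : ℤ) * (v 18 ^ (1 : ℤ) * (v 0 ^ (1 : ℤ) * (v 16 ^ (1 : ℤ) * (v 15 ^ (1 : ℤ) * (v 14 ^
        (1 : ℤ) * (v 13 ^ (1 : ℤ) * (v 12 ^ (1 : ℤ) * (v 31 ^ (1 : ℤ) * (v 2 ^ (-1 : ℤ) * (v 1 ^
        (-1 : ℤ) * (v 0 ^ (-1 : ℤ) * (v 7 ^ (1 : ℤ) * (v 8 ^ (-1 : ℤ) * (v 7 ^ (-1 : ℤ) * (v 17 ^
        (1 : ℤ) * (1))))))))))))))))))))))))))))))) := by
    rw [h]
    rfl
  have h3 := lonVal_eq (D := patternB) v patternBK _ _ _ Second.walk_K Second.writhe_K h1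
  have h2 : v patternBK = v 0 := rfl
  rw [h2] at h3
  rw [h3]
  simp only [lamB, zpow_one, zpow_neg_one, mul_one, mul_assoc]

theorem lonVal_E {Γ : Type*} [Group Γ] (v : Fin 33 → Γ) : patternB.lonVal v patternBE = v 24 * (v 2)⁻¹ := by
  have h : (fun b : Fin 33 => v (patternB.above b) ^ ((patternB.sgn b : ℤˣ) : ℤ)) =
      fun b => v (Second.aboveV b) ^ (Second.sgnV b : ℤ) := funext (arc_term v)
  have h1 : (List.map (fun b : Fin 33 => v (patternB.above b) ^ ((patternB.sgn b : ℤˣ) : ℤ))
      [31, 32]).prod = v 24 ^ (1 : ℤ) * (v 2 ^ (-1 : ℤ) * (1)) := by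
    rw [h]
    rfl
  have h3 := lonVal_eq (D := patternB) v patternBE _ _ _ Second.walk_E Second.writhe_E h1
  rw [h3]
  simp only [zpow_one, zpow_neg_one, mul_one, neg_zero, zpow_zero]

end Vale.Agent.P258.R2.H747
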