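import Vale.Agent.P258.R2.H747.Steps
import Vale.Agent.P258.R2.H747.Gen
import Vale.Agent.P258.R2.H394.Spec

set_option linter.all false

/-!
Row R7: the group `SL(2, 7)` and the second pattern, with the slopes `2` and `-2` exchanged.
-/

namespace Vale.Agent.P258.R2.H747

open Vale.Agent.P258

theorem fwd {a b k : G} (h : b = k⁻¹ * a * k) : code b = cjN (code a) (code k) := by
  rw [h, code_cj]

theorem bwd {a b k : G} (h : b = k⁻¹ * a * k) : code a = ciN (code b) (code k) := by
  have : a = k * b * k⁻¹ := by rw [h]; group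
  rw [this, code_ci]

theorem all_step {l : List ℕ} {x : ℕ} {p : ℕ → Bool} (h : l.all p = true) (hx : x ∈ l) :
    p x = true := List.all_eq_true.1 h x hx

theorem code_inv13 (x : G) : code (x ^ (-(13 : ℤ))) = inv13 (code x) := by
  have h : x ^ (-(13 : ℤ)) = (((x⁻¹ * x⁻¹) * (x⁻¹ * x⁻¹)) * ((x⁻¹ * x⁻¹) * (x⁻¹ * x⁻¹))) *
      ((x⁻¹ * x⁻¹) * (x⁻¹ * x⁻¹)) * x⁻¹ := by group
  rw [h]
  simp only [code_mul, code_inv]
  unfold inv13
  simp only [force_eq]

theorem sound (v : Fin 33 → G) (h : PatRel v) (hE : v 24 * (v 2)⁻¹ = 1 → v 31 = 1) (t : ℕ)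
    (h29 : code (v 29) ∈ cl t) (h23 : code (v 23) ∈ cl t)
    (hd : st0 (code (v 7)) (cl t) allc = true) : v 0 * v 0 * lamB v ≠ 1 := by
  unfold st0 at hd
  rw [force_eq] at hd
  unfold st1 at hd
  replace hd := all_step hd h29
  unfold st2 at hd
  rw [force_eq, ← bwd h.f7] at hd
  unfold st3 at hd
  rw [force_eq, ← fwd h.f28] at hd
  unfold st4 at hd
  rw [force_eq, ← bwd h.f29] at hd
  unfold st5 at hd
  rw [force_eq, ← bwd h.f6] at hd
  unfold st6 at hd
  rw [force_eq, ← fwd h.f8] at hd
  unfold st7 at hd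
  rw [force_eq, ← bwd h.f27] at hd
  unfold st8 at hd
  rw [force_eq, ← bwd h.f5] at hd
  unfold st9 at hd
  rw [force_eq, ← fwd h.f9] at hd
  unfold st10 at hd
  rw [force_eq, ← bwd h.f4] at hd
  unfold st11 at hd
  rw [force_eq, ← fwd h.f10] at hd
  unfold st12 at hd
  rw [force_eq, ← bwd h.f3] at hd
  unfold st13 at hd
  rw [force_eq, ← fwd h.f11] at hd
  unfold st14 at hd
  replace hd := all_step hd h23
  unfold st15 at hd
  rw [force_eq, ← bwd h.f22] at hd
  unfold st16 at hd
  rw [force_eq, ← fwd h.f12] at hd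
  unfold st17 at hd
  rw [force_eq, ← bwd h.f21] at hd
  unfold st18 at hd
  rw [force_eq, ← fwd h.f13] at hd
  unfold st19 at hd
  rw [force_eq, ← bwd h.f20] at hd
  unfold st20 at hd
  rw [force_eq, ← fwd h.f14] at hd
  unfold st21 at hd
  rw [force_eq, ← bwd h.f19] at hd
  unfold st22 at hd
  rw [force_eq, ← fwd h.f15] at hd
  unfold st23 at hd
  rw [force_eq, ← bwd h.f18] at hd
  unfold st24 at hd
  rw [force_eq, ← fwd h.f16] at hd
  unfold st25 at hd
  rw [force_eq, ← fwd h.f30] at hd
  unfold st26 at hd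
  replace hd := test_step hd (fwd h.f17)
  unfold st27 at hd
  rw [force_eq, ← fwd h.f26] at hd
  unfold st28 at hd
  rw [force_eq, ← bwd h.f0] at hd
  unfold st29 at hd
  rw [force_eq, ← fwd h.f25] at hd
  unfold st30 at hd
  rw [force_eq, ← bwd h.f1] at hd
  unfold st31 at hd
  rw [force_eq, ← fwd h.f24] at hd
  unfold st32 at hd
  replace hd := all_step hd (mem_allc (v 31))
  unfold st32b at hd
  replace hd := test_step hd (fwd h.f23)
  unfold st33 at hd
  replace hd := test_step hd (fwd h.f2)
  unfold st34 at hd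
  rw [force_eq, ← fwd h.f31] at hd
  unfold st35 at hd
  replace hd := test_step hd (fwd h.f32)
  unfold st36 at hd
  intro hlam
  rw [Bool.or_eq_true] at hd
  rcases hd with hd | hd
  · rw [Bool.and_eq_true] at hd
    have h1 : v 24 * (v 2)⁻¹ = 1 := code_inj (by
      rw [code_mul, code_inv, code_one]; exact Nat.eq_of_beq_eq_true hd.1)
    have h2 := hd.2
    rw [hE h1, code_one] at h2
    exact absurd h2 (by decide)
  · have h3 : code (v 0 * v 0 * lamB v) = 513 := by rw [hlam, code_one]
    unfold lamB at h3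
    rw [code_mul, code_mul (_ : G) (v 0 ^ (-(13 : ℤ))), code_inv13] at h3
    simp only [code_mul, code_inv] at h3
    rw [Bool.not_eq_true'] at hd
    exact Nat.ne_of_beq_eq_false hd h3

theorem conj_next (D : Diagram) (ρ : Fin D.n → G) (h : D.IsCol ρ) (a : Fin D.n) :
    ∃ k : G, ρ (D.next a) = k⁻¹ * ρ a * k := by
  refine ⟨ρ (D.above a) ^ ((D.sgn a : ℤˣ) : ℤ), ?_⟩
  rw [h a, zpow_neg]

theorem conj_same (D : Diagram) (ρ : Fin D.n → G) (h : D.IsCol ρ) {a b : Fin D.n}
    (hab : D.SameComponent a b) : ∃ k : G, ρ b = k⁻¹ * ρ a * k := by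
  obtain ⟨i, rfl⟩ := hab
  induction i with
  | zero => exact ⟨1, by simp⟩
  | succ i ih =>
    obtain ⟨k, hk⟩ := ih
    obtain ⟨l, hl⟩ := conj_next D ρ h (D.next^[i] a)
    refine ⟨k * l, ?_⟩
    rw [Function.iterate_succ_apply', hl, hk]
    group

theorem keyR (ρ : Fin 33 → G) (h : patternB.IsCol ρ)
    (hE : patternB.lonVal ρ patternBE = 1 → ρ 31 = 1)
    (hl : ρ 0 * ρ 0 * patternB.lonVal ρ patternBK = 1) : ρ 0 * ρ 0 = 1 := by
  by_contra hne
  -- all arcs of `K` are conjugate
  have hcj : ∀ (v : Fin 33 → G), patternB.IsCol v → ∀ a b : Fin 33, a.val < 31 → b.val < 31 →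
      ∃ k : G, v b = k⁻¹ * v a * k := by
    intro v hv a b ha hb
    obtain ⟨k, hk⟩ := conj_same patternB v hv ((Second.comp_K a).2 ha)
    obtain ⟨l, hl⟩ := conj_same patternB v hv ((Second.comp_K b).2 hb)
    refine ⟨k⁻¹ * l, ?_⟩
    rw [hl, hk]
    group
  have h7 : ρ 7 * ρ 7 ≠ 1 := by
    intro h1
    obtain ⟨k, hk⟩ := hcj ρ h 7 0 (by decide) (by decide)
    apply hne
    rw [hk]
    calc k⁻¹ * ρ 7 * k * (k⁻¹ * ρ 7 * k) = k⁻¹ * (ρ 7 * ρ 7) * k := by group
      _ = 1 := by rw [h1]; group
  obtain ⟨i, hi, W, hW⟩ := exists_rep h7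
  let φ : G →* G := (MulAut.conj W).toMonoidHom
  have hφ : ∀ g, φ g = W * g * W⁻¹ := fun g => by simp [φ]
  have hφinj : Function.Injective φ := (MulAut.conj W).injective
  let v : Fin 33 → G := fun a => φ (ρ a)
  have hv : patternB.IsCol v := Diagram.IsCol.map patternB h φ
  have hP : PatRel v := patRel_of_isCol v hv
  have hEv : v 24 * (v 2)⁻¹ = 1 → v 31 = 1 := by
    intro h1
    have h2 : patternB.lonVal v patternBE = 1 := by rw [lonVal_E]; exact h1
    have h3 : patternB.lonVal v patternBE = φ (patternB.lonVal ρ patternBE) :=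
      Diagram.lonVal_map patternB ρ φ patternBE
    rw [h3] at h2
    have h4 : patternB.lonVal ρ patternBE = 1 := hφinj (by rw [h2, map_one])
    change φ (ρ 31) = 1
    rw [hE h4, map_one]
  have hlv : v 0 * v 0 * lamB v = 1 := by
    rw [← lonVal_K]
    have h3 : patternB.lonVal v patternBK = φ (patternB.lonVal ρ patternBK) :=
      Diagram.lonVal_map patternB ρ φ patternBK
    rw [h3]
    change φ (ρ 0) * φ (ρ 0) * _ = 1
    rw [← map_mul, ← map_mul, hl, map_one]
  have hv7 : code (v 7) = rep i := by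
    change code (φ (ρ 7)) = _
    rw [hφ]; exact hW
  have hcl : ∀ b : Fin 33, b.val < 31 → code (v b) ∈ cl i := by
    intro b hb
    obtain ⟨k, hk⟩ := hcj v hv 7 b (by decide) hb
    rw [hk]
    exact mem_cl hi hv7 k
  refine sound v hP hEv i (hcl 29 (by decide)) (hcl 23 (by decide)) ?_ hlv
  rw [hv7]
  exact check i hi

/-- A colouring of the second pattern with `μ ^ 2 = λ`, `μ ^ 2 ≠ 1`; meridian of order 3,
longitude of order 6 on `E`. -/
def baseA (i : Fin 33) : G :=
  toG ([1565, 1733, 3434, 1733, 3218, 1126, 2611, 904, 1126, 3218, 1733, 297, 2396, 3482, 664,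
    1565, 2587, 153, 1126, 2212, 3170, 864, 1573, 2595, 2819, 2595, 1174, 2819, 1549, 720, 2212,
    1971, 1052].getD i.val 0)

theorem baseA_rel : PatRel baseA where
  f0 := code_inj (by rw [code_cj]; decide +kernel)
  f1 := code_inj (by rw [code_cj]; decide +kernel)
  f2 := code_inj (by rw [code_cj]; decide +kernel)
  f3 := code_inj (by rw [code_cj]; decide +kernel)
  f4 := code_inj (by rw [code_cj]; decide +kernel)
  f5 := code_inj (by rw [code_cj]; decide +kernel)
  f6 := code_inj (by rw [code_cj]; decide +kernel)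
  f7 := code_inj (by rw [code_cj]; decide +kernel)
  f8 := code_inj (by rw [code_cj]; decide +kernel)
  f9 := code_inj (by rw [code_cj]; decide +kernel)
  f10 := code_inj (by rw [code_cj]; decide +kernel)
  f11 := code_inj (by rw [code_cj]; decide +kernel)
  f12 := code_inj (by rw [code_cj]; decide +kernel)
  f13 := code_inj (by rw [code_cj]; decide +kernel)
  f14 := code_inj (by rw [code_cj]; decide +kernel)
  f15 := code_inj (by rw [code_cj]; decide +kernel)
  f16 := code_inj (by rw [code_cj]; decide +kernel)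
  f17 := code_inj (by rw [code_cj]; decide +kernel)
  f18 := code_inj (by rw [code_cj]; decide +kernel)
  f19 := code_inj (by rw [code_cj]; decide +kernel)
  f20 := code_inj (by rw [code_cj]; decide +kernel)
  f21 := code_inj (by rw [code_cj]; decide +kernel)
  f22 := code_inj (by rw [code_cj]; decide +kernel)
  f23 := code_inj (by rw [code_cj]; decide +kernel)
  f24 := code_inj (by rw [code_cj]; decide +kernel)
  f25 := code_inj (by rw [code_cj]; decide +kernel)
  f26 := code_inj (by rw [code_cj]; decide +kernel)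
  f27 := code_inj (by rw [code_cj]; decide +kernel)
  f28 := code_inj (by rw [code_cj]; decide +kernel)
  f29 := code_inj (by rw [code_cj]; decide +kernel)
  f30 := code_inj (by rw [code_cj]; decide +kernel)
  f31 := code_inj (by rw [code_cj]; decide +kernel)
  f32 := code_inj (by rw [code_cj]; decide +kernel)

theorem baseA_K : lamB baseA = baseA 0 ^ 2 := by
  apply code_inj
  unfold lamB
  rw [pow_two, code_mul (_ : G) (baseA 0 ^ (-(13 : ℤ))), code_inv13]
  simp only [code_mul, code_inv, code_one]
  decide +kernel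

theorem baseA_sq : baseA 0 ^ 2 ≠ 1 := by
  intro h
  have := congrArg code h
  rw [pow_two, code_mul, code_one] at this
  revert this
  decide +kernel

theorem baseA_E : baseA 31 = (baseA 24 * (baseA 2)⁻¹) ^ (2 : ℕ) := by
  apply code_inj
  simp only [pow_succ, pow_zero, one_mul, code_mul, code_inv, code_one]
  decide +kernel

theorem baseA_ord : (baseA 24 * (baseA 2)⁻¹) ^ (6 : ℕ) = 1 := by
  apply code_inj
  simp only [pow_succ, pow_zero, one_mul, code_mul, code_inv, code_one]
  decide +kernel

/-- A colouring of the second pattern with `μ ^ 2 = λ`, `μ ^ 2 ≠ 1`; meridian of order 6,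
longitude of order 6 on `E`. -/
def baseB (i : Fin 33) : G :=
  toG ([1565, 1733, 3434, 1733, 3218, 1126, 2611, 904, 1126, 3218, 1733, 297, 2396, 3482, 664,
    1565, 2587, 153, 1126, 2212, 3170, 864, 1573, 2595, 2819, 2595, 1174, 2819, 1549, 720, 2212,
    2124, 2595].getD i.val 0)

theorem baseB_rel : PatRel baseB where
  f0 := code_inj (by rw [code_cj]; decide +kernel)
  f1 := code_inj (by rw [code_cj]; decide +kernel)
  f2 := code_inj (by rw [code_cj]; decide +kernel)
  f3 := code_inj (by rw [code_cj]; decide +kernel)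
  f4 := code_inj (by rw [code_cj]; decide +kernel)
  f5 := code_inj (by rw [code_cj]; decide +kernel)
  f6 := code_inj (by rw [code_cj]; decide +kernel)
  f7 := code_inj (by rw [code_cj]; decide +kernel)
  f8 := code_inj (by rw [code_cj]; decide +kernel)
  f9 := code_inj (by rw [code_cj]; decide +kernel)
  f10 := code_inj (by rw [code_cj]; decide +kernel)
  f11 := code_inj (by rw [code_cj]; decide +kernel)
  f12 := code_inj (by rw [code_cj]; decide +kernel)
  f13 := code_inj (by rw [code_cj]; decide +kernel)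
  f14 := code_inj (by rw [code_cj]; decide +kernel)
  f15 := code_inj (by rw [code_cj]; decide +kernel)
  f16 := code_inj (by rw [code_cj]; decide +kernel)
  f17 := code_inj (by rw [code_cj]; decide +kernel)
  f18 := code_inj (by rw [code_cj]; decide +kernel)
  f19 := code_inj (by rw [code_cj]; decide +kernel)
  f20 := code_inj (by rw [code_cj]; decide +kernel)
  f21 := code_inj (by rw [code_cj]; decide +kernel)
  f22 := code_inj (by rw [code_cj]; decide +kernel)
  f23 := code_inj (by rw [code_cj]; decide +kernel)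
  f24 := code_inj (by rw [code_cj]; decide +kernel)
  f25 := code_inj (by rw [code_cj]; decide +kernel)
  f26 := code_inj (by rw [code_cj]; decide +kernel)
  f27 := code_inj (by rw [code_cj]; decide +kernel)
  f28 := code_inj (by rw [code_cj]; decide +kernel)
  f29 := code_inj (by rw [code_cj]; decide +kernel)
  f30 := code_inj (by rw [code_cj]; decide +kernel)
  f31 := code_inj (by rw [code_cj]; decide +kernel)
  f32 := code_inj (by rw [code_cj]; decide +kernel)

theorem baseB_K : lamB baseB = baseB 0 ^ 2 := by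
  apply code_inj
  unfold lamB
  rw [pow_two, code_mul (_ : G) (baseB 0 ^ (-(13 : ℤ))), code_inv13]
  simp only [code_mul, code_inv, code_one]
  decide +kernel

theorem baseB_sq : baseB 0 ^ 2 ≠ 1 := by
  intro h
  have := congrArg code h
  rw [pow_two, code_mul, code_one] at this
  revert this
  decide +kernel

theorem baseB_E : baseB 31 = (baseB 24 * (baseB 2)⁻¹) ^ (5 : ℕ) := by
  apply code_inj
  simp only [pow_succ, pow_zero, one_mul, code_mul, code_inv, code_one]
  decide +kernel

theorem baseB_ord : (baseB 24 * (baseB 2)⁻¹) ^ (6 : ℕ) = 1 := by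
  apply code_inj
  simp only [pow_succ, pow_zero, one_mul, code_mul, code_inv, code_one]
  decide +kernel

/-- A colouring of the second pattern with `μ ^ 2 = λ`, `μ ^ 2 ≠ 1`; meridian of order 14,
longitude of order 14 on `E`. -/
def baseC (i : Fin 33) : G :=
  toG ([393, 2571, 1549, 904, 904, 904, 904, 904, 904, 904, 904, 904, 904, 1549, 2571, 393,
    1294, 2124, 2611, 113, 1270, 2484, 3314, 624, 3314, 2484, 1270, 113, 113, 113, 113, 3206,
    1131].getD i.val 0)

theorem baseC_rel : PatRel baseC where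
  f0 := code_inj (by rw [code_cj]; decide +kernel)
  f1 := code_inj (by rw [code_cj]; decide +kernel)
  f2 := code_inj (by rw [code_cj]; decide +kernel)
  f3 := code_inj (by rw [code_cj]; decide +kernel)
  f4 := code_inj (by rw [code_cj]; decide +kernel)
  f5 := code_inj (by rw [code_cj]; decide +kernel)
  f6 := code_inj (by rw [code_cj]; decide +kernel)
  f7 := code_inj (by rw [code_cj]; decide +kernel)
  f8 := code_inj (by rw [code_cj]; decide +kernel)
  f9 := code_inj (by rw [code_cj]; decide +kernel)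
  f10 := code_inj (by rw [code_cj]; decide +kernel)
  f11 := code_inj (by rw [code_cj]; decide +kernel)
  f12 := code_inj (by rw [code_cj]; decide +kernel)
  f13 := code_inj (by rw [code_cj]; decide +kernel)
  f14 := code_inj (by rw [code_cj]; decide +kernel)
  f15 := code_inj (by rw [code_cj]; decide +kernel)
  f16 := code_inj (by rw [code_cj]; decide +kernel)
  f17 := code_inj (by rw [code_cj]; decide +kernel)
  f18 := code_inj (by rw [code_cj]; decide +kernel)
  f19 := code_inj (by rw [code_cj]; decide +kernel)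
  f20 := code_inj (by rw [code_cj]; decide +kernel)
  f21 := code_inj (by rw [code_cj]; decide +kernel)
  f22 := code_inj (by rw [code_cj]; decide +kernel)
  f23 := code_inj (by rw [code_cj]; decide +kernel)
  f24 := code_inj (by rw [code_cj]; decide +kernel)
  f25 := code_inj (by rw [code_cj]; decide +kernel)
  f26 := code_inj (by rw [code_cj]; decide +kernel)
  f27 := code_inj (by rw [code_cj]; decide +kernel)
  f28 := code_inj (by rw [code_cj]; decide +kernel)
  f29 := code_inj (by rw [code_cj]; decide +kernel)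
  f30 := code_inj (by rw [code_cj]; decide +kernel)
  f31 := code_inj (by rw [code_cj]; decide +kernel)
  f32 := code_inj (by rw [code_cj]; decide +kernel)

theorem baseC_K : lamB baseC = baseC 0 ^ 2 := by
  apply code_inj
  unfold lamB
  rw [pow_two, code_mul (_ : G) (baseC 0 ^ (-(13 : ℤ))), code_inv13]
  simp only [code_mul, code_inv, code_one]
  decide +kernel

theorem baseC_sq : baseC 0 ^ 2 ≠ 1 := by
  intro h
  have := congrArg code h
  rw [pow_two, code_mul, code_one] at this
  revert this
  decide +kernel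

theorem baseC_E : baseC 31 = (baseC 24 * (baseC 2)⁻¹) ^ (1 : ℕ) := by
  apply code_inj
  simp only [pow_succ, pow_zero, one_mul, code_mul, code_inv, code_one]
  decide +kernel

theorem baseC_ord : (baseC 24 * (baseC 2)⁻¹) ^ (14 : ℕ) = 1 := by
  apply code_inj
  simp only [pow_succ, pow_zero, one_mul, code_mul, code_inv, code_one]
  decide +kernel

/-- A colouring of the second pattern with `μ ^ 2 = λ`, `μ ^ 2 ≠ 1`; meridian of order 7,
longitude of order 14 on `E`. -/
def baseD (i : Fin 33) : G :=
  toG ([393, 2571, 1549, 904, 904, 904, 904, 904, 904, 904, 904, 904, 904, 1549, 2571, 393,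
    1294, 2124, 2611, 113, 1270, 2484, 3314, 624, 3314, 2484, 1270, 113, 113, 113, 113, 833,
    2964].getD i.val 0)

theorem baseD_rel : PatRel baseD where
  f0 := code_inj (by rw [code_cj]; decide +kernel)
  f1 := code_inj (by rw [code_cj]; decide +kernel)
  f2 := code_inj (by rw [code_cj]; decide +kernel)
  f3 := code_inj (by rw [code_cj]; decide +kernel)
  f4 := code_inj (by rw [code_cj]; decide +kernel)
  f5 := code_inj (by rw [code_cj]; decide +kernel)
  f6 := code_inj (by rw [code_cj]; decide +kernel)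
  f7 := code_inj (by rw [code_cj]; decide +kernel)
  f8 := code_inj (by rw [code_cj]; decide +kernel)
  f9 := code_inj (by rw [code_cj]; decide +kernel)
  f10 := code_inj (by rw [code_cj]; decide +kernel)
  f11 := code_inj (by rw [code_cj]; decide +kernel)
  f12 := code_inj (by rw [code_cj]; decide +kernel)
  f13 := code_inj (by rw [code_cj]; decide +kernel)
  f14 := code_inj (by rw [code_cj]; decide +kernel)
  f15 := code_inj (by rw [code_cj]; decide +kernel)
  f16 := code_inj (by rw [code_cj]; decide +kernel)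
  f17 := code_inj (by rw [code_cj]; decide +kernel)
  f18 := code_inj (by rw [code_cj]; decide +kernel)
  f19 := code_inj (by rw [code_cj]; decide +kernel)
  f20 := code_inj (by rw [code_cj]; decide +kernel)
  f21 := code_inj (by rw [code_cj]; decide +kernel)
  f22 := code_inj (by rw [code_cj]; decide +kernel)
  f23 := code_inj (by rw [code_cj]; decide +kernel)
  f24 := code_inj (by rw [code_cj]; decide +kernel)
  f25 := code_inj (by rw [code_cj]; decide +kernel)
  f26 := code_inj (by rw [code_cj]; decide +kernel)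
  f27 := code_inj (by rw [code_cj]; decide +kernel)
  f28 := code_inj (by rw [code_cj]; decide +kernel)
  f29 := code_inj (by rw [code_cj]; decide +kernel)
  f30 := code_inj (by rw [code_cj]; decide +kernel)
  f31 := code_inj (by rw [code_cj]; decide +kernel)
  f32 := code_inj (by rw [code_cj]; decide +kernel)

theorem baseD_K : lamB baseD = baseD 0 ^ 2 := by
  apply code_inj
  unfold lamB
  rw [pow_two, code_mul (_ : G) (baseD 0 ^ (-(13 : ℤ))), code_inv13]
  simp only [code_mul, code_inv, code_one]
  decide +kernel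

theorem baseD_sq : baseD 0 ^ 2 ≠ 1 := by
  intro h
  have := congrArg code h
  rw [pow_two, code_mul, code_one] at this
  revert this
  decide +kernel

theorem baseD_E : baseD 31 = (baseD 24 * (baseD 2)⁻¹) ^ (8 : ℕ) := by
  apply code_inj
  simp only [pow_succ, pow_zero, one_mul, code_mul, code_inv, code_one]
  decide +kernel

theorem baseD_ord : (baseD 24 * (baseD 2)⁻¹) ^ (14 : ℕ) = 1 := by
  apply code_inj
  simp only [pow_succ, pow_zero, one_mul, code_mul, code_inv, code_one]
  decide +kernel

theorem isHom_iff {Γ : Type} [Group Γ] (P : Diagram) (ρ : Fin P.n → Γ) :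
    IsHom P ρ ↔ P.IsCol ρ :=
  ⟨fun h i => (P.lift_wirtinger _ i).1 (h i), fun h i => (P.lift_wirtinger _ i).2 (h i)⟩

theorem lon_eq {Γ : Type} [Group Γ] (P : Diagram) (ρ : Fin P.n → Γ) (i : Fin P.n) :
    lon P ρ i = P.lonVal ρ i := by
  unfold lon
  rw [Diagram.lift_longitude]

theorem zpow_mod {H : Type*} [Group H] (x : H) (n m : ℕ) (hx : x ^ n = 1) (f : ℤ)
    (hf : f % n = m) : x ^ f = x ^ m := by
  have h1 : f = n * (f / n) + m := by rw [← hf]; exact (Int.mul_ediv_add_emod f n).symm
  rw [h1, zpow_add, zpow_mul, zpow_natCast, hx, one_zpow, one_mul, zpow_natCast]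

theorem exists_base (f : ℤ) (v : Fin 33 → G) (n m : ℕ) (h1 : PatRel v) (h2 : lamB v = v 0 ^ 2)
    (h3 : v 0 ^ 2 ≠ 1) (h4 : v 31 = (v 24 * (v 2)⁻¹) ^ m) (h5 : (v 24 * (v 2)⁻¹) ^ n = 1)
    (hf : f % n = m) :
    ∃ ρ : Fin patternB.n → G, IsHom patternB ρ ∧ lon patternB ρ patternBK = ρ patternBK ^ 2 ∧
      ρ patternBK ^ 2 ≠ 1 ∧ ρ patternBE = lon patternB ρ patternBE ^ f := by
  refine ⟨v, (isHom_iff _ _).2 (isCol_of_patRel v h1), ?_, h3, ?_⟩
  · exact (lon_eq patternB v patternBK).trans ((lonVal_K v).trans h2)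
  · have e2 : lon patternB v patternBE = v 24 * (v 2)⁻¹ :=
      (lon_eq patternB v patternBE).trans (lonVal_E v)
    exact h4.trans ((zpow_mod _ n m h5 f hf).symm.trans (congrArg (fun x : G => x ^ f) e2.symm))

/-- Row R7. -/
theorem rowR7 : RowR7 := by
  refine ⟨fun f hf => ⟨?_, ?_⟩, G_pow⟩
  · intro ρ h1 h2 h3
    rw [lon_eq] at h2 h3
    have h4 := keyR ρ ((isHom_iff _ _).1 h1) h2 (by
      rw [← h3, pow_two]; rfl)
    rw [pow_two]
    exact h4
  · have h : f % (6 : ℕ) = (2 : ℕ) ∨ f % (6 : ℕ) = (5 : ℕ) ∨ f % (14 : ℕ) = (1 : ℕ) ∨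
        f % (14 : ℕ) = (8 : ℕ) := by
      push_cast
      omega
    rcases h with h | h | h | h
    · exact exists_base f baseA 6 2 baseA_rel baseA_K baseA_sq baseA_E baseA_ord h
    · exact exists_base f baseB 6 5 baseB_rel baseB_K baseB_sq baseB_E baseB_ord h
    · exact exists_base f baseC 14 1 baseC_rel baseC_K baseC_sq baseC_E baseC_ord h
    · exact exists_base f baseD 14 8 baseD_rel baseD_K baseD_sq baseD_E baseD_ord h

end Vale.Agent.P258.R2.H747
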