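import Vale.Agent.P258.R2.H747.E8
import Vale.Agent.P258.H78.Main

set_option linter.all false

/-!
The two inputs of the count modulo seven for the first pattern, `SL(2, 8)` and the slopes `2`, `-2`.
-/

namespace Vale.Agent.P258.Second.H747A

open Vale.Agent.P258 Vale.Agent.P258.Second

/-- Conjugation. -/
def cjm (g : G) : G →* G := (MulAut.conj g⁻¹).toMonoidHom

theorem cjm_apply (g x : G) : cjm g x = g⁻¹ * x * g := by
  simp [cjm]

theorem sq_of_four {x : G} (h : x ^ (4 : ℤ) = 1) : x * x = 1 := by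
  have h1 : x ^ (126 : ℤ) = 1 := by
    have := G_pow x
    exact_mod_cast this
  have h2 : x * x = x ^ (126 : ℤ) * (x ^ (4 : ℤ)) ^ (-31 : ℤ) := by
    rw [← zpow_mul, ← zpow_add, ← zpow_two]
    norm_num
  rw [h2, h1, h, one_zpow, mul_one]

theorem sq_ne {x : G} (h : x ^ ((2 : ℤ) - (-2)) ≠ 1) : x * x ≠ 1 := by
  intro h1
  apply h
  have e : (2 : ℤ) - (-2) = 2 + 2 := by norm_num
  rw [e, zpow_add, zpow_two, h1, one_mul]

theorem four_ne {x : G} (h : x * x ≠ 1) : x ^ ((2 : ℤ) - (-2)) ≠ 1 := by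
  intro h1
  apply h
  apply sq_of_four
  rw [← h1]
  norm_num

/-- The data of the three colourings. -/
structure Three (b : Fin 3 → Fin 21 → G) (m : ℕ) : Prop where
  col : ∀ i, pattern.IsCol (b i)
  sq : ∀ i, b i 0 * b i 0 ≠ 1
  E : ∀ i, b i 19 = pattern.lonVal (b i) patternE ^ m
  seven : ∀ i, pattern.lonVal (b i) patternE ^ (7 : ℕ) = 1
  ne : ∀ i, pattern.lonVal (b i) patternE ≠ 1
  free : ∀ i g, (∀ a, g⁻¹ * b i a * g = b i a) → g = 1
  inj : ∀ i j g, (∀ a, b j a = g⁻¹ * b i a * g) → i = j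

theorem threeP : Three bP 6 :=
  ⟨bP_isCol, bP_sq, bP_E, bP_seven, bP_ne, bP_free, bP_inj⟩

theorem threeM : Three bM 3 :=
  ⟨bM_isCol, bM_sq, bM_E, bM_seven, bM_ne, bM_free, bM_inj⟩

theorem conj_facts {b : Fin 3 → Fin 21 → G} {m : ℕ} (hb : Three b m) (i : Fin 3) (g : G)
    (v : Fin 21 → G) (hv : ∀ a, v a = g⁻¹ * b i a * g) :
    pattern.IsCol v ∧ v 0 * v 0 ≠ 1 ∧ v 19 = pattern.lonVal v patternE ^ m ∧
      pattern.lonVal v patternE ^ (7 : ℕ) = 1 ∧ pattern.lonVal v patternE ≠ 1 ∧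
      (∀ h : G, (∀ a, h * v a * h⁻¹ = v a) → h = 1) ∧
      pattern.lonVal v patternK = g⁻¹ * pattern.lonVal (b i) patternK * g := by
  have e : v = fun a => cjm g (b i a) := by
    funext a
    rw [cjm_apply]
    exact hv a
  have hinj : Function.Injective (cjm g) := (MulAut.conj g⁻¹).injective
  have hE : pattern.lonVal v patternE = cjm g (pattern.lonVal (b i) patternE) := by
    rw [e]; exact Diagram.lonVal_map pattern (b i) (cjm g) patternE
  have hK : pattern.lonVal v patternK = cjm g (pattern.lonVal (b i) patternK) := by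
    rw [e]; exact Diagram.lonVal_map pattern (b i) (cjm g) patternK
  refine ⟨?_, ?_, ?_, ?_, ?_, ?_, ?_⟩
  · rw [e]; exact Diagram.IsCol.map pattern (hb.col i) (cjm g)
  · intro h
    apply hb.sq i
    apply hinj
    rw [map_mul, map_one, cjm_apply, ← hv 0]
    exact h
  · rw [hE, ← map_pow, ← hb.E i, cjm_apply]
    exact hv 19
  · rw [hE, ← map_pow, hb.seven i, map_one]
  · rw [hE]
    intro h
    exact hb.ne i (hinj (by rw [h, map_one]))
  · intro h hh
    have h1 : (g * h⁻¹ * g⁻¹) = 1 := by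
      apply hb.free i
      intro a
      have h2 := hh a
      rw [hv a] at h2
      calc (g * h⁻¹ * g⁻¹)⁻¹ * b i a * (g * h⁻¹ * g⁻¹)
          = g * (h * (g⁻¹ * b i a * g) * h⁻¹) * g⁻¹ := by group
        _ = b i a := by rw [h2]; group
    have h3 : h = g⁻¹ * (g * h⁻¹ * g⁻¹)⁻¹ * g := by group
    rw [h3, h1]
    group
  · rw [hK, cjm_apply]

theorem hT' (v : Fin 21 → G) (hv : pattern.IsCol v)
    (hs : v 0 ^ (2 : ℤ) * pattern.lonVal v patternK = 1 ∨
      v 0 ^ (-2 : ℤ) * pattern.lonVal v patternK = 1)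
    (hne : v 0 ^ ((2 : ℤ) - (-2)) ≠ 1) (hE : pattern.lonVal v patternE = 1 → v 19 = 1) :
    (∀ g : G, (∀ a, g * v a * g⁻¹ = v a) → g = 1) ∧ pattern.lonVal v patternE ^ (7 : ℕ) = 1 := by
  have hsq : v 0 * v 0 ≠ 1 := sq_ne hne
  obtain ⟨m1, m2⟩ := main_of v hv hsq hE
  rcases hs with hs | hs
  · obtain ⟨i, g, hg⟩ := m1 (by rw [← zpow_two]; exact hs)
    obtain ⟨-, -, -, h4, -, h6, -⟩ := conj_facts threeP i g v hg
    exact ⟨h6, h4⟩
  · obtain ⟨i, g, hg⟩ := m2 (by
      have h2 : pattern.lonVal v patternK = (v 0 ^ (-2 : ℤ))⁻¹ :=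
        (inv_eq_of_mul_eq_one_right hs).symm
      rw [h2, ← zpow_neg, neg_neg, zpow_two])
    obtain ⟨-, -, -, h4, -, h6, -⟩ := conj_facts threeM i g v hg
    exact ⟨h6, h4⟩

/-- The first input. -/
theorem hT : ∀ v : Fin pattern.n → G, pattern.IsCol v →
    (v patternK ^ (2 : ℤ) * pattern.lonVal v patternK = 1 ∨
      v patternK ^ (-2 : ℤ) * pattern.lonVal v patternK = 1) →
    v patternK ^ ((2 : ℤ) - (-2)) ≠ 1 → (pattern.lonVal v patternE = 1 → v patternE = 1) →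
    (∀ g : G, (∀ a, g * v a * g⁻¹ = v a) → g = 1) ∧ pattern.lonVal v patternE ^ (7 : ℕ) = 1 :=
  fun v hv hs hne hE => hT' v hv hs hne hE

theorem card_three {b : Fin 3 → Fin 21 → G} {m : ℕ} (hb : Three b m) (S : (Fin 21 → G) → Prop)
    (h1 : ∀ i g, S (fun a => g⁻¹ * b i a * g))
    (h2 : ∀ v, S v → ∃ (i : Fin 3) (g : G), ∀ a, v a = g⁻¹ * b i a * g) :
    Nat.card {v : Fin 21 → G // S v} = 3 * Nat.card G := by
  have h : Nat.card (Fin 3 × G) = Nat.card {v : Fin 21 → G // S v} := by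
    refine Nat.card_eq_of_bijective (fun x : Fin 3 × G =>
      (⟨fun a => x.2⁻¹ * b x.1 a * x.2, h1 x.1 x.2⟩ : {v : Fin 21 → G // S v})) ⟨?_, ?_⟩
    · rintro ⟨i, g⟩ ⟨j, h⟩ hij
      have e : ∀ a, g⁻¹ * b i a * g = h⁻¹ * b j a * h := fun a =>
        congrFun (congrArg Subtype.val hij) a
      have e1 : i = j := by
        apply hb.inj i j (g * h⁻¹)
        intro a
        calc b j a = h * (h⁻¹ * b j a * h) * h⁻¹ := by group
          _ = h * (g⁻¹ * b i a * g) * h⁻¹ := by rw [e a]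
          _ = (g * h⁻¹)⁻¹ * b i a * (g * h⁻¹) := by group
      subst e1
      have e2 : g * h⁻¹ = 1 := by
        apply hb.free i
        intro a
        calc (g * h⁻¹)⁻¹ * b i a * (g * h⁻¹) = h * (g⁻¹ * b i a * g) * h⁻¹ := by group
          _ = h * (h⁻¹ * b i a * h) * h⁻¹ := by rw [e a]
          _ = b i a := by group
      rw [mul_inv_eq_one.1 e2]
    · rintro ⟨v, hv⟩
      obtain ⟨i, g, hg⟩ := h2 v hv
      exact ⟨(i, g), Subtype.ext (funext fun a => (hg a).symm)⟩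
  rw [← h, Nat.card_prod, Nat.card_eq_fintype_card, Fintype.card_fin]

theorem pow_eq_iff {x : G} (h7 : x ^ (7 : ℕ) = 1) (hne : x ≠ 1) (m : ℕ) (f : ℤ) :
    x ^ m = x ^ f ↔ f % 7 = m % 7 := by
  have ho : orderOf x = 7 := by
    haveI : Fact (Nat.Prime 7) := ⟨by norm_num⟩
    exact orderOf_eq_prime h7 hne
  rw [← zpow_natCast, zpow_eq_zpow_iff_modEq, ho]
  constructor
  · intro h
    have h' : (m : ℤ) % 7 = f % 7 := h
    omega
  · intro h
    change (m : ℤ) % 7 = f % 7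
    omega

/-- The number of colourings, for the exponent that occurs. -/
theorem card_yes {b : Fin 3 → Fin 21 → G} {m : ℕ} (hb : Three b m) (f : ℤ) (s : ℤ)
    (hf : f % 7 = m % 7)
    (hs : ∀ i, b i 0 ^ s * pattern.lonVal (b i) patternK = 1)
    (hall : ∀ v : Fin 21 → G, pattern.IsCol v → v 0 * v 0 ≠ 1 →
      (pattern.lonVal v patternE = 1 → v 19 = 1) → v 0 ^ s * pattern.lonVal v patternK = 1 →
      ∃ (i : Fin 3) (g : G), ∀ a, v a = g⁻¹ * b i a * g) :
    Nat.card {v : Fin pattern.n → G // pattern.IsCol v ∧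
      v patternK ^ s * pattern.lonVal v patternK = 1 ∧ v patternK ^ ((2 : ℤ) - (-2)) ≠ 1 ∧
      v patternE = pattern.lonVal v patternE ^ f} = 3 * Nat.card G := by
  refine card_three hb (fun v => pattern.IsCol v ∧
      v patternK ^ s * pattern.lonVal v patternK = 1 ∧ v patternK ^ ((2 : ℤ) - (-2)) ≠ 1 ∧
      v patternE = pattern.lonVal v patternE ^ f) ?_ ?_
  · intro i g
    obtain ⟨c1, c2, c3, c4, c5, -, c7⟩ := conj_facts hb i g (fun a => g⁻¹ * b i a * g)
      (fun a => rfl)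
    refine ⟨c1, ?_, four_ne c2, ?_⟩
    · rw [c7]
      change (g⁻¹ * b i 0 * g) ^ s * _ = 1
      have h1 : (g⁻¹ * b i 0 * g) ^ s = g⁻¹ * b i 0 ^ s * g := by
        have h2 := map_zpow (cjm g) (b i 0) s
        rw [cjm_apply, cjm_apply] at h2
        exact h2.symm
      rw [h1]
      calc g⁻¹ * b i 0 ^ s * g * (g⁻¹ * pattern.lonVal (b i) patternK * g)
          = g⁻¹ * (b i 0 ^ s * pattern.lonVal (b i) patternK) * g := by group
        _ = 1 := by rw [hs i]; group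
    · exact c3.trans ((pow_eq_iff c4 c5 m f).2 hf)
  · rintro v ⟨c1, c2, c3, c4⟩
    exact hall v c1 (sq_ne c3) (fun h => by
      have h4 : v 19 = pattern.lonVal v patternE ^ f := c4
      rw [h4, h, one_zpow]) c2

/-- The number of colourings, for the other exponents. -/
theorem card_no {b : Fin 3 → Fin 21 → G} {m : ℕ} (hb : Three b m) (f : ℤ) (s : ℤ)
    (hf : ¬ f % 7 = m % 7)
    (hall : ∀ v : Fin 21 → G, pattern.IsCol v → v 0 * v 0 ≠ 1 →
      (pattern.lonVal v patternE = 1 → v 19 = 1) → v 0 ^ s * pattern.lonVal v patternK = 1 →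
      ∃ (i : Fin 3) (g : G), ∀ a, v a = g⁻¹ * b i a * g) :
    Nat.card {v : Fin pattern.n → G // pattern.IsCol v ∧
      v patternK ^ s * pattern.lonVal v patternK = 1 ∧ v patternK ^ ((2 : ℤ) - (-2)) ≠ 1 ∧
      v patternE = pattern.lonVal v patternE ^ f} = 0 := by
  haveI : IsEmpty {v : Fin pattern.n → G // pattern.IsCol v ∧
      v patternK ^ s * pattern.lonVal v patternK = 1 ∧ v patternK ^ ((2 : ℤ) - (-2)) ≠ 1 ∧
      v patternE = pattern.lonVal v patternE ^ f} := by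
    constructor
    rintro ⟨v, c1, c2, c3, c4⟩
    have h4 : ∀ u : Fin 21 → G, u patternE = pattern.lonVal u patternE ^ f →
        u 19 = pattern.lonVal u patternE ^ f := fun u hu => hu
    have h4 := h4 v c4
    obtain ⟨i, g, hg⟩ := hall v c1 (sq_ne c3) (fun h => by rw [h4, h, one_zpow]) c2
    obtain ⟨-, -, d3, d4, d5, -, -⟩ := conj_facts hb i g v hg
    exact hf ((pow_eq_iff d4 d5 m f).1 (d3.symm.trans h4))
  exact Nat.card_of_isEmpty

theorem allP (v : Fin 21 → G) (h1 : pattern.IsCol v) (h2 : v 0 * v 0 ≠ 1)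
    (h3 : pattern.lonVal v patternE = 1 → v 19 = 1)
    (h4 : v 0 ^ (2 : ℤ) * pattern.lonVal v patternK = 1) :
    ∃ (i : Fin 3) (g : G), ∀ a, v a = g⁻¹ * bP i a * g :=
  (main_of v h1 h2 h3).1 (by rw [← zpow_two]; exact h4)

theorem allM (v : Fin 21 → G) (h1 : pattern.IsCol v) (h2 : v 0 * v 0 ≠ 1)
    (h3 : pattern.lonVal v patternE = 1 → v 19 = 1)
    (h4 : v 0 ^ (-2 : ℤ) * pattern.lonVal v patternK = 1) :
    ∃ (i : Fin 3) (g : G), ∀ a, v a = g⁻¹ * bM i a * g :=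
  (main_of v h1 h2 h3).2 (by
    have h5 : pattern.lonVal v patternK = (v 0 ^ (-2 : ℤ))⁻¹ :=
      (inv_eq_of_mul_eq_one_right h4).symm
    rw [h5, ← zpow_neg, neg_neg, zpow_two])

/-- The second input. -/
theorem hR : ∀ f : ℤ, (f % 7 = 3 ∨ f % 7 = 6) →
    ¬ (((7 * Nat.card G : ℕ) : ℤ) ∣
      (Nat.card {v : Fin pattern.n → G // pattern.IsCol v ∧
        v patternK ^ (2 : ℤ) * pattern.lonVal v patternK = 1 ∧
        v patternK ^ ((2 : ℤ) - (-2)) ≠ 1 ∧ v patternE = pattern.lonVal v patternE ^ f} : ℤ) -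
      (Nat.card {v : Fin pattern.n → G // pattern.IsCol v ∧
        v patternK ^ (-2 : ℤ) * pattern.lonVal v patternK = 1 ∧
        v patternK ^ ((2 : ℤ) - (-2)) ≠ 1 ∧ v patternE = pattern.lonVal v patternE ^ f} : ℤ)) := by
  intro f hf
  have hP : ∀ i, bP i 0 ^ (2 : ℤ) * pattern.lonVal (bP i) patternK = 1 := fun i => by
    rw [zpow_two]; exact bP_K i
  have hM : ∀ i, bM i 0 ^ (-2 : ℤ) * pattern.lonVal (bM i) patternK = 1 := fun i => by
    rw [bM_K i, zpow_neg, zpow_two]; group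
  have hc : 0 < Nat.card G := Nat.card_pos
  rcases hf with hf | hf
  · rw [card_no threeP f 2 (by omega) allP, card_yes threeM f (-2) (by omega) hM allM]
    rintro ⟨q, hq⟩
    push_cast at hq
    have h1 : (Nat.card G : ℤ) * (7 * q + 3) = 0 := by linarith
    rcases mul_eq_zero.1 h1 with h2 | h2
    · omega
    · omega
  · rw [card_yes threeP f 2 (by omega) hP allP, card_no threeM f (-2) (by omega) allM]
    rintro ⟨q, hq⟩
    push_cast at hq
    have h1 : (Nat.card G : ℤ) * (7 * q - 3) = 0 := by linarith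
    rcases mul_eq_zero.1 h1 with h2 | h2
    · omega
    · omega

end Vale.Agent.P258.Second.H747A
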